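import Vale.Agent.P331.ARk

/-!
The density expansion.
-/

namespace Vale.Agent.P331

open Finset

variable {E : Type} [Fintype E] [DecidableEq E]

omit [Fintype E] in
lemma dval_supermod (R : Rk E) (κ : ℕ) (w : E → ℕ) (A B : Finset E) :
    dval R κ w A + dval R κ w B ≤ dval R κ w (A ∪ B) + dval R κ w (A ∩ B) := by
  unfold dval
  have h1 := sum_union_inter (s₁ := A) (s₂ := B) (f := fun e => (w e : ℤ))
  have h2 : (R.r (A ∪ B) : ℤ) + R.r (A ∩ B) ≤ R.r A + R.r B := by exact_mod_cast R.submod A B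
  have h3 := mul_le_mul_of_nonneg_left h2 (Int.natCast_nonneg κ)
  linarith

omit [Fintype E] in
lemma IsMaxi.union {R : Rk E} {κ : ℕ} {w : E → ℕ} {H A B : Finset E} (hA : IsMaxi R κ w H A)
    (hB : IsMaxi R κ w H B) : IsMaxi R κ w H (A ∪ B) := by
  refine ⟨hA.1.trans subset_union_left, fun F hF => ?_⟩
  have h1 := dval_supermod R κ w A B
  have h2 := hB.2 (A ∩ B) (subset_inter hA.1 hB.1)
  have h3 := hA.2 F hF
  linarith

lemma exists_isMaxi (R : Rk E) (κ : ℕ) (w : E → ℕ) (H : Finset E) : ∃ F, IsMaxi R κ w H F := by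
  obtain ⟨F, hF, hmax⟩ := exists_max_image (univ.filter (fun F : Finset E => H ⊆ F))
    (dval R κ w) ⟨H, by simp⟩
  exact ⟨F, (mem_filter.1 hF).2, fun F' hF' => hmax F' (by simpa using hF')⟩

lemma IsMaxi.subset_Expn {R : Rk E} {κ : ℕ} {w : E → ℕ} {H F : Finset E}
    (h : IsMaxi R κ w H F) : F ⊆ Expn R κ w H := by
  intro e he
  simp only [Expn, mem_filter, mem_univ, true_and]
  exact ⟨F, h, he⟩

lemma Expn_isMaxi (R : Rk E) (κ : ℕ) (w : E → ℕ) (H : Finset E) :
    IsMaxi R κ w H (Expn R κ w H) := by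
  classical
  obtain ⟨F0, hF0⟩ := exists_isMaxi R κ w H
  obtain ⟨F, hF, hmax⟩ := exists_max_image (univ.filter (fun F : Finset E => IsMaxi R κ w H F))
    card ⟨F0, by simpa using hF0⟩
  have hF' : IsMaxi R κ w H F := (mem_filter.1 hF).2
  have : Expn R κ w H = F := by
    refine Subset.antisymm ?_ hF'.subset_Expn
    intro e he
    simp only [Expn, mem_filter, mem_univ, true_and] at he
    obtain ⟨G, hG, heG⟩ := he
    have h1 := hmax (F ∪ G) (by simpa using hF'.union hG)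
    have h2 := eq_of_subset_of_card_le (subset_union_left : F ⊆ F ∪ G) h1
    rw [h2]
    exact mem_union_right _ heG
  rwa [this]

lemma subset_Expn (R : Rk E) (κ : ℕ) (w : E → ℕ) (H : Finset E) : H ⊆ Expn R κ w H :=
  (Expn_isMaxi R κ w H).1

lemma Expn_strict (R : Rk E) (κ : ℕ) (w : E → ℕ) (H : Finset E) {F : Finset E}
    (h : Expn R κ w H ⊂ F) : dval R κ w F < dval R κ w (Expn R κ w H) := by
  by_contra hc
  have hM := Expn_isMaxi R κ w H
  have : IsMaxi R κ w H F :=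
    ⟨hM.1.trans h.subset, fun F' hF' => (hM.2 F' hF').trans (not_lt.1 hc)⟩
  exact h.not_subset this.subset_Expn

lemma dval_le_cl (R : Rk E) (κ : ℕ) (w : E → ℕ) (F : Finset E) :
    dval R κ w F ≤ dval R κ w (R.cl F) := by
  unfold dval
  rw [R.r_cl]
  have := sum_le_sum_of_subset_of_nonneg (f := fun e => (w e : ℤ)) (R.subset_cl F)
    (fun _ _ _ => Int.natCast_nonneg _)
  linarith

lemma Expn_closed (R : Rk E) (κ : ℕ) (w : E → ℕ) (H : Finset E) :
    R.cl (Expn R κ w H) = Expn R κ w H := by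
  have hM := Expn_isMaxi R κ w H
  refine Subset.antisymm (IsMaxi.subset_Expn ⟨hM.1.trans (R.subset_cl _), fun F hF => ?_⟩)
    (R.subset_cl _)
  exact (hM.2 F hF).trans (dval_le_cl R κ w _)

lemma Expn_mono (R : Rk E) (κ : ℕ) (w : E → ℕ) {H H' : Finset E} (h : H ⊆ H') :
    Expn R κ w H ⊆ Expn R κ w H' := by
  have hA := Expn_isMaxi R κ w H
  have hB := Expn_isMaxi R κ w H'
  have : IsMaxi R κ w H' (Expn R κ w H ∪ Expn R κ w H') := by
    refine ⟨hB.1.trans subset_union_right, fun F hF => ?_⟩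
    have h1 := dval_supermod R κ w (Expn R κ w H) (Expn R κ w H')
    have h2 := hA.2 (Expn R κ w H ∩ Expn R κ w H') (subset_inter hA.1 (h.trans hB.1))
    have h3 := hB.2 F hF
    linarith
  exact subset_union_left.trans this.subset_Expn

lemma Expn_subset_cl (R : Rk E) {κ : ℕ} (hκ : 0 < κ) (w : E → ℕ) (H : Finset E) :
    Expn R κ w H ⊆ R.cl (H ∪ (Expn R κ w H).filter (fun e => w e ≠ 0)) := by
  have hA := Expn_isMaxi R κ w H
  set S := Expn R κ w H with hS
  set W := H ∪ S.filter (fun e => w e ≠ 0) with hW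
  have hWS : W ⊆ S := union_subset hA.1 (filter_subset _ _)
  have h1 := hA.2 W subset_union_left
  have h2 : ∑ e ∈ W, (w e : ℤ) = ∑ e ∈ S, (w e : ℤ) := by
    refine sum_subset hWS (fun x hx hx' => ?_)
    by_contra hc
    exact hx' (mem_union_right _ (mem_filter.2 ⟨hx, by exact_mod_cast hc⟩))
  unfold dval at h1
  have h3 : (κ : ℤ) * R.r S ≤ κ * R.r W := by linarith
  have h4 : (R.r S : ℤ) ≤ R.r W := le_of_mul_le_mul_left h3 (by exact_mod_cast hκ)
  have h5 : R.r S ≤ R.r W := by exact_mod_cast h4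
  intro e he
  rw [R.mem_cl]
  have h6 : R.r (insert e W) ≤ R.r S := R.mono (insert_subset he hWS)
  have h7 : R.r W ≤ R.r (insert e W) := R.mono (subset_insert _ _)
  omega

lemma Expn_eq_of (R : Rk E) (κ : ℕ) (w : E → ℕ) {H S : Finset E} (h1 : H ⊆ S)
    (h2 : ∀ F, H ⊆ F → F ⊆ S → dval R κ w F ≤ dval R κ w S)
    (h3 : ∀ F, S ⊂ F → dval R κ w F < dval R κ w S) : Expn R κ w H = S := by
  have hA := Expn_isMaxi R κ w H
  have h4 : IsMaxi R κ w H (Expn R κ w H ∪ S) := by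
    refine ⟨h1.trans subset_union_right, fun F hF => ?_⟩
    have h5 := dval_supermod R κ w (Expn R κ w H) S
    have h6 := h2 (Expn R κ w H ∩ S) (subset_inter hA.1 h1) inter_subset_right
    have h7 := hA.2 F hF
    linarith
  have h5 : S ⊆ Expn R κ w H := subset_union_right.trans h4.subset_Expn
  by_contra hc
  have h6 := h3 _ (Finset.ssubset_iff_subset_ne.2 ⟨h5, fun h => hc h.symm⟩)
  have h7 := hA.2 S h1
  linarith

lemma Expn_ind_empty (R : Rk E) {κ : ℕ} (hκ : 0 < κ) (H : Finset E) :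
    Expn R κ (ind ∅) H = R.cl H := by
  refine Subset.antisymm ?_ ?_
  · have := Expn_subset_cl R hκ (ind ∅) H
    simpa [ind] using this
  · rw [← Expn_closed]
    exact R.cl_mono (subset_Expn R κ _ H)

omit [Fintype E] in
lemma sum_ind (D F : Finset E) : ∑ e ∈ F, ((ind D e : ℕ) : ℤ) = ((D ∩ F).card : ℤ) := by
  simp only [ind, Nat.cast_ite, Nat.cast_one, Nat.cast_zero]
  rw [sum_boole, filter_mem_eq_inter, inter_comm]

lemma Expn_core (R : Rk E) (κ : ℕ) (D : Finset E) :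
    κ * R.r (Expn R κ (ind D) (R.cl ∅)) ≤ D.card := by
  have h1 := (Expn_isMaxi R κ (ind D) (R.cl ∅)).2 _ subset_rfl
  unfold dval at h1
  rw [sum_ind, sum_ind, R.r_cl, R.r_empty] at h1
  have h2 : ((D ∩ Expn R κ (ind D) (R.cl ∅)).card : ℤ) ≤ D.card := by
    exact_mod_cast card_le_card inter_subset_left
  have h3 : (0 : ℤ) ≤ ((D ∩ R.cl ∅).card : ℤ) := Int.natCast_nonneg _
  have h4 : (κ : ℤ) * R.r (Expn R κ (ind D) (R.cl ∅)) ≤ D.card := by
    push_cast at h1
    linarith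
  exact_mod_cast h4

lemma subset_Gam (R : Rk E) (κ : ℕ) (w : E → ℕ) (cap j : ℕ) (F : Finset E) :
    F ⊆ Gam R κ w cap j F := by
  unfold Gam
  split_ifs
  · exact subset_Expn R κ w F
  · exact subset_rfl

lemma Gam_mono (R : Rk E) (κ : ℕ) (w : E → ℕ) (cap : ℕ) {i j : ℕ} (hij : i ≤ j) {F F' : Finset E}
    (h : F ⊆ F') : Gam R κ w cap j F ⊆ Gam R κ w cap i F' := by
  by_cases hj : j < cap
  · have hi : i < cap := hij.trans_lt hj
    simp only [Gam, hj, hi, if_true]
    exact Expn_mono R κ w h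
  · simp only [Gam, hj, if_false]
    exact h.trans (subset_Gam R κ w cap i F')

lemma Gam_closed (R : Rk E) (κ : ℕ) (w : E → ℕ) (cap j : ℕ) {F : Finset E} (h : R.cl F = F) :
    R.cl (Gam R κ w cap j F) = Gam R κ w cap j F := by
  unfold Gam
  split_ifs
  · exact Expn_closed R κ w F
  · exact h

lemma Sw_anti (R : Rk E) (κ : ℕ) (w : E → ℕ) (cap : ℕ) {H : ℕ → Finset E} (h : Antitone H) :
    Antitone (Sw R κ w cap H) :=
  fun _ _ hij => Gam_mono R κ w cap hij (h hij)

end Vale.Agent.P331
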