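import Vale.Agent.P331.ARk
import Vale.Agent.P331.AExp

set_option linter.unusedSectionVars false

namespace Vale.Agent.P331

open Finset

variable {E : Type} [Fintype E] [DecidableEq E]

/-- A chain of flats starting at the ground set. -/
def ChOk (R : Rk E) (H : ℕ → Finset E) : Prop :=
  H 0 = univ ∧ Antitone H ∧ ∀ j, R.cl (H j) = H j

lemma chain_H0 (R : Rk E) : ChOk R (H0 R) := by
  refine ⟨rfl, fun i j hij => ?_, fun j => ?_⟩
  · unfold H0
    by_cases hi : i = 0
    · rw [if_pos hi]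
      exact subset_univ _
    · rw [if_neg hi, if_neg (by omega)]
  · unfold H0
    split_ifs
    · exact (subset_univ _).antisymm (R.subset_cl _)
    · exact R.cl_cl _

lemma chain_stp (R : Rk E) (κ : ℕ) (Dk Yk : Finset E) (cap : ℕ) {H : ℕ → Finset E}
    (h : ChOk R H) : ChOk R (stp R κ Dk Yk cap H) := by
  refine ⟨(subset_univ _).antisymm ?_, fun i j hij => ?_, fun j => R.cl_cl _⟩
  · rw [← h.1]
    exact ((subset_Gam R κ _ cap 0 _).trans subset_union_left).trans (R.subset_cl _)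
  · exact R.cl_mono (union_subset_union (Sw_anti R κ _ cap h.2.1 hij)
      (inter_subset_inter_left (Sw_anti R κ _ cap h.2.1 (Nat.sub_le_sub_right hij 1))))

lemma chain_Hb (R : Rk E) (κ : ℕ) (c : E → ℤ) (D Y : Finset E) (m : ℕ) :
    ∀ k, ChOk R (Hb R κ c D Y m k) := by
  induction m with
  | zero => exact fun _ => chain_H0 R
  | succ m ih => exact fun k => chain_stp R κ _ _ _ (ih _)

lemma chain_Sw_empty (R : Rk E) {κ : ℕ} (hκ : 0 < κ) (cap : ℕ) {H : ℕ → Finset E}
    (h : ∀ j, R.cl (H j) = H j) (j : ℕ) : Sw R κ (ind ∅) cap H j = H j := by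
  unfold Sw Gam
  split_ifs
  · rw [Expn_ind_empty R hκ, h]
  · rfl

lemma chain_stab (R : Rk E) {κ : ℕ} (hκ : 0 < κ) (c : E → ℤ) (D Y : Finset E) (m : ℕ) :
    ∀ k, (∀ f ∈ D ∪ Y, k ≤ c f + m) → Hb R κ c D Y (m + 1) k = Hb R κ c D Y m k := by
  induction m with
  | zero =>
    intro k h
    have hD : sl c D (k - 1) = ∅ := filter_eq_empty_iff.2 fun f hf => by
      have := h f (mem_union_left _ hf)
      omega
    have hY : sl c Y (k - 1) = ∅ := filter_eq_empty_iff.2 fun f hf => by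
      have := h f (mem_union_right _ hf)
      omega
    funext j
    show R.cl (Sw R κ (ind (sl c D (k - 1))) _ (H0 R) j ∪ (sl c Y (k - 1) ∩ _)) = H0 R j
    rw [hD, hY, empty_inter, union_empty, chain_Sw_empty R hκ _ (chain_H0 R).2.2,
      (chain_H0 R).2.2]
  | succ m ih =>
    intro k h
    exact congrArg (stp R κ _ _ _) (ih (k - 1) fun f hf => by
      have := h f hf
      omega)

lemma chain_dep (c : E → ℤ) (X : Finset E) (k : ℤ) {m : ℕ}
    (hm : X.sup (fun f => (k - c f).toNat) ≤ m) : ∀ f ∈ X, k ≤ c f + m := fun f hf => by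
  have : (k - c f).toNat ≤ m := (le_sup (f := fun f => (k - c f).toNat) hf).trans hm
  omega

lemma chain_eq (R : Rk E) {κ : ℕ} (hκ : 0 < κ) (c : E → ℤ) (D Y : Finset E) (k : ℤ) {m : ℕ}
    (h : ∀ f ∈ D ∪ Y, k ≤ c f + m) : Hb R κ c D Y m k = Hlt R κ c D Y k := by
  have hm : (D ∪ Y).sup (fun f => (k - c f).toNat) ≤ m := Finset.sup_le fun f hf => by
    have := h f hf
    omega
  clear h
  induction m, hm using Nat.le_induction with
  | base => rfl
  | succ m hm ih => rw [chain_stab R hκ c D Y m k (chain_dep c _ k hm), ih]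

lemma chain_ind (c : E → ℤ) (X : Finset E) {P : ℤ → Prop}
    (h0 : ∀ k, (∀ f ∈ X, k ≤ c f) → P k) (hs : ∀ k, P k → P (k + 1)) (k : ℤ) : P k := by
  have key : ∀ m : ℕ, ∀ k, (∀ f ∈ X, k ≤ c f + m) → P k := by
    intro m
    induction m with
    | zero => exact fun k h => h0 k fun f hf => by simpa using h f hf
    | succ m ih =>
      intro k h
      have := hs (k - 1) (ih _ fun f hf => by
        have := h f hf
        omega)
      rwa [sub_add_cancel] at this
  exact key _ k (chain_dep c X k le_rfl)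

lemma chain_card (c : E → ℤ) (X : Finset E) (k : ℤ) :
    (X.filter (fun e => c e < k + 1)).card =
      (X.filter (fun e => c e < k)).card + (sl c X k).card := by
  rw [sl, ← card_union_of_disjoint (disjoint_filter.2 fun _ _ h => h.ne), ← filter_or]
  exact congrArg _ (filter_congr fun _ _ => by omega)

lemma chain_filter_congr {c c' : E → ℤ} {D D' : Finset E} {k : ℤ}
    (hD : ∀ i < k, sl c D i = sl c' D' i) :
    D.filter (fun e => c e < k) ⊆ D'.filter (fun e => c' e < k) := fun e he => by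
  obtain ⟨h1, h2⟩ := mem_filter.1 he
  have h3 : e ∈ sl c D (c e) := mem_filter.2 ⟨h1, rfl⟩
  rw [hD _ h2] at h3
  exact mem_filter.2 ⟨(mem_filter.1 h3).1, (mem_filter.1 h3).2 ▸ h2⟩

lemma Hlt_base (R : Rk E) (κ : ℕ) (c : E → ℤ) (D Y : Finset E) (k : ℤ)
    (h : ∀ f ∈ D ∪ Y, k ≤ c f) : Hlt R κ c D Y k = H0 R := by
  have : (D ∪ Y).sup (fun f => (k - c f).toNat) = 0 :=
    Nat.le_zero.1 (Finset.sup_le fun f hf => by
      have := h f hf
      omega)
  rw [Hlt, this]
  rfl

lemma Hlt_succ (R : Rk E) {κ : ℕ} (hκ : 0 < κ) (c : E → ℤ) (D Y : Finset E) (k : ℤ) :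
    Hlt R κ c D Y (k + 1) =
      stp R κ (sl c D k) (sl c Y k) (capf c D k) (Hlt R κ c D Y k) := by
  have h := chain_dep c (D ∪ Y) k le_rfl
  rw [← chain_eq R hκ c D Y (k + 1) (m := (D ∪ Y).sup (fun f => (k - c f).toNat) + 1)
    fun f hf => by
      have := h f hf
      omega]
  rw [Hb, add_sub_cancel_right]
  rfl

lemma Hlt_succ_apply (R : Rk E) {κ : ℕ} (hκ : 0 < κ) (c : E → ℤ) (D Y : Finset E) (k : ℤ) (j : ℕ) :
    Hlt R κ c D Y (k + 1) j =
      R.cl (Sl R κ c D Y k j ∪ (sl c Y k ∩ Sl R κ c D Y k (j - 1))) := by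
  rw [Hlt_succ R hκ]
  rfl

lemma Hlt_zero (R : Rk E) (κ : ℕ) (c : E → ℤ) (D Y : Finset E) (k : ℤ) :
    Hlt R κ c D Y k 0 = univ := by
  exact (chain_Hb R κ c D Y _ k).1

lemma Hlt_anti (R : Rk E) (κ : ℕ) (c : E → ℤ) (D Y : Finset E) (k : ℤ) :
    Antitone (Hlt R κ c D Y k) := by
  exact (chain_Hb R κ c D Y _ k).2.1

lemma Hlt_closed (R : Rk E) (κ : ℕ) (c : E → ℤ) (D Y : Finset E) (k : ℤ) (j : ℕ) :
    R.cl (Hlt R κ c D Y k j) = Hlt R κ c D Y k j := by
  exact (chain_Hb R κ c D Y _ k).2.2 j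

lemma Hlt_subset_Sl (R : Rk E) (κ : ℕ) (c : E → ℤ) (D Y : Finset E) (k : ℤ) (j : ℕ) :
    Hlt R κ c D Y k j ⊆ Sl R κ c D Y k j := by
  exact subset_Gam R κ _ _ j _

lemma Sl_subset_Hlt (R : Rk E) {κ : ℕ} (hκ : 0 < κ) (c : E → ℤ) (D Y : Finset E) (k : ℤ) (j : ℕ) :
    Sl R κ c D Y k j ⊆ Hlt R κ c D Y (k + 1) j := by
  rw [Hlt_succ_apply R hκ]
  exact subset_union_left.trans (R.subset_cl _)

lemma Sl_anti (R : Rk E) (κ : ℕ) (c : E → ℤ) (D Y : Finset E) (k : ℤ) :
    Antitone (Sl R κ c D Y k) := by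
  exact Sw_anti R κ _ _ (Hlt_anti R κ c D Y k)

lemma Sl_zero (R : Rk E) (κ : ℕ) (c : E → ℤ) (D Y : Finset E) (k : ℤ) :
    Sl R κ c D Y k 0 = univ := by
  exact (subset_univ _).antisymm (Hlt_zero R κ c D Y k ▸ Hlt_subset_Sl R κ c D Y k 0)

lemma Hlt_mono (R : Rk E) {κ : ℕ} (hκ : 0 < κ) (c : E → ℤ) (D Y : Finset E) {k k' : ℤ}
    (h : k ≤ k') (j : ℕ) : Hlt R κ c D Y k j ⊆ Hlt R κ c D Y k' j := by
  induction k', h using Int.leInduction with
  | base => exact Subset.rfl
  | succ k' _ ih => exact ih.trans ((Hlt_subset_Sl R κ c D Y k' j).trans (Sl_subset_Hlt R hκ c D Y k' j))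

lemma Hlt_cap (R : Rk E) {κ : ℕ} (hκ : 0 < κ) (c : E → ℤ) (D Y : Finset E) (k : ℤ) {j : ℕ}
    (h : capf c D k ≤ j + 1) : Hlt R κ c D Y k j = R.cl ∅ := by
  have hn : ∀ k, (Y.filter (fun e => c e < k)).card ≤ Fintype.card E := fun k => card_le_univ _
  have key : ∀ k j, 1 + (Fintype.card E + 2) * (D.filter (fun e => c e < k)).card +
      (Y.filter (fun e => c e < k)).card ≤ j → Hlt R κ c D Y k j = R.cl ∅ := by
    refine chain_ind c (D ∪ Y) (fun k hk j hj => ?_) fun k ih j hj => ?_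
    · rw [Hlt_base R κ c D Y k hk, H0, if_neg (by omega)]
    · rw [chain_card, chain_card, mul_add] at hj
      have h1 : Sl R κ c D Y k j = R.cl ∅ ∧
          (sl c Y k = ∅ ∨ Sl R κ c D Y k (j - 1) = R.cl ∅) := by
        by_cases hD : sl c D k = ∅
        · have h2 : ∀ i, Sl R κ c D Y k i = Hlt R κ c D Y k i := fun i => by
            rw [Sl, hD, chain_Sw_empty R hκ _ (Hlt_closed R κ c D Y k)]
          rw [h2, h2]
          refine ⟨ih j (by omega), (eq_empty_or_nonempty _).imp_right fun hY => ih _ ?_⟩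
          have := hY.card_pos
          omega
        · have h2 := Nat.mul_le_mul_left (Fintype.card E + 2) (nonempty_iff_ne_empty.2 hD).card_pos
          have h3 : ∀ i, j - 1 ≤ i → Sl R κ c D Y k i = R.cl ∅ := fun i hi => by
            have := hn k
            rw [Sl, Sw, Gam, if_neg (by rw [capf, mul_add]; omega)]
            exact ih i (by omega)
          exact ⟨h3 j (by omega), Or.inr (h3 _ le_rfl)⟩
      rw [Hlt_succ_apply R hκ, h1.1]
      rcases h1.2 with h2 | h2
      · rw [h2, empty_inter, union_empty, R.cl_cl]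
      · rw [h2, union_eq_left.2 inter_subset_right, R.cl_cl]
  refine key k j ?_
  have := hn k
  rw [capf, mul_add] at h
  omega

lemma two_le_capf (c : E → ℤ) (D : Finset E) (k : ℤ) : 2 ≤ capf c D k := by
  rw [capf, mul_add]
  omega

lemma capf_le_Nb (c : E → ℤ) (D : Finset E) (k : ℤ) : capf c D k ≤ Nb E := by
  exact Nat.mul_le_mul_left _ (Nat.add_le_add_left (card_le_univ _) 1)

lemma Hfin_anti (R : Rk E) (κ : ℕ) (c : E → ℤ) (D Y : Finset E) :
    Antitone (Hfin R κ c D Y) := by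
  intro i j hij e he
  simp only [Hfin, mem_filter, mem_univ, true_and] at he ⊢
  exact he.imp fun k hk => Hlt_anti R κ c D Y k hij hk

lemma Hlt_subset_Hfin (R : Rk E) (κ : ℕ) (c : E → ℤ) (D Y : Finset E) (k : ℤ) (j : ℕ) :
    Hlt R κ c D Y k j ⊆ Hfin R κ c D Y j := by
  intro e he
  simp only [Hfin, mem_filter, mem_univ, true_and]
  exact ⟨k, he⟩

lemma Hfin_subset (R : Rk E) {κ : ℕ} (hκ : 0 < κ) (c : E → ℤ) (D Y : Finset E) (k : ℤ) (j : ℕ) :
    Hfin R κ c D Y j ⊆
      R.cl (Hlt R κ c D Y (k + 1) j ∪ (D ∪ Y).filter (fun e => k < c e)) := by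
  intro e he
  simp only [Hfin, mem_filter, mem_univ, true_and] at he
  obtain ⟨k', he⟩ := he
  revert e
  rcases le_total k' (k + 1) with h | h
  · exact (Hlt_mono R hκ c D Y h j).trans (subset_union_left.trans (R.subset_cl _))
  · induction k', h using Int.leInduction with
    | base => exact subset_union_left.trans (R.subset_cl _)
    | succ k' hk ih =>
      have hZ : ∀ X ⊆ D ∪ Y, sl c X k' ⊆
          R.cl (Hlt R κ c D Y (k + 1) j ∪ (D ∪ Y).filter (fun e => k < c e)) := fun X hX f hf =>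
        R.subset_cl _ (mem_union_right _ (mem_filter.2 ⟨hX (mem_filter.1 hf).1, by
          have := (mem_filter.1 hf).2
          omega⟩))
      show Hlt R κ c D Y (k' + 1) j ⊆ _
      rw [Hlt_succ_apply R hκ c D Y k']
      refine R.cl_subset_cl (union_subset ?_ (inter_subset_left.trans (hZ Y subset_union_right)))
      rw [Sl, Sw, Gam]
      split_ifs
      · refine (Expn_subset_cl R hκ _ _).trans (R.cl_subset_cl (union_subset ih fun f hf => ?_))
        refine hZ D subset_union_left ?_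
        by_contra h1
        exact (mem_filter.1 hf).2 (if_neg h1)
      · exact ih

lemma capf_congr {c c' : E → ℤ} {D D' : Finset E} {k : ℤ}
    (hD : ∀ i < k, sl c D i = sl c' D' i) : capf c D k = capf c' D' k := by
  rw [capf, capf, (chain_filter_congr hD).antisymm (chain_filter_congr fun i hi => (hD i hi).symm)]

lemma Hlt_congr (R : Rk E) {κ : ℕ} (hκ : 0 < κ) {c c' : E → ℤ} {D D' Y Y' : Finset E} {k : ℤ}
    (hD : ∀ i < k, sl c D i = sl c' D' i) (hY : ∀ i < k, sl c Y i = sl c' Y' i) :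
    Hlt R κ c D Y k = Hlt R κ c' D' Y' k := by
  have key : ∀ m k, (∀ i < k, sl c D i = sl c' D' i) → (∀ i < k, sl c Y i = sl c' Y' i) →
      Hb R κ c D Y m k = Hb R κ c' D' Y' m k := by
    intro m
    induction m with
    | zero => exact fun _ _ _ => rfl
    | succ m ih =>
      intro k hD hY
      rw [Hb, Hb, hD _ (by omega), hY _ (by omega),
        capf_congr (k := k - 1) fun i hi => hD i (by omega),
        ih (k - 1) (fun i hi => hD i (by omega)) fun i hi => hY i (by omega)]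
  rw [← chain_eq R hκ c D Y k (chain_dep c _ k (le_max_left _
    ((D' ∪ Y').sup (fun f => (k - c' f).toNat)))), key _ k hD hY,
    chain_eq R hκ c' D' Y' k (chain_dep c' _ k (le_max_right _ _))]

lemma Sl_congr (R : Rk E) {κ : ℕ} (hκ : 0 < κ) {c c' : E → ℤ} {D D' Y Y' : Finset E} {k : ℤ}
    (hD : ∀ i ≤ k, sl c D i = sl c' D' i) (hY : ∀ i < k, sl c Y i = sl c' Y' i) :
    Sl R κ c D Y k = Sl R κ c' D' Y' k := by
  rw [Sl, Sl, hD k le_rfl, capf_congr fun i hi => hD i hi.le,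
    Hlt_congr R hκ (fun i hi => hD i hi.le) hY]

end Vale.Agent.P331
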