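import Vale.Agent.P331.ADefs

/-!
Finite expectations over independent labels.
-/

namespace Vale.Agent.P331

open Finset

variable {E : Type} [Fintype E] [DecidableEq E]

lemma Ex_weight_sum {L : Type} [Fintype L] {p : L → ℝ} (hp : IsLaw p) :
    ∑ a : E → L, ∏ e, p (a e) = 1 := by
  classical
  have h := Finset.prod_univ_sum (fun _ : E => (univ : Finset L)) (fun _ x => p x)
  rw [Fintype.piFinset_univ] at h
  rw [← h, hp.2]
  simp

lemma Ex_const {L : Type} [Fintype L] {p : L → ℝ} (hp : IsLaw p) (x : ℝ) :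
    Ex p (fun _ : E → L => x) = x := by
  unfold Ex
  rw [← sum_mul, Ex_weight_sum hp, one_mul]

lemma Ex_mono {L : Type} [Fintype L] {p : L → ℝ} (hp : IsLaw p) {F G : (E → L) → ℝ}
    (h : ∀ a, F a ≤ G a) : Ex p F ≤ Ex p G :=
  sum_le_sum (fun a _ => mul_le_mul_of_nonneg_left (h a) (prod_nonneg (fun e _ => hp.1 (a e))))

lemma Ex_add {L : Type} [Fintype L] (p : L → ℝ) (F G : (E → L) → ℝ) :
    Ex p (fun a => F a + G a) = Ex p F + Ex p G := by
  simp only [Ex, mul_add, sum_add_distrib]

lemma Ex_sub {L : Type} [Fintype L] (p : L → ℝ) (F G : (E → L) → ℝ) :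
    Ex p (fun a => F a - G a) = Ex p F - Ex p G := by
  simp only [Ex, mul_sub, sum_sub_distrib]

lemma Ex_const_mul {L : Type} [Fintype L] (p : L → ℝ) (x : ℝ) (F : (E → L) → ℝ) :
    Ex p (fun a => x * F a) = x * Ex p F := by
  simp only [Ex, mul_sum]
  exact sum_congr rfl (fun a _ => by ring)

lemma Ex_sum {L ι : Type} [Fintype L] (p : L → ℝ) (s : Finset ι) (F : ι → (E → L) → ℝ) :
    Ex p (fun a => ∑ i ∈ s, F i a) = ∑ i ∈ s, Ex p (F i) := by
  simp only [Ex, mul_sum]
  exact sum_comm

lemma Ex_comm {L L' : Type} [Fintype L] [Fintype L'] (p : L → ℝ) (q : L' → ℝ)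
    (F : (E → L) → (E → L') → ℝ) :
    Ex p (fun a => Ex q (fun b => F a b)) = Ex q (fun b => Ex p (fun a => F a b)) := by
  simp only [Ex, mul_sum]
  rw [sum_comm]
  exact sum_congr rfl (fun b _ => sum_congr rfl (fun a _ => by ring))

lemma Ex_update {L : Type} [Fintype L] {p : L → ℝ} (hp : IsLaw p) (e : E) (F : (E → L) → ℝ) :
    Ex p F = Ex p (fun a => ∑ x, p x * F (Function.update a e x)) := by
  have hw : ∀ a : E → L, ∏ f, p (a f) = p (a e) * ∏ f ∈ univ.erase e, p (a f) :=
    fun a => (mul_prod_erase univ (fun f => p (a f)) (mem_univ e)).symm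
  have hu : ∀ (a : E → L) (x : L), ∏ f ∈ univ.erase e, p (Function.update a e x f) =
      ∏ f ∈ univ.erase e, p (a f) := fun a x =>
    prod_congr rfl (fun f hf => by rw [Function.update_of_ne (mem_erase.1 hf).1])
  let σ : (E → L) × L → (E → L) × L := fun q => (Function.update q.1 e q.2, q.1 e)
  have hσ : Function.Involutive σ := by
    intro q
    simp [σ]
  have h1 : Ex p F = ∑ q : (E → L) × L, (∏ f, p (q.1 f)) * p q.2 * F q.1 := by
    rw [Fintype.sum_prod_type]
    unfold Ex
    refine sum_congr rfl (fun a _ => ?_)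
    dsimp only
    rw [← sum_mul, ← mul_sum, hp.2, mul_one]
  have h2 : Ex p (fun a => ∑ x, p x * F (Function.update a e x)) =
      ∑ q : (E → L) × L, (∏ f, p (q.1 f)) * p q.2 * F (Function.update q.1 e q.2) := by
    rw [Fintype.sum_prod_type]
    unfold Ex
    refine sum_congr rfl (fun a _ => ?_)
    rw [mul_sum]
    exact sum_congr rfl (fun x _ => by ring)
  rw [h1, h2, ← hσ.bijective.sum_comp]
  refine sum_congr rfl (fun q _ => ?_)
  simp only [σ]
  rw [hw (Function.update q.1 e q.2), hu, hw q.1, Function.update_self]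
  ring

lemma Ex_ite_mul {L : Type} [Fintype L] [DecidableEq L] {p : L → ℝ} (hp : IsLaw p) (e : E) (x : L)
    {F : (E → L) → ℝ} (hF : ∀ a z, F (Function.update a e z) = F a) :
    Ex p (fun a => if a e = x then F a else 0) = p x * Ex p F := by
  rw [Ex_update hp e, ← Ex_const_mul]
  congr 1
  funext a
  simp only [Function.update_self, hF, mul_ite, mul_zero]
  rw [sum_ite_eq' univ x (fun z => p z * F a)]
  simp

lemma Ex_card_lab {L : Type} [Fintype L] [DecidableEq L] {p : L → ℝ} (hp : IsLaw p)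
    (X : Finset E) (x : L) : Ex p (fun a => ((lab X a x).card : ℝ)) = p x * X.card := by
  have h1 : ∀ a : E → L, ((lab X a x).card : ℝ) = ∑ e ∈ X, if a e = x then (1 : ℝ) else 0 := by
    intro a
    rw [lab, sum_boole]
  simp only [h1]
  rw [Ex_sum p X (fun e a => if a e = x then (1 : ℝ) else 0)]
  rw [sum_congr rfl (fun e _ => Ex_ite_mul hp e x (F := fun _ => (1 : ℝ)) (fun _ _ => rfl))]
  rw [Ex_const hp]
  simp [mul_comm]

lemma isLaw_half : IsLaw half := by
  refine ⟨fun _ => by simp [half], ?_⟩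
  simp [half]

lemma isLaw_pa : IsLaw pa := by
  refine ⟨fun x => ?_, ?_⟩
  · fin_cases x <;> simp [pa]
    norm_num
  · simp [pa, Fin.sum_univ_three]
    norm_num

end Vale.Agent.P331
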