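import Vale.Agent.P331.ADefs

/-!
Rank and closure.
-/

namespace Vale.Agent.P331

open Finset

variable {E : Type} [Fintype E] [DecidableEq E]

omit [Fintype E] in
lemma Rk.r_empty (R : Rk E) : R.r ∅ = 0 := by
  have := R.le_card ∅
  simpa using this

lemma Rk.mem_cl (R : Rk E) {X : Finset E} {e : E} :
    e ∈ R.cl X ↔ R.r (insert e X) = R.r X := by
  simp [Rk.cl]

lemma Rk.subset_cl (R : Rk E) (X : Finset E) : X ⊆ R.cl X := by
  intro e he
  rw [R.mem_cl, insert_eq_of_mem he]

omit [Fintype E] in
lemma Rk.r_union_le (R : Rk E) (X Y : Finset E) : R.r (X ∪ Y) ≤ R.r X + R.r Y := by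
  have := R.submod X Y
  omega

omit [Fintype E] in
lemma Rk.r_union_le_card (R : Rk E) (X Y : Finset E) : R.r (X ∪ Y) ≤ R.r X + Y.card := by
  have h1 := R.r_union_le X Y
  have h2 := R.le_card Y
  omega

lemma Rk.r_insert_of_notMem_cl (R : Rk E) {X : Finset E} {e : E} (h : e ∉ R.cl X) :
    R.r (insert e X) = R.r X + 1 := by
  rw [R.mem_cl] at h
  have h1 := R.r_union_le_card X {e}
  have h2 : R.r X ≤ R.r (insert e X) := R.mono (subset_insert e X)
  rw [union_comm, ← insert_eq, card_singleton] at h1
  omega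

omit [Fintype E] in
lemma Rk.dimin (R : Rk E) {A B : Finset E} (h : A ⊆ B) (C : Finset E) :
    R.r (B ∪ C) + R.r A ≤ R.r (A ∪ C) + R.r B := by
  have h1 := R.submod (A ∪ C) B
  have h2 : R.r (B ∪ C) ≤ R.r (A ∪ C ∪ B) := R.mono (by
    intro x hx
    simp only [mem_union] at hx ⊢
    tauto)
  have h3 : R.r A ≤ R.r ((A ∪ C) ∩ B) := R.mono (by
    intro x hx
    simp only [mem_union, mem_inter]
    exact ⟨Or.inl hx, h hx⟩)
  omega

lemma Rk.cl_mono (R : Rk E) {X Y : Finset E} (h : X ⊆ Y) : R.cl X ⊆ R.cl Y := by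
  intro e he
  rw [R.mem_cl] at he ⊢
  have h1 := R.dimin h {e}
  rw [union_comm Y, union_comm X, ← insert_eq, ← insert_eq] at h1
  have h2 : R.r Y ≤ R.r (insert e Y) := R.mono (subset_insert e Y)
  omega

lemma Rk.r_union_of_subset_cl (R : Rk E) {X Z : Finset E} (h : Z ⊆ R.cl X) :
    R.r (X ∪ Z) = R.r X := by
  induction Z using Finset.induction_on with
  | empty => simp
  | insert e Z he ih =>
    have h1 := ih ((subset_insert e Z).trans h)
    have h2 : e ∈ R.cl (X ∪ Z) := R.cl_mono subset_union_left (h (mem_insert_self e Z))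
    rw [R.mem_cl] at h2
    rw [union_insert, h2, h1]

lemma Rk.r_cl (R : Rk E) (X : Finset E) : R.r (R.cl X) = R.r X := by
  have h := R.r_union_of_subset_cl (X := X) (Z := R.cl X) subset_rfl
  rwa [union_eq_right.2 (R.subset_cl X)] at h

lemma Rk.r_le_of_subset_cl (R : Rk E) {X Y : Finset E} (h : X ⊆ R.cl Y) : R.r X ≤ R.r Y := by
  rw [← R.r_cl Y]
  exact R.mono h

lemma Rk.cl_subset_cl (R : Rk E) {X Y : Finset E} (h : X ⊆ R.cl Y) : R.cl X ⊆ R.cl Y := by
  intro e he
  have h1 : e ∈ R.cl (R.cl Y) := R.cl_mono h he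
  rw [R.mem_cl, R.r_cl] at h1
  rw [R.mem_cl]
  have h2 : R.r (insert e Y) ≤ R.r (insert e (R.cl Y)) :=
    R.mono (insert_subset_insert e (R.subset_cl Y))
  have h3 : R.r Y ≤ R.r (insert e Y) := R.mono (subset_insert e Y)
  omega

lemma Rk.cl_cl (R : Rk E) (X : Finset E) : R.cl (R.cl X) = R.cl X :=
  Subset.antisymm (R.cl_subset_cl subset_rfl) (R.subset_cl _)

lemma Rk.r_cl_union (R : Rk E) (A C : Finset E) : R.r (R.cl A ∪ C) = R.r (A ∪ C) := by
  refine le_antisymm (R.r_le_of_subset_cl ?_) (R.mono (union_subset_union_left (R.subset_cl A)))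
  exact union_subset (R.cl_mono subset_union_left) (subset_union_right.trans (R.subset_cl _))

lemma Rk.dimin_cl (R : Rk E) {A B : Finset E} (h : A ⊆ R.cl B) (C : Finset E) :
    R.r (B ∪ C) + R.r A ≤ R.r (A ∪ C) + R.r B := by
  have h1 := R.dimin h C
  rwa [R.r_cl_union, R.r_cl] at h1

lemma Rk.r_lt_of_closed (R : Rk E) {S F : Finset E} (hS : R.cl S = S) (h : S ⊂ F) :
    R.r S < R.r F := by
  obtain ⟨e, heF, heS⟩ := exists_of_ssubset h
  have h1 := R.r_insert_of_notMem_cl (X := S) (e := e) (by rwa [hS])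
  have h2 : R.r (insert e S) ≤ R.r F := R.mono (insert_subset heF h.subset)
  omega

omit [Fintype E] in
lemma Rk.indep_subset (R : Rk E) {A B : Finset E} (hA : R.r A = A.card) (h : B ⊆ A) :
    R.r B = B.card := by
  have h1 := R.r_union_le_card B (A \ B)
  rw [union_sdiff_of_subset h, hA] at h1
  have h2 := card_sdiff_add_card_eq_card h
  have h3 := R.le_card B
  omega

omit [Fintype E] in
lemma Rk.card_le_r (R : Rk E) {I J X : Finset E} (hI : R.r I = I.card) (hJ : J ⊆ I)
    (hX : J ⊆ X) : J.card ≤ R.r X := by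
  rw [← R.indep_subset hI hJ]
  exact R.mono hX

lemma Rk.indep_of_key (R : Rk E) {α : Type} [LinearOrder α] (key : E → α) (A : Finset E)
    (hinj : Set.InjOn key (A : Set E))
    (h : ∀ e ∈ A, e ∉ R.cl (A.filter (fun f => key f < key e))) : R.r A = A.card := by
  have : ∀ s : Finset E, s ⊆ A → R.r s = s.card := by
    intro s
    induction s using Finset.induction_on_max_value key with
    | empty => intro _; simp [R.r_empty]
    | insert a s ha hmax ih =>
      intro hsub
      have hs : s ⊆ A := (subset_insert a s).trans hsub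
      have haA : a ∈ A := hsub (mem_insert_self a s)
      have h1 : a ∉ R.cl s := by
        refine fun hc => h a haA (R.cl_mono ?_ hc)
        intro y hy
        refine mem_filter.2 ⟨hs hy, lt_of_le_of_ne (hmax y hy) ?_⟩
        intro hk
        exact ha (hinj (hs hy) haA hk ▸ hy)
      rw [R.r_insert_of_notMem_cl h1, ih hs, card_insert_of_notMem ha]
  exact this A subset_rfl

lemma Rk.greedy_span (R : Rk E) {α : Type} [LinearOrder α] (key : E → α) (X C : Finset E) :
    C ⊆ R.cl (X ∪ C.filter (fun e => e ∉ R.cl (X ∪ C.filter (fun f => key f < key e)))) := by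
  set W := X ∪ C.filter (fun e => e ∉ R.cl (X ∪ C.filter (fun f => key f < key e))) with hW
  have : ∀ n, ∀ e ∈ C, (C.filter (fun f => key f < key e)).card = n → e ∈ R.cl W := by
    intro n
    induction n using Nat.strong_induction_on with
    | _ n ih =>
      intro e he hn
      by_cases h : e ∈ R.cl (X ∪ C.filter (fun f => key f < key e))
      · refine R.cl_subset_cl (union_subset ?_ ?_) h
        · exact subset_union_left.trans (R.subset_cl W)
        · intro f hf
          have hf' := mem_filter.1 hf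
          refine ih _ ?_ f hf'.1 rfl
          rw [← hn]
          refine card_lt_card ⟨?_, ?_⟩
          · intro g hg
            have hg' := mem_filter.1 hg
            exact mem_filter.2 ⟨hg'.1, hg'.2.trans hf'.2⟩
          · intro hsub
            have := mem_filter.1 (hsub hf)
            exact lt_irrefl _ this.2
      · exact R.subset_cl W (mem_union_right _ (mem_filter.2 ⟨he, h⟩))
  intro e he
  exact this _ e he rfl

lemma Rk.coloops (R : Rk E) {W F : Finset E} (hF : F ⊆ W)
    (h : ∀ e ∈ F, e ∉ R.cl (W.erase e)) : R.r (W \ F) + F.card ≤ R.r W := by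
  induction F using Finset.induction_on with
  | empty => simp
  | insert e F he ih =>
    have h1 := ih ((subset_insert e F).trans hF) (fun x hx => h x (mem_insert_of_mem hx))
    have heW : e ∈ W := hF (mem_insert_self e F)
    have h2 : e ∉ R.cl (W \ insert e F) := by
      refine fun hc => h e (mem_insert_self e F) (R.cl_mono ?_ hc)
      intro x hx
      simp only [mem_sdiff, mem_insert, not_or] at hx
      exact mem_erase.2 ⟨hx.2.1, hx.1⟩
    have h3 := R.r_insert_of_notMem_cl h2
    have h4 : insert e (W \ insert e F) = W \ F := by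
      ext x
      simp only [mem_insert, mem_sdiff, not_or]
      constructor
      · rintro (rfl | hx)
        · exact ⟨heW, he⟩
        · exact ⟨hx.1, hx.2.2⟩
      · intro hx
        by_cases hxe : x = e
        · exact Or.inl hxe
        · exact Or.inr ⟨hx.1, hxe, hx.2⟩
    rw [h4] at h3
    rw [card_insert_of_notMem he]
    omega

end Vale.Agent.P331
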