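import Vale.Agent.P331.ADefs
import Vale.Agent.P331.ARk
import Vale.Agent.P331.AEx

/-! The greedy basis and the cleaning step. -/

namespace Vale.Agent.P331

open Finset

variable {E : Type} [Fintype E] [DecidableEq E]

omit [DecidableEq E] in
lemma akey_injective (c : E → ℤ) : Function.Injective (akey c) := by
  intro e f h
  have h1 : ((Fintype.equivFin E e : ℕ)) = (Fintype.equivFin E f : ℕ) :=
    congrArg (fun x : ℤ ×ₗ ℕ => (ofLex x).2) h
  exact (Fintype.equivFin E).injective (Fin.ext h1)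

omit [DecidableEq E] in
lemma akey_lt_le (c : E → ℤ) {e g : E} (h : akey c e < akey c g) : c e ≤ c g := by
  rcases Prod.Lex.toLex_lt_toLex.1 h with h1 | h1
  · exact h1.le
  · exact h1.1.le

lemma bas_indep_aux (R : Rk E) (c : E → ℤ) (A : Finset E)
    (h : ∀ e ∈ A, e ∉ R.cl (A.filter (fun g => akey c e < akey c g))) : R.r A = A.card :=
  R.indep_of_key (fun e => OrderDual.toDual (akey c e)) A
    (fun _ _ _ _ hh => akey_injective c (OrderDual.toDual.injective hh)) h

theorem bas_indep (R : Rk E) (P : Finset E) (c : E → ℤ) :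
    R.r (Bas R P c) = (Bas R P c).card := by
  refine bas_indep_aux R c _ fun e he hcl => (mem_filter.1 he).2 (R.cl_mono ?_ hcl)
  exact filter_subset_filter _ (filter_subset _ _)

theorem bas_span (R : Rk E) (P : Finset E) (c : E → ℤ) (k : ℤ) :
    R.r (P.filter (fun e => k ≤ c e)) ≤ ((Bas R P c).filter (fun e => k ≤ c e)).card := by
  have h := R.greedy_span (fun e => OrderDual.toDual (akey c e)) ∅ (P.filter (fun e => k ≤ c e))
  refine (R.r_le_of_subset_cl h).trans ((R.le_card _).trans (card_le_card ?_))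
  intro e he
  rw [empty_union, mem_filter, mem_filter] at he
  refine mem_filter.2 ⟨mem_filter.2 ⟨he.1.1, fun hcl => he.2 (R.cl_mono ?_ hcl)⟩, he.1.2⟩
  intro g hg
  rw [mem_filter] at hg
  exact mem_union_right _
    (mem_filter.2 ⟨mem_filter.2 ⟨hg.1, he.1.2.trans (akey_lt_le c hg.2)⟩, hg.2⟩)

theorem Ex_bas (R : Rk E) (P : Finset E) (c : E → ℤ) (k : ℤ) :
    (1 / 2 : ℝ) * (sl c (Bas R P c) k).card ≤
      Ex half (fun s => ((sl c (Bas R P c ∩ Gs R P c s) k).card : ℝ)) := by
  refine (Ex_card_lab isLaw_half (sl c (Bas R P c) k) false).symm.le.trans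
    (Ex_mono isLaw_half fun s => Nat.cast_le.2 (card_le_card ?_))
  intro e he
  obtain ⟨h1, h2⟩ := mem_filter.1 he
  obtain ⟨h3, h4⟩ := mem_filter.1 h1
  obtain ⟨h5, h6⟩ := mem_filter.1 h3
  refine mem_filter.2 ⟨mem_inter.2 ⟨h3, mem_filter.2 ⟨h5, h2, fun hcl => h6 (R.cl_mono ?_ hcl)⟩⟩,
    h4⟩
  intro g hg
  rw [mem_filter] at hg ⊢
  exact ⟨hg.1, hg.2.2⟩

theorem Ex_Gs (R : Rk E) (P : Finset E) (c : E → ℤ) (k : ℤ) :
    Ex half (fun s => ((sl c (Gs R P c s) k).card : ℝ)) ≤
      R.r (P.filter (fun e => k ≤ c e)) := by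
  obtain ⟨X, hX⟩ : ∃ X : E → (E → Bool) → ℝ, X = fun e s =>
      if e ∉ R.cl (P.filter (fun g => s g = true ∧ akey c e < akey c g)) then 1 else 0 :=
    ⟨_, rfl⟩
  have hinv : ∀ e s z, X e (Function.update s e z) = X e s := by
    intro e s z
    have : P.filter (fun g => Function.update s e z g = true ∧ akey c e < akey c g)
        = P.filter (fun g => s g = true ∧ akey c e < akey c g) := by
      refine filter_congr fun g _ => ?_
      by_cases hg : g = e
      · simp [hg]
      · rw [Function.update_of_ne hg]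
    simp only [hX, this]
  have hcard : ∀ (s : E → Bool) (x : Bool), (((sl c P k).filter (fun e => s e = x ∧
      e ∉ R.cl (P.filter (fun g => s g = true ∧ akey c e < akey c g)))).card : ℝ)
      = ∑ e ∈ sl c P k, if s e = x then X e s else 0 := by
    intro s x
    rw [card_filter, Nat.cast_sum]
    refine sum_congr rfl fun e _ => ?_
    simp only [hX]
    by_cases h1 : s e = x <;>
      by_cases h2 : e ∈ R.cl (P.filter (fun g => s g = true ∧ akey c e < akey c g)) <;>
      simp [h1, h2]
  have hsl : ∀ s : E → Bool, sl c (Gs R P c s) k = (sl c P k).filter (fun e => s e = false ∧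
      e ∉ R.cl (P.filter (fun g => s g = true ∧ akey c e < akey c g))) := by
    intro s
    simp only [sl, Gs]
    rw [filter_comm]
  have hswap : Ex half (fun s => ∑ e ∈ sl c P k, if s e = false then X e s else 0)
      = Ex half (fun s => ∑ e ∈ sl c P k, if s e = true then X e s else 0) := by
    rw [Ex_sum, Ex_sum]
    refine sum_congr rfl fun e _ => ?_
    rw [Ex_ite_mul isLaw_half e false (hinv e), Ex_ite_mul isLaw_half e true (hinv e)]
    rfl
  simp only [hsl, hcard]
  rw [hswap, ← Ex_const isLaw_half (E := E) (R.r (P.filter (fun e => k ≤ c e)) : ℝ)]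
  refine Ex_mono isLaw_half fun s => ?_
  rw [← hcard, Nat.cast_le]
  refine R.card_le_r (bas_indep_aux R c _ fun e he hcl => ?_) subset_rfl ?_
  · refine (mem_filter.1 he).2.2 (R.cl_mono ?_ hcl)
    intro g hg
    obtain ⟨h1, h2⟩ := mem_filter.1 hg
    obtain ⟨h3, h4⟩ := mem_filter.1 h1
    exact mem_filter.2 ⟨(mem_filter.1 h3).1, h4.1, h2⟩
  · intro e he
    obtain ⟨h1, h2⟩ := mem_filter.1 (mem_filter.1 he).1
    exact mem_filter.2 ⟨h1, h2.ge⟩

end Vale.Agent.P331
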