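import Vale.Agent.P331.ADefs

/-!
Sparse integer weights: the compression lemma.
-/

namespace Vale.Agent.P331

open Finset

variable {E : Type} [Fintype E] [DecidableEq E]

/-- Feasible weights. -/
structure CompFeas (K : Finset E) (f g : Finset E → ℕ) (κ : ℕ) (w : E → ℕ) : Prop where
  supp : ∀ e, w e ≠ 0 → e ∈ K
  tot : ∑ e ∈ K, w e = K.card
  up : ∀ A ⊆ K, A.Nonempty → ∑ e ∈ A, w e + κ * f ∅ + 1 ≤ κ * f A
  lo : ∀ F ⊆ K, κ * g K ≤ κ * g F + ∑ e ∈ K \ F, w e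

/-- Tight upper constraints. -/
def CompU (K : Finset E) (f : Finset E → ℕ) (κ : ℕ) (w : E → ℕ) (A : Finset E) : Prop :=
  A ⊆ K ∧ A.Nonempty ∧ ∑ e ∈ A, w e + κ * f ∅ + 1 = κ * f A

/-- Tight lower constraints. -/
def CompL (K : Finset E) (g : Finset E → ℕ) (κ : ℕ) (w : E → ℕ) (F : Finset E) : Prop :=
  F ⊆ K ∧ κ * g K = κ * g F + ∑ e ∈ K \ F, w e

/-- An extremal feasible weight. -/
structure CompOpt (K : Finset E) (f g : Finset E → ℕ) (κ : ℕ) (w : E → ℕ) : Prop where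
  two : 2 ≤ κ
  hf : ∀ A B, f (A ∪ B) + f (A ∩ B) ≤ f A + f B
  hg : ∀ A B, g (A ∪ B) + g (A ∩ B) ≤ g A + g B
  hfg : ∀ A B, A ⊆ B → g B + f A ≤ f B + g A
  feas : CompFeas K f g κ w
  opt : ∀ w', CompFeas K f g κ w' → ∑ e ∈ K, w' e ^ 2 ≤ ∑ e ∈ K, w e ^ 2

namespace CompOpt

variable {K : Finset E} {f g : Finset E → ℕ} {κ : ℕ} {w : E → ℕ} (h : CompOpt K f g κ w)
  {A B : Finset E}
include h
omit [Fintype E]

theorem uu (hA : CompU K f κ w A) (hB : CompU K f κ w B) (hne : (A ∩ B).Nonempty) :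
    CompU K f κ w (A ∩ B) ∧ CompU K f κ w (A ∪ B) := by
  have s1 : A ∩ B ⊆ K := inter_subset_left.trans hA.1
  have s2 : A ∪ B ⊆ K := union_subset hA.1 hB.1
  have n2 : (A ∪ B).Nonempty := hA.2.1.mono subset_union_left
  have e1 := h.feas.up _ s1 hne
  have e2 := h.feas.up _ s2 n2
  have e3 := sum_union_inter (s₁ := A) (s₂ := B) (f := w)
  have e4 := Nat.mul_le_mul_left κ (h.hf A B)
  have e5 := hA.2.2
  have e6 := hB.2.2
  rw [mul_add, mul_add] at e4
  exact ⟨⟨s1, hne, by omega⟩, s2, n2, by omega⟩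

theorem ll (hA : CompL K g κ w A) (hB : CompL K g κ w B) :
    CompL K g κ w (A ∩ B) ∧ CompL K g κ w (A ∪ B) := by
  have s1 : A ∩ B ⊆ K := inter_subset_left.trans hA.1
  have s2 : A ∪ B ⊆ K := union_subset hA.1 hB.1
  have e1 := h.feas.lo _ s1
  have e2 := h.feas.lo _ s2
  have e3 := sum_union_inter (s₁ := K \ A) (s₂ := K \ B) (f := w)
  have e4 := Nat.mul_le_mul_left κ (h.hg A B)
  have e5 := hA.2
  have e6 := hB.2
  rw [mul_add, mul_add] at e4
  rw [← sdiff_inter_distrib_right, ← sdiff_union_distrib] at e3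
  exact ⟨⟨s1, by omega⟩, s2, by omega⟩

theorem ul (hA : CompU K f κ w A) (hB : CompL K g κ w B) (hne : (A ∩ B).Nonempty) :
    CompU K f κ w (A ∩ B) := by
  have s1 : A ∩ B ⊆ K := inter_subset_left.trans hA.1
  have e1 := h.feas.up _ s1 hne
  have e2 := h.feas.lo _ (union_subset hA.1 hB.1)
  have e3 := sum_inter_add_sum_sdiff A B w
  have e4 := Nat.mul_le_mul_left κ (h.hg A B)
  have e5 := hA.2.2
  have e6 := hB.2
  have e7 := Nat.mul_le_mul_left κ (h.hfg _ _ (inter_subset_left : A ∩ B ⊆ A))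
  have e8 := sum_inter_add_sum_sdiff (K \ B) A w
  rw [mul_add, mul_add] at e4 e7
  rw [show K \ B ∩ A = A \ B by
    ext e; have := @hA.1 e; simp only [mem_inter, mem_sdiff]; tauto,
    show (K \ B) \ A = K \ (A ∪ B) by
      ext e; simp only [mem_union, mem_sdiff]; tauto] at e8
  exact ⟨s1, hne, by omega⟩

theorem blocked {u v : E} (hu : w u ≠ 0) (hv : w u ≤ w v) (huv : u ≠ v) :
    (∃ A, CompU K f κ w A ∧ v ∈ A ∧ u ∉ A) ∨ ∃ F, CompL K g κ w F ∧ v ∈ F ∧ u ∉ F := by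
  by_contra! hc
  have uK := h.feas.supp u hu
  have vK := h.feas.supp v (by omega)
  obtain ⟨w', hw⟩ : ∃ w' : E → ℕ, ∀ e, w' e = if e = u then w e - 1 else if e = v then w e + 1
    else w e := ⟨_, fun _ => rfl⟩
  have e1 : ∀ A : Finset E, ∑ e ∈ A, w' e + (if u ∈ A then 1 else 0) =
      ∑ e ∈ A, w e + (if v ∈ A then 1 else 0) := fun A => by
    rw [← sum_ite_eq' A u fun _ => 1, ← sum_ite_eq' A v fun _ => 1, ← sum_add_distrib,
      ← sum_add_distrib]
    refine sum_congr rfl fun e _ => ?_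
    rw [hw]
    split_ifs with a b b
    · exact absurd (a.symm.trans b) huv
    · rw [a]
      omega
    · rfl
    · rfl
  have e2 : ∑ e ∈ K, w' e ^ 2 + (if u ∈ K then 2 * w u else 0) = ∑ e ∈ K, w e ^ 2 +
      (if u ∈ K then 1 else 0) + (if v ∈ K then 2 * w v + 1 else 0) := by
    rw [← sum_ite_eq' K u fun _ => 1, ← sum_ite_eq' K u fun _ => 2 * w u,
      ← sum_ite_eq' K v fun _ => 2 * w v + 1, ← sum_add_distrib, ← sum_add_distrib,
      ← sum_add_distrib]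
    refine sum_congr rfl fun e _ => ?_
    rw [hw]
    split_ifs with a b b
    · exact absurd (a.symm.trans b) huv
    · obtain ⟨m, hm⟩ := Nat.exists_eq_succ_of_ne_zero hu
      rw [a, hm, Nat.succ_sub_one, Nat.succ_eq_add_one]
      ring
    · rw [b]
      ring
    · rfl
  have := h.opt w' ⟨fun e he => ?_, ?_, fun A hA hne => ?_, fun F hF => ?_⟩
  · rw [if_pos uK, if_pos uK, if_pos vK] at e2
    omega
  · rw [hw] at he
    split_ifs at he with a b
    exacts [a ▸ uK, b ▸ vK, h.feas.supp e he]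
  · have := e1 K
    rw [if_pos uK, if_pos vK] at this
    rw [← h.feas.tot]
    omega
  · have e3 := e1 A
    have e4 := h.feas.up A hA hne
    have e5 := fun e => hc.1 A ⟨hA, hne, e⟩
    split_ifs at e3 with a b b
    · omega
    · omega
    · exact le_trans (by omega) (lt_of_le_of_ne e4 fun e => a (e5 e b))
    · omega
  · have e3 := e1 (K \ F)
    have e4 := h.feas.lo F hF
    have e5 := fun e => hc.2 F ⟨hF, e⟩
    simp only [mem_sdiff, uK, vK, true_and] at e3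
    split_ifs at e3 with a b b
    · omega
    · omega
    · have := lt_of_le_of_ne e4 fun e => a (e5 e b)
      omega
    · omega

theorem free (X : Finset E) : (∀ v ∈ X, w v ≠ 0 ∧ ∀ A, CompU K f κ w A → v ∉ A) →
    ∀ F, CompL K g κ w F → X ⊆ F → ∑ e ∈ K \ F, w e + κ * X.card ≤ K.card + κ := by
  have top : ∀ F, ∑ e ∈ K \ F, w e ≤ K.card := fun F =>
    (sum_le_sum_of_subset sdiff_subset).trans_eq h.feas.tot
  induction X using Finset.induction_on_min_value w with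
  | empty => exact fun _ F _ _ => by simpa using (top F).trans le_self_add
  | insert u s hus hmin ih =>
    intro hX F hF hs
    rcases s.eq_empty_or_nonempty with rfl | hne
    · simpa using top F
    have hu := (hX u (mem_insert_self _ _)).1
    obtain ⟨G, hG, h1, h2⟩ : ∃ G, CompL K g κ w G ∧ s ⊆ G ∧ u ∉ G := by
      have hb : ∀ v ∈ s, ∃ G, CompL K g κ w G ∧ v ∈ G ∧ u ∉ G := fun v hv =>
        (h.blocked hu (hmin v hv) fun e => hus (e ▸ hv)).resolve_left fun ⟨A, h1, h2, _⟩ =>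
          (hX v (mem_insert_of_mem hv)).2 A h1 h2
      clear hus hmin ih hX hs
      induction hne using Finset.Nonempty.cons_induction with
      | singleton a => simpa using hb a (mem_singleton_self a)
      | cons a s _ _ ih =>
        obtain ⟨G, h1, h2, h3⟩ := ih fun v hv => hb v (mem_cons_of_mem hv)
        obtain ⟨G', h4, h5, h6⟩ := hb a (mem_cons_self _ _)
        exact ⟨G ∪ G', (h.ll h1 h4).2, cons_subset.2 ⟨mem_union_right _ h5,
          h2.trans subset_union_left⟩, by simp [h3, h6]⟩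
    have h3 := (h.ll hF hG).1
    have h4 := ih (fun v hv => hX v (mem_insert_of_mem hv)) _ h3
      (subset_inter ((subset_insert _ _).trans hs) h1)
    have h5 : ∑ e ∈ K \ F, w e < ∑ e ∈ K \ (F ∩ G), w e :=
      sum_lt_sum_of_subset (sdiff_subset_sdiff subset_rfl inter_subset_left) (i := u)
        (by simp [h2, h.feas.supp u hu]) (by simp [hs (mem_insert_self _ _)])
        (Nat.pos_of_ne_zero hu) fun _ _ _ => Nat.zero_le _
    have e1 := hF.2
    have e2 := h3.2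
    have h6 := Nat.mul_le_mul_left κ (Nat.succ_le_of_lt
      (Nat.lt_of_mul_lt_mul_left (a := κ) (show κ * g (F ∩ G) < κ * g F by omega)))
    rw [card_insert_of_notMem hus, mul_add, mul_one]
    rw [Nat.mul_succ] at h6
    omega

theorem tight (W : Finset E) : (∀ u ∈ W, w u ≠ 0 → ∃ A, CompU K f κ w A ∧ u ∈ A ∧ A ⊆ W) →
    ∃ j, κ ∣ ∑ e ∈ W, w e + j ∧ ∑ e ∈ W, (if w e ≠ 0 then 1 else 0) + j ≤
      ∑ e ∈ W, if κ ≤ w e + 1 then 2 else 0 := by
  classical
  induction W using Finset.strongInduction with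
  | H W ih =>
  intro hW
  by_cases h0 : ∀ u ∈ W, w u = 0
  · exact ⟨0, by simp [sum_eq_zero h0], by rw [sum_eq_zero fun u hu => if_neg (by simp [h0 u hu])]; simp⟩
  push Not at h0
  obtain ⟨u0, hu0, hw0⟩ := h0
  obtain ⟨M, hM, hmax⟩ := (W.powerset.filter (CompU K f κ w)).exists_max_image card (by
    obtain ⟨A, h1, -, h3⟩ := hW u0 hu0 hw0
    exact ⟨A, mem_filter.2 ⟨mem_powerset.2 h3, h1⟩⟩)
  rw [mem_filter, mem_powerset] at hM
  by_cases h1 : ∀ u ∈ W \ M, w u = 0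
  swap
  · push Not at h1
    obtain ⟨u1, hu1, -⟩ := h1
    rw [mem_sdiff] at hu1
    obtain ⟨j1, a1, a2⟩ := ih M (hM.1.ssubset_of_ne fun e => hu1.2 (e ▸ hu1.1))
      fun u hu _ => ⟨M, hM.2, hu, subset_rfl⟩
    obtain ⟨j2, b1, b2⟩ := ih (W \ M) (sdiff_ssubset hM.1 hM.2.2.1) fun u hu hw => by
      rw [mem_sdiff] at hu
      obtain ⟨A, h1, h2, h3⟩ := hW u hu.1 hw
      refine ⟨A, h1, h2, subset_sdiff.2 ⟨h3, disjoint_iff_inter_eq_empty.2
        (not_nonempty_iff_eq_empty.1 fun hne => ?_)⟩⟩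
      exact (hmax _ (mem_filter.2 ⟨mem_powerset.2 (union_subset h3 hM.1),
        (h.uu h1 hM.2 hne).2⟩)).not_gt (card_lt_card (subset_union_right.ssubset_of_ne
          fun e => hu.2 (e ▸ mem_union_left _ h2)))
    refine ⟨j1 + j2, ?_, ?_⟩
    · rw [← sum_sdiff hM.1, add_comm j1, add_add_add_comm]
      exact dvd_add b1 a1
    · rw [← sum_sdiff hM.1, ← sum_sdiff hM.1]
      omega
  have inM : ∀ u ∈ W, w u ≠ 0 → u ∈ M := fun u hu hw => by_contra fun e =>
    hw (h1 u (mem_sdiff.2 ⟨hu, e⟩))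
  have d1 : κ ∣ ∑ e ∈ W, w e + 1 := by
    rw [← sum_sdiff hM.1, sum_eq_zero h1, zero_add,
      ← Nat.dvd_add_right (dvd_mul_right κ (f ∅)), ← add_assoc, add_comm (κ * _), hM.2.2.2]
    exact dvd_mul_right _ _
  obtain ⟨v, hv, hmin⟩ := (W.filter fun u => w u ≠ 0).exists_min_image
    (fun u => (K.powerset.filter fun A => CompU K f κ w A ∧ u ∈ A).card)
    ⟨u0, mem_filter.2 ⟨hu0, hw0⟩⟩
  rw [mem_filter] at hv
  have sep : ∀ x y, x ∈ M → y ∈ M → w x ≠ 0 → w x ≤ w y → x ≠ y →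
      ∃ A, CompU K f κ w A ∧ y ∈ A ∧ x ∉ A := fun x y _ hy h2 h3 h4 =>
    (h.blocked h2 h3 h4).elim id fun ⟨F, h5, h6, h7⟩ =>
      ⟨M ∩ F, h.ul hM.2 h5 ⟨y, mem_inter.2 ⟨hy, h6⟩⟩, mem_inter.2 ⟨hy, h6⟩,
        fun e => h7 (mem_inter.1 e).2⟩
  obtain ⟨j, a1, a2⟩ := ih (W.erase v) (erase_ssubset hv.1) fun u hu hw => by
    rw [mem_erase] at hu
    have uM := inM u hu.2 hw
    have vM := inM v hv.1 hv.2
    obtain ⟨A, h2, h3, h4⟩ : ∃ A, CompU K f κ w A ∧ u ∈ A ∧ v ∉ A := by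
      rcases le_total (w v) (w u) with e | e
      · exact sep v u vM uM hv.2 e (Ne.symm hu.1)
      by_contra! hc
      obtain ⟨A, h2, h3, h4⟩ := sep u v uM vM hw e hu.1
      refine (hmin u (mem_filter.2 ⟨hu.2, hw⟩)).not_gt (card_lt_card ⟨fun B hB => ?_, fun hs => ?_⟩)
      · rw [mem_filter] at hB ⊢
        exact ⟨hB.1, hB.2.1, hc B hB.2.1 hB.2.2⟩
      · exact h4 (mem_filter.1 (hs (mem_filter.2 ⟨mem_powerset.2 h2.1, h2, h3⟩))).2.2
    exact ⟨A ∩ M, (h.uu h2 hM.2 ⟨u, mem_inter.2 ⟨h3, uM⟩⟩).1, mem_inter.2 ⟨h3, uM⟩, fun e he =>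
      mem_erase.2 ⟨fun e' => h4 (e' ▸ (mem_inter.1 he).1), hM.1 (mem_inter.1 he).2⟩⟩
  refine ⟨1, d1, ?_⟩
  rw [← add_sum_erase _ _ hv.1] at d1
  rw [← add_sum_erase _ _ hv.1, ← add_sum_erase _ _ hv.1, if_pos hv.2]
  by_cases hj : 2 ≤ j
  · omega
  have : κ ≤ w v + 1 := by
    have hv2 := hv.2
    have d2 := Nat.dvd_sub d1 a1
    exact (Nat.le_of_dvd (by omega) d2).trans (by omega)
  rw [if_pos this]
  omega

end CompOpt

theorem compress (K : Finset E) (f g : Finset E → ℕ) {κ : ℕ} (hκ : 2 ≤ κ)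
    (hf : ∀ A B, f (A ∪ B) + f (A ∩ B) ≤ f A + f B)
    (hg : ∀ A B, g (A ∪ B) + g (A ∩ B) ≤ g A + g B)
    (hgm : ∀ A B, A ⊆ B → g A ≤ g B)
    (hfg : ∀ A B, A ⊆ B → g B + f A ≤ f B + g A)
    (hf1 : ∀ v, f {v} ≤ f ∅ + 1)
    (hU : ∀ A ⊆ K, A.Nonempty → A.card + κ * f ∅ + 1 ≤ κ * f A)
    (hL : ∀ F ⊆ K, κ * g K ≤ κ * g F + (K \ F).card) :
    ∃ w : E → ℕ, (∀ e, w e ≤ κ) ∧ (∀ e, w e ≠ 0 → e ∈ K) ∧
      κ * (univ.filter (fun e => w e ≠ 0)).card ≤ 6 * K.card ∧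
      (∀ A ⊆ K, A.Nonempty → ∑ e ∈ A, w e + κ * f ∅ + 1 ≤ κ * f A) ∧
      (∀ F ⊆ K, κ * g K ≤ κ * g F + ∑ e ∈ K \ F, w e) := by
  classical
  rcases le_or_gt (g K) (g ∅) with h0 | h0
  · refine ⟨0, fun _ => Nat.zero_le _, fun _ h => absurd rfl h, by simp, fun A hA hne => ?_,
      fun F _ => ?_⟩
    · have := hU A hA hne
      simp only [Pi.zero_apply, sum_const_zero]
      omega
    · simpa using Nat.mul_le_mul_left κ (h0.trans (hgm _ _ (empty_subset F)))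
  have hK : κ ≤ K.card := by
    have h1 := hL ∅ (empty_subset K)
    have h2 := Nat.mul_le_mul_left κ (Nat.succ_le_of_lt h0)
    rw [sdiff_empty] at h1
    rw [Nat.mul_succ] at h2
    omega
  have hle : ∀ w, CompFeas K f g κ w → ∀ e, w e ≤ κ := fun w h e => by
    by_cases he : w e = 0
    · omega
    have h1 := h.up {e} (singleton_subset_iff.2 (h.supp e he)) (singleton_nonempty e)
    have h2 := Nat.mul_le_mul_left κ (hf1 e)
    rw [sum_singleton] at h1
    rw [mul_add] at h2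
    omega
  have hi : ∀ A ⊆ K, ∑ e ∈ A, ind K e = A.card := fun A hA => by
    rw [card_eq_sum_ones]
    exact sum_congr rfl fun e he => if_pos (hA he)
  obtain ⟨w, hw, hmax⟩ := Set.exists_max_image {w | CompFeas K f g κ w} (fun w => ∑ e ∈ K, w e ^ 2)
    ((Set.Finite.pi' fun _ => Set.finite_Iic κ).subset hle) ⟨ind K, fun e he => by_contra fun e' =>
      he (if_neg e'), hi K subset_rfl, fun A hA hne => hi A hA ▸ hU A hA hne,
      fun F hF => hi _ sdiff_subset ▸ hL F hF⟩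
  have h : CompOpt K f g κ w := ⟨hκ, hf, hg, hfg, hw, hmax⟩
  refine ⟨w, hle w hw, hw.supp, ?_, hw.up, hw.lo⟩
  have h1 := h.free (univ.filter fun v => w v ≠ 0 ∧ ∀ A, CompU K f κ w A → v ∉ A)
    (fun v hv => (mem_filter.1 hv).2) K ⟨subset_rfl, by simp⟩
    fun v hv => hw.supp v (mem_filter.1 hv).2.1
  obtain ⟨j, -, h2⟩ := h.tight (K.filter fun e => ∃ A, CompU K f κ w A ∧ e ∈ A) fun u hu _ => by
    obtain ⟨A, h1, h2⟩ := (mem_filter.1 hu).2
    exact ⟨A, h1, h2, fun e he => mem_filter.2 ⟨h1.1 he, A, h1, he⟩⟩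
  have h3 : κ * ∑ e ∈ K.filter fun e => ∃ A, CompU K f κ w A ∧ e ∈ A,
      (if κ ≤ w e + 1 then 2 else 0) ≤ 4 * K.card := by
    rw [← hw.tot, mul_sum, mul_sum]
    refine (sum_le_sum fun e _ => ?_).trans (sum_le_sum_of_subset (filter_subset _ _))
    split_ifs <;> omega
  have h4 := Nat.mul_le_mul_left κ (le_self_add.trans h2)
  rw [← card_filter] at h4
  have h5 := Nat.mul_le_mul_left κ ((card_le_card (s := univ.filter fun e => w e ≠ 0)
    (t := (univ.filter fun v => w v ≠ 0 ∧ ∀ A, CompU K f κ w A → v ∉ A) ∪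
      (K.filter fun e => ∃ A, CompU K f κ w A ∧ e ∈ A).filter fun e => w e ≠ 0) fun e he => by
        have h6 := (mem_filter.1 he).2
        have h7 := hw.supp e h6
        simp only [mem_union, mem_filter, mem_univ, true_and]
        grind).trans (card_union_le _ _))
  rw [mul_add] at h5
  omega

end Vale.Agent.P331
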