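import Vale.Agent.P331.AChain

set_option linter.unusedSectionVars false

namespace Vale.Agent.P331

open Finset

variable {E : Type} [Fintype E] [DecidableEq E]

lemma acc_indep_Hlt (R : Rk E) {κ : ℕ} (hκ : 0 < κ) (c : E → ℤ) {D Y T : Finset E} {d : ℕ} {e : E}
    (he : e ∈ Cand R κ c D Y T d) : e ∈ Hlt R κ c D Y (c e + 1) d :=
  Sl_subset_Hlt R hκ c D Y _ d (mem_filter.1 he).2.1

lemma acc_indep_mem {R : Rk E} {κ : ℕ} {c : E → ℤ} {D Y T : Finset E} {ε : Bool} {pos : E → ℕ}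
    {e : E} : e ∈ Acc R κ c D Y T ε pos ↔ e ∈ T ∧ ∃ d, d % 2 = ε.toNat ∧ e ∈ Cand R κ c D Y T d ∧
      e ∉ R.cl (Hfin R κ c D Y (d + 2) ∪ (Cand R κ c D Y T d).filter (fun f => pos f < pos e)) := by
  classical
  exact mem_filter

lemma acc_count_uniq (R : Rk E) (κ : ℕ) (c : E → ℤ) {D Y T : Finset E} {d d' : ℕ} {e : E}
    (he : e ∈ Cand R κ c D Y T d) (he' : e ∈ Cand R κ c D Y T d') : d = d' :=
  le_antisymm
    (not_lt.1 fun h => (mem_filter.1 he').2.2 (Sl_anti R κ c D Y _ h (mem_filter.1 he).2.1))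
    (not_lt.1 fun h => (mem_filter.1 he).2.2 (Sl_anti R κ c D Y _ h (mem_filter.1 he').2.1))

lemma acc_count_sum {f a ρ : ℕ → ℕ} (h : ∀ d, f d + ρ d ≤ a d + ρ (d + 2)) {ε : ℕ} (hε : ε ≤ 1)
    (N : ℕ) : ∃ m, N ≤ m ∧ m ≤ N + 1 ∧ m % 2 = ε ∧
      ∑ d ∈ (range N).filter (fun d => d % 2 = ε), f d ≤
        ∑ d ∈ (range N).filter (fun d => d % 2 = ε), a d + ρ m := by
  induction N with
  | zero => exact ⟨ε, by omega, by omega, by omega, by simp⟩
  | succ N ih =>
    obtain ⟨m, h1, h2, h3, h4⟩ := ih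
    simp only [sum_filter, sum_range_succ] at h4 ⊢
    by_cases hN : N % 2 = ε
    · obtain rfl : m = N := by omega
      have := h m
      refine ⟨m + 2, by omega, by omega, by omega, ?_⟩
      rw [if_pos hN, if_pos hN]
      omega
    · refine ⟨m, by omega, by omega, h3, ?_⟩
      rw [if_neg hN, if_neg hN]
      omega

lemma acc_count_rk (R : Rk E) {X C A H2 H0 Z F : Finset E} {c : E → ℤ} {k : ℤ}
    (hC : C ⊆ R.cl (X ∪ A)) (hA : A ⊆ C) (hX : X ⊆ R.cl (H2 ∪ Z)) (h2 : H2 ⊆ H0)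
    (h0 : C.filter (fun e => c e ≤ k) ⊆ H0)
    (hF : ∀ e ∈ F, e ∈ C ∧ c e = k ∧ e ∉ R.cl (H2 ∪ (C.filter (fun e => c e ≤ k)).erase e)) :
    F.card + (R.r (H0 ∪ Z) - R.r H0) ≤
      (A.filter (fun e => k ≤ c e)).card + (R.r (H2 ∪ Z) - R.r H2) := by
  have hl : C.filter (fun e => c e < k) ⊆ C.filter (fun e => c e ≤ k) :=
    monotone_filter_right _ fun _ _ h => h.le
  have a1 : R.r (X ∪ C.filter (fun e => c e < k) ∪ C.filter (fun e => c e ≤ k)) ≤ R.r (X ∪ A) :=
    R.r_le_of_subset_cl (union_subset (union_subset (subset_union_left.trans (R.subset_cl _))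
      ((filter_subset _ _).trans hC)) ((filter_subset _ _).trans hC))
  have a2 : R.r (X ∪ A) ≤ R.r (X ∪ C.filter (fun e => c e < k) ∪ A.filter (fun e => k ≤ c e)) :=
    R.mono fun e he => by
      have := @hA e
      simp only [mem_union, mem_filter] at he ⊢
      rcases lt_or_ge (c e) k with h | h <;> tauto
  have a3 := R.r_union_le_card (X ∪ C.filter (fun e => c e < k)) (A.filter (fun e => k ≤ c e))
  have a4 := R.dimin_cl (A := X ∪ C.filter (fun e => c e < k))
    (B := H2 ∪ C.filter (fun e => c e < k) ∪ Z) (union_subset (hX.trans (R.cl_mono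
      (union_subset_union subset_union_left Subset.rfl)))
      ((subset_union_right.trans subset_union_left).trans (R.subset_cl _)))
    (C.filter (fun e => c e ≤ k))
  have a5 : R.r (H2 ∪ C.filter (fun e => c e ≤ k) ∪ Z) ≤
      R.r (H2 ∪ C.filter (fun e => c e < k) ∪ Z ∪ C.filter (fun e => c e ≤ k)) :=
    R.mono fun e he => by
      simp only [mem_union] at he ⊢
      tauto
  have a6 := R.coloops (W := H2 ∪ C.filter (fun e => c e ≤ k)) (F := F)
    (fun e he => mem_union_right _ (mem_filter.2 ⟨(hF e he).1, (hF e he).2.1.le⟩))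
    fun e he h => (hF e he).2.2 (R.cl_mono (fun f hf => by
      simp only [mem_union, mem_erase] at hf ⊢
      tauto) h)
  have a7 : R.r (H2 ∪ C.filter (fun e => c e < k)) ≤ R.r ((H2 ∪ C.filter (fun e => c e ≤ k)) \ F) :=
    R.mono fun e he => mem_sdiff.2 ⟨union_subset_union Subset.rfl hl he, fun h =>
      (mem_union.1 he).elim (fun h1 => (hF e h).2.2 (R.subset_cl _ (mem_union_left _ h1)))
        fun h1 => (mem_filter.1 h1).2.ne (hF e h).2.1⟩
  have a8 := R.dimin (A := H2) (B := H2 ∪ C.filter (fun e => c e < k)) subset_union_left Z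
  have a9 := R.dimin (union_subset h2 h0) Z
  have b1 : R.r H0 ≤ R.r (H0 ∪ Z) := R.mono subset_union_left
  omega

theorem acc_indep (R : Rk E) {κ : ℕ} (hκ : 0 < κ) (c : E → ℤ) (D Y T : Finset E) (ε : Bool)
    (pos : E → ℕ) (hpos : Function.Injective pos) :
    R.r (Acc R κ c D Y T ε pos) = (Acc R κ c D Y T ε pos).card := by
  choose! lev hl using fun e (he : e ∈ Acc R κ c D Y T ε pos) => (acc_indep_mem.1 he).2
  refine R.indep_of_key (fun e => toLex (OrderDual.toDual (lev e), pos e)) _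
    (fun e _ f _ h => hpos (congrArg (fun x => (ofLex x).2) h)) fun e he h =>
    (hl e he).2.2 (R.cl_mono (fun f hf => ?_) h)
  obtain ⟨h1, h2⟩ := mem_filter.1 hf
  rcases Prod.Lex.toLex_lt_toLex.1 h2 with h3 | ⟨h3, h4⟩
  · have h4 : lev e < lev f := h3
    have h5 := (hl e he).1
    have h6 := (hl f h1).1
    exact mem_union_left _ (Hfin_anti R κ c D Y (show lev e + 2 ≤ lev f by omega)
      (Hlt_subset_Hfin R κ c D Y _ _ (acc_indep_Hlt R hκ c (hl f h1).2.1)))
  · have h5 : lev f = lev e := h3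
    exact mem_union_right _ (mem_filter.2 ⟨h5 ▸ (hl f h1).2.1, h4⟩)

theorem acc_count (R : Rk E) {κ : ℕ} (hκ : 0 < κ) (c : E → ℤ) (D Y T : Finset E) (ε : Bool)
    (pos : E → ℕ) (k : ℤ) (N : ℕ) :
    ∑ d ∈ (range N).filter (fun d => d % 2 = ε.toNat), (Fr R κ c D Y T k d).card ≤
      ((Acc R κ c D Y T ε pos).filter (fun e => k ≤ c e)).card +
        R.r ((D ∪ Y).filter (fun e => k < c e)) := by
  let A : ℕ → Finset E := fun d => (Cand R κ c D Y T d).filter (fun e => e ∉ R.cl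
    (Hfin R κ c D Y (d + 2) ∪ (Cand R κ c D Y T d).filter (fun f => pos f < pos e)))
  obtain ⟨m, -, -, -, h⟩ := acc_count_sum (f := fun d => (Fr R κ c D Y T k d).card)
    (a := fun d => ((A d).filter (fun e => k ≤ c e)).card)
    (ρ := fun j => R.r (Hlt R κ c D Y (k + 1) j ∪ (D ∪ Y).filter (fun e => k < c e)) -
      R.r (Hlt R κ c D Y (k + 1) j))
    (fun d => acc_count_rk R (R.greedy_span pos _ _) (filter_subset _ _)
      (Hfin_subset R hκ c D Y k _) (Hlt_anti R κ c D Y _ (Nat.le_add_right d 2))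
      (fun e he => Hlt_mono R hκ c D Y (Int.add_le_add_right (mem_filter.1 he).2 1) d
        (acc_indep_Hlt R hκ c (mem_filter.1 he).1)) fun e he => mem_filter.1 he)
    (Bool.toNat_le ε) N
  have h1 := R.r_union_le (Hlt R κ c D Y (k + 1) m) ((D ∪ Y).filter (fun e => k < c e))
  refine h.trans (Nat.add_le_add ?_ (by omega))
  rw [← card_biUnion fun d _ d' _ hd => disjoint_left.2 fun e he he' => hd (acc_count_uniq R κ c
    (mem_filter.1 (mem_filter.1 he).1).1 (mem_filter.1 (mem_filter.1 he').1).1)]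
  refine card_le_card fun e he => ?_
  obtain ⟨d, h2, h3⟩ := mem_biUnion.1 he
  obtain ⟨h4, h5⟩ := mem_filter.1 h3
  obtain ⟨h6, h7⟩ := mem_filter.1 h4
  exact mem_filter.2 ⟨acc_indep_mem.2 ⟨(mem_filter.1 h6).1, d, (mem_filter.1 h2).2, h6, h7⟩, h5⟩

end Vale.Agent.P331
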