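import Vale.Agent.P331.AExp
import Vale.Agent.P331.AComp

/-!
The decoder for the expanded chain and the counting bound.
-/

namespace Vale.Agent.P331

open Finset

variable {E : Type} [Fintype E] [DecidableEq E]

omit [Fintype E] in
lemma decode_sub (R : Rk E) {A B C D : Finset E} (h1 : C ⊆ A ∪ B) (h2 : D ⊆ A ∩ B) :
    R.r C + R.r D ≤ R.r A + R.r B := (add_le_add (R.mono h1) (R.mono h2)).trans (R.submod A B)

omit [Fintype E] in
lemma decode_shift (R : Rk E) (X A B : Finset E) :
    R.r (A ∪ B ∪ X) + R.r (A ∩ B ∪ X) ≤ R.r (A ∪ X) + R.r (B ∪ X) :=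
  decode_sub R (by intro e; simp only [mem_union]; grind)
    (by intro e; simp only [mem_union, mem_inter]; grind)

lemma decode_max (R : Rk E) (κ : ℕ) (D : Finset E) {H F : Finset E} (h : H ⊆ F) :
    (D ∩ F).card + κ * R.r (Expn R κ (ind D) H) ≤
      (D ∩ Expn R κ (ind D) H).card + κ * R.r F := by
  have := (Expn_isMaxi R κ (ind D) H).2 F h
  rw [dval, dval, sum_ind, sum_ind] at this
  zify
  linarith

/-- One layer. -/
lemma decode_layer (R : Rk E) {κ : ℕ} (hκ : 2 ≤ κ) (D : Finset E) {H H' S' : Finset E}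
    (h1 : S' ⊆ Expn R κ (ind D) H) (P : Prop) (h2 : P → S' = Expn R κ (ind D) H') :
    ∃ w : E → ℕ, (∀ e, w e ≤ κ) ∧ (∀ e, w e ≠ 0 → e ∈ D ∩ (Expn R κ (ind D) H \ S')) ∧
      κ * (univ.filter (fun e => w e ≠ 0)).card ≤ 6 * (D ∩ (Expn R κ (ind D) H \ S')).card ∧
      (P → ∀ A ⊆ D ∩ (Expn R κ (ind D) H \ S'), A.Nonempty →
        ∑ e ∈ A, w e + κ * R.r S' + 1 ≤ κ * R.r (A ∪ S')) ∧
      ∀ F ⊆ D ∩ (Expn R κ (ind D) H \ S'), κ * R.r (Expn R κ (ind D) H) ≤
        κ * R.r (F ∪ (S' ∪ H)) + ∑ e ∈ (D ∩ (Expn R κ (ind D) H \ S')) \ F, w e := by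
  have h3 := subset_Expn R κ (ind D) H
  have h4 := Expn_subset_cl R (κ := κ) (by omega) (ind D) H
  have h5 := fun F => decode_max R κ D (H := H) (F := F)
  generalize Expn R κ (ind D) H = S at *
  have e1 : R.r S ≤ R.r (D ∩ (S \ S') ∪ (S' ∪ H)) :=
    (R.r_le_of_subset_cl h4).trans (R.mono fun e he => by
      simp only [ind, mem_union, mem_inter, mem_sdiff] at he ⊢
      grind)
  have hL : ∀ F ⊆ D ∩ (S \ S'), κ * R.r (D ∩ (S \ S') ∪ (S' ∪ H)) ≤
      κ * R.r (F ∪ (S' ∪ H)) + ((D ∩ (S \ S')) \ F).card := fun F hF => by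
    have a1 := h5 (F ∪ (S' ∪ H)) (subset_union_right.trans subset_union_right)
    have a2 := Nat.mul_le_mul_left κ (R.mono (union_subset
      (inter_subset_right.trans sdiff_subset : D ∩ (S \ S') ⊆ S) (union_subset h1 h3)))
    have a3 := (card_le_card (s := D ∩ S) (t := D ∩ (F ∪ (S' ∪ H)) ∪ (D ∩ (S \ S')) \ F)
      fun e he => by
        simp only [mem_union, mem_inter, mem_sdiff] at he ⊢
        grind).trans (card_union_le _ _)
    omega
  have hgm : ∀ A B : Finset E, A ⊆ B → R.r (A ∪ (S' ∪ H)) ≤ R.r (B ∪ (S' ∪ H)) :=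
    fun A B h => R.mono (union_subset_union_left h)
  by_cases hP : P
  · obtain ⟨w, b1, b2, b3, b4, b5⟩ := compress (D ∩ (S \ S')) (fun A => R.r (A ∪ S'))
      (fun A => R.r (A ∪ (S' ∪ H))) hκ (decode_shift R _) (decode_shift R _) hgm
      (fun A B h => decode_sub R (by intro e; simp only [mem_union]; grind)
        (by intro e; have := @h e; simp only [mem_union, mem_inter]; grind))
      (fun v => by simpa [union_comm] using R.r_union_le_card S' {v}) (fun A hA hne => by
        have a1 : Disjoint A S' := disjoint_left.2 fun e he => (mem_sdiff.1 (mem_inter.1 (hA he)).2).2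
        obtain ⟨e, he⟩ := hne
        have a2 := Expn_strict R κ (ind D) H' (F := A ∪ S') (h2 hP ▸ subset_union_right.ssubset_of_ne
          fun e' => disjoint_left.1 a1 he (e' ▸ mem_union_left _ he))
        rw [← h2 hP, dval, dval, sum_ind, sum_ind, inter_union_distrib_left,
          card_union_of_disjoint (a1.mono inter_subset_right inter_subset_right),
          inter_eq_right.2 (hA.trans inter_subset_left)] at a2
        rw [empty_union]
        zify
        push_cast at a2
        linarith) hL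
    exact ⟨w, b1, b2, b3, fun _ => by simpa using b4,
      fun F hF => (Nat.mul_le_mul_left κ e1).trans (b5 F hF)⟩
  · obtain ⟨w, b1, b2, b3, -, b5⟩ := compress (D ∩ (S \ S')) card
      (fun A => R.r (A ∪ (S' ∪ H))) hκ (fun A B => (card_union_add_card_inter A B).le)
      (decode_shift R _) hgm (fun A B h => by
        have a1 := (R.mono (X := B ∪ (S' ∪ H)) fun e he => by
          simp only [mem_union, mem_sdiff] at he ⊢
          grind).trans (R.r_union_le_card (A ∪ (S' ∪ H)) (B \ A))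
        have a2 := card_sdiff_add_card_eq_card h
        omega) (fun v => by simp) (fun A _ hne => by
          have := Nat.mul_le_mul_right A.card hκ
          have := hne.card_pos
          rw [card_empty]
          omega) hL
    exact ⟨w, b1, b2, b3, fun h => absurd h hP,
      fun F hF => (Nat.mul_le_mul_left κ e1).trans (b5 F hF)⟩

omit [Fintype E] in
lemma decode_disj {S : ℕ → Finset E} (hS : Antitone S) {e : E} {i j : ℕ}
    (hi : e ∈ S i \ S (i + 1)) (hj : e ∈ S j \ S (j + 1)) : i = j := by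
  rw [mem_sdiff] at hi hj
  rcases lt_trichotomy i j with h | h | h
  exacts [absurd (hS h hj.1) hi.2, h, absurd (hS h hi.1) hj.2]

theorem decode (R : Rk E) {κ : ℕ} (hκ : 2 ≤ κ) (D : Finset E) (cap : ℕ) {H : ℕ → Finset E}
    (hH : Antitone H) (h0 : H 0 = univ) :
    ∃ w : E → ℕ, (∀ e, w e ≤ κ) ∧ (∀ e, w e ≠ 0 → e ∈ D) ∧
      κ * (univ.filter (fun e => w e ≠ 0)).card ≤ 6 * D.card ∧
      Sw R κ w cap H = Sw R κ (ind D) cap H := by
  have hS := Sw_anti R κ (ind D) cap hH
  have lt : ∀ j < cap, Sw R κ (ind D) cap H j = Expn R κ (ind D) (H j) := fun j h => if_pos h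
  have ge : ∀ j, ¬ j < cap → Sw R κ (ind D) cap H j = H j := fun j h => if_neg h
  generalize Sw R κ (ind D) cap H = S at hS lt ge
  have lay := fun i (h : i < cap) => decode_layer R hκ D (H := H i) (H' := H (i + 1))
    (S' := S (i + 1)) (lt i h ▸ hS i.le_succ) (i + 1 < cap) (lt (i + 1))
  choose! W w1 w2 w3 w4 w5 using lay
  simp +contextual only [← lt] at w2 w3 w4 w5
  obtain ⟨w, hw⟩ : ∃ w : E → ℕ, ∀ e, w e = ∑ i ∈ Ico 1 cap, W i e := ⟨_, fun _ => rfl⟩
  have p0 : ∀ e, w e ≠ 0 → ∃ i ∈ Ico 1 cap, W i e ≠ 0 := fun e h =>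
    exists_ne_zero_of_sum_ne_zero (hw e ▸ h)
  have p1 : ∀ i ∈ Ico 1 cap, ∀ e ∈ S i \ S (i + 1), w e = W i e := fun i hi e he => by
    rw [hw]
    exact sum_eq_single_of_mem i hi fun j hj hne => by_contra fun h =>
      hne (decode_disj hS (mem_inter.1 (w2 j (mem_Ico.1 hj).2 e h)).2 he)
  refine ⟨w, fun e => ?_, fun e h => ?_, ?_, funext fun j => ?_⟩
  · by_cases h : w e = 0
    · omega
    obtain ⟨i, hi, h⟩ := p0 e h
    rw [p1 i hi e (mem_inter.1 (w2 i (mem_Ico.1 hi).2 e h)).2]
    exact w1 i (mem_Ico.1 hi).2 e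
  · obtain ⟨i, hi, h⟩ := p0 e h
    exact (mem_inter.1 (w2 i (mem_Ico.1 hi).2 e h)).1
  · calc _ ≤ κ * ∑ i ∈ Ico 1 cap, (univ.filter fun e => W i e ≠ 0).card :=
          Nat.mul_le_mul_left κ ((card_le_card fun e he => by
            simpa using p0 e (mem_filter.1 he).2).trans card_biUnion_le)
      _ ≤ 6 * ∑ i ∈ Ico 1 cap, (D ∩ (S i \ S (i + 1))).card := by
          rw [mul_sum, mul_sum]
          exact sum_le_sum fun i hi => w3 i (mem_Ico.1 hi).2
      _ ≤ _ := by
          rw [← card_biUnion fun i _ j _ hne => disjoint_left.2 fun e h h' =>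
            hne (decode_disj hS (mem_inter.1 h).2 (mem_inter.1 h').2)]
          exact Nat.mul_le_mul_left 6 (card_le_card (biUnion_subset.2 fun _ _ => inter_subset_left))
  by_cases hj : j < cap
  swap
  · rw [ge j hj]
    exact if_neg hj
  have hH' : ∀ i < cap, H i ⊆ S i := fun i h => lt i h ▸ subset_Expn _ _ _ _
  have s0 : S 0 = univ := eq_univ_iff_forall.2 fun e => hH' 0 (by omega) (h0 ▸ mem_univ e)
  refine (if_pos hj).trans ?_
  rcases Nat.eq_zero_or_pos j with rfl | j0
  · rw [s0]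
    exact eq_univ_iff_forall.2 fun e => subset_Expn _ _ _ _ (h0 ▸ mem_univ e)
  refine Expn_eq_of R κ w (hH' j hj) (fun F h1 h2 => ?_) fun F h1 => ?_
  · have key : ∀ i, j ≤ i → i ≤ cap → κ * R.r (F ∪ S j) + ∑ e ∈ S i \ F, w e ≤
        κ * R.r (F ∪ S i) + ∑ e ∈ S j \ F, w e := fun i hi => by
      induction i, hi using Nat.le_induction with
      | base => exact fun _ => le_rfl
      | succ i hi ih =>
        intro hc
        have a1 := ih (by omega)
        have a2 := w5 i hc (F ∩ (D ∩ (S i \ S (i + 1)))) inter_subset_right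
        have a3 := Nat.mul_le_mul_left κ (decode_sub R (A := S i) (B := F ∪ S (i + 1))
          (C := F ∪ S i) (D := F ∩ (D ∩ (S i \ S (i + 1))) ∪ (S (i + 1) ∪ H i))
          (by intro e; simp only [mem_union]; grind) fun e => by
            have := @hS _ _ i.le_succ e
            have := @hH' i hc e
            have := @h1 e
            have := @hH _ _ hi e
            simp only [mem_union, mem_inter, mem_sdiff]
            grind)
        have a4 : ∑ e ∈ (D ∩ (S i \ S (i + 1))) \ (F ∩ (D ∩ (S i \ S (i + 1)))), W i e +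
            ∑ e ∈ S (i + 1) \ F, w e ≤ ∑ e ∈ S i \ F, w e := by
          rw [← sum_congr rfl fun e he => p1 i (mem_Ico.2 ⟨by omega, hc⟩) e
            (mem_inter.1 (mem_sdiff.1 he).1).2, ← sum_union (disjoint_left.2 fun e h h' =>
              (mem_sdiff.1 (mem_inter.1 (mem_sdiff.1 h).1).2).2 (mem_sdiff.1 h').1)]
          refine sum_le_sum_of_subset fun e => ?_
          have := @hS _ _ i.le_succ e
          simp only [mem_union, mem_inter, mem_sdiff]
          grind
        rw [mul_add, mul_add] at a3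
        omega
    have a1 := key cap hj.le le_rfl
    have a2 := sum_sdiff (f := w) h2
    rw [union_eq_right.2 h2, ge cap (lt_irrefl _), union_eq_left.2 ((hH hj.le).trans h1)] at a1
    rw [dval, dval, ← Nat.cast_sum, ← Nat.cast_sum]
    omega
  · have key : ∀ i ≤ j, ∑ e ∈ F ∩ S i, w e = ∑ e ∈ F ∩ S j, w e ∨
        ∑ e ∈ F ∩ S i, w e + κ * R.r (F ∩ S j) < ∑ e ∈ F ∩ S j, w e + κ * R.r (F ∩ S i) :=
      fun i hi => by
      induction hi using Nat.decreasingInduction with
      | self => exact Or.inl rfl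
      | of_succ i hi ih =>
        have b1 : F ∩ S (i + 1) ⊆ F ∩ S i := inter_subset_inter_left (hS i.le_succ)
        have a1 := sum_sdiff (f := w) b1
        have a2 := Nat.mul_le_mul_left κ (R.mono b1)
        have a3 := Nat.mul_le_mul_left κ (R.mono (inter_subset_inter_left (s := F)
          (hS (show i + 1 ≤ j from hi))))
        by_cases a4 : ∑ e ∈ (F ∩ S i) \ (F ∩ S (i + 1)), w e = 0
        · omega
        have b2 : ∀ e ∈ (F ∩ S i) \ (F ∩ S (i + 1)), w e ≠ 0 →
            i ∈ Ico 1 cap ∧ e ∈ F ∩ (D ∩ (S i \ S (i + 1))) := fun e he h => by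
          obtain ⟨i', hi', h⟩ := p0 e h
          have b3 := w2 i' (mem_Ico.1 hi').2 e h
          simp only [mem_inter, mem_sdiff] at he
          obtain rfl := decode_disj hS (mem_inter.1 b3).2 (mem_sdiff.2 ⟨he.1.2, fun e' =>
            he.2 ⟨he.1.1, e'⟩⟩)
          exact ⟨hi', mem_inter.2 ⟨he.1.1, b3⟩⟩
        obtain ⟨e0, he0, h⟩ := exists_ne_zero_of_sum_ne_zero a4
        have a5 := w4 i (by omega) (by omega) _ inter_subset_right ⟨e0, (b2 e0 he0 h).2⟩
        have a6 : _ ≤ ∑ e ∈ F ∩ (D ∩ (S i \ S (i + 1))), W i e :=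
          (sum_le_sum_of_ne_zero fun e he h => (b2 e he h).2).trans_eq (sum_congr rfl fun e he =>
            p1 i (b2 e0 he0 h).1 e (mem_inter.1 (mem_inter.1 he).2).2)
        have a7 := Nat.mul_le_mul_left κ (decode_sub R (A := F ∩ S i) (B := S (i + 1))
          (C := F ∩ (D ∩ (S i \ S (i + 1))) ∪ S (i + 1)) (D := F ∩ S (i + 1))
          (by intro e; simp only [mem_union, mem_inter, mem_sdiff]; grind)
          (subset_inter b1 inter_subset_right))
        rw [mul_add, mul_add] at a7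
        omega
    have a1 := key 0 j.zero_le
    have a2 := Nat.mul_le_mul_left κ (Nat.succ_le_of_lt
      (R.r_lt_of_closed (lt j hj ▸ Expn_closed R κ (ind D) (H j)) h1))
    rw [s0, inter_univ, inter_eq_right.2 h1.subset] at a1
    rw [Nat.mul_succ] at a2
    rw [dval, dval, ← Nat.cast_sum, ← Nat.cast_sum]
    omega

theorem card_inter_Uset (R : Rk E) (κ : ℕ) (D : Finset E) (cap : ℕ) {H : ℕ → Finset E}
    (hH : Antitone H) (G Yh : Finset E) :
    (D ∩ Uset R κ (ind D) cap H G Yh).card ≤ κ * Yh.card := by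
  have hS := Sw_anti R κ (ind D) cap hH
  have lt : ∀ j < cap, Sw R κ (ind D) cap H j = Expn R κ (ind D) (H j) := fun j h => if_pos h
  rw [Uset]
  generalize Sw R κ (ind D) cap H = S at hS lt
  have key : ∀ n, n ≤ cap - 1 →
      ∑ j ∈ range n, ((D ∩ (R.cl (S (j + 1) ∪ Yh) ∩ S j)) \ (D ∩ S (j + 1))).card +
        κ * R.r (S n) + κ * R.r (S 0 ∪ Yh) ≤ κ * R.r (S n ∪ Yh) + κ * R.r (S 0) := fun n hn => by
    induction n with
    | zero => simp [add_comm]
    | succ n ih =>
      have a1 := ih (by omega)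
      have b1 : S (n + 1) ⊆ R.cl (S (n + 1) ∪ Yh) ∩ S n :=
        subset_inter (subset_union_left.trans (R.subset_cl _)) (hS n.le_succ)
      have a2 := decode_max R κ D ((subset_Expn R κ (ind D) (H (n + 1))).trans
        (lt (n + 1) (by omega) ▸ b1))
      have a3 := card_sdiff_add_card_eq_card (inter_subset_inter_left (s := D) b1)
      have a4 := Nat.mul_le_mul_left κ (decode_sub R (A := R.cl (S (n + 1) ∪ Yh)) (B := S n)
        (C := S n ∪ Yh) (union_subset subset_union_right ((subset_union_right.trans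
          (R.subset_cl _)).trans subset_union_left)) subset_rfl)
      rw [← lt (n + 1) (by omega)] at a2
      rw [mul_add, mul_add, R.r_cl] at a4
      rw [sum_range_succ]
      omega
  have a1 := key _ le_rfl
  have a2 := Nat.mul_le_mul_left κ (R.r_union_le_card (S (cap - 1)) Yh)
  have a3 := Nat.mul_le_mul_left κ (R.mono (subset_union_left : S 0 ⊆ S 0 ∪ Yh))
  rw [mul_add] at a2
  refine ((card_le_card (t := (range (cap - 1)).biUnion fun j =>
    (D ∩ (R.cl (S (j + 1) ∪ Yh) ∩ S j)) \ (D ∩ S (j + 1))) fun e he => ?_).trans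
      card_biUnion_le).trans (by omega)
  simp only [mem_inter, mem_filter, mem_range, mem_biUnion, mem_sdiff] at he ⊢
  obtain ⟨h1, -, j, h2, h3, h4, h5, h6⟩ := he
  obtain ⟨j, rfl⟩ := Nat.exists_eq_add_of_le' h3
  exact ⟨j, by omega, ⟨h1, h4, h5⟩, fun h => h6 h.2⟩

end Vale.Agent.P331
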