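import Mathlib

/-!
Definitions for the one-sample rule against the almighty adversary: abstract rank functions,
density expansions, the chain of flats, candidates, and finite expectations over labels.
-/

namespace Vale.Agent.P331

open Finset

/-- A matroid rank function on the finite subsets of `E`. -/
structure Rk (E : Type) [DecidableEq E] where
  r : Finset E → ℕ
  mono : ∀ {X Y : Finset E}, X ⊆ Y → r X ≤ r Y
  submod : ∀ X Y : Finset E, r (X ∪ Y) + r (X ∩ Y) ≤ r X + r Y
  le_card : ∀ X : Finset E, r X ≤ X.card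

variable {E : Type} [Fintype E] [DecidableEq E]

/-- Closure (span). -/
def Rk.cl (R : Rk E) (X : Finset E) : Finset E :=
  univ.filter (fun e => R.r (insert e X) = R.r X)

/-- Weight minus `κ` times rank. -/
def dval (R : Rk E) (κ : ℕ) (w : E → ℕ) (F : Finset E) : ℤ :=
  (∑ e ∈ F, (w e : ℤ)) - (κ : ℤ) * (R.r F : ℤ)

/-- `F` maximizes `dval` among the supersets of `H`. -/
def IsMaxi (R : Rk E) (κ : ℕ) (w : E → ℕ) (H F : Finset E) : Prop :=
  H ⊆ F ∧ ∀ F', H ⊆ F' → dval R κ w F' ≤ dval R κ w F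

open Classical in
/-- The density expansion: the largest maximizer of `dval` above `H`. -/
noncomputable def Expn (R : Rk E) (κ : ℕ) (w : E → ℕ) (H : Finset E) : Finset E :=
  univ.filter (fun e => ∃ F, IsMaxi R κ w H F ∧ e ∈ F)

/-- Indicator weight. -/
def ind (D : Finset E) : E → ℕ := fun e => if e ∈ D then 1 else 0

/-- Expansion below the cap, identity from the cap on. -/
noncomputable def Gam (R : Rk E) (κ : ℕ) (w : E → ℕ) (cap j : ℕ) (F : Finset E) : Finset E :=
  if j < cap then Expn R κ w F else F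

/-- The expanded chain. -/
noncomputable def Sw (R : Rk E) (κ : ℕ) (w : E → ℕ) (cap : ℕ) (H : ℕ → Finset E) :
    ℕ → Finset E := fun j => Gam R κ w cap j (H j)

/-- The set of elements of `G` that guards `Yh` would pull one level down. -/
noncomputable def Uset (R : Rk E) (κ : ℕ) (w : E → ℕ) (cap : ℕ) (H : ℕ → Finset E)
    (G Yh : Finset E) : Finset E :=
  G.filter (fun e => ∃ j ∈ range cap, 1 ≤ j ∧ e ∈ R.cl (Sw R κ w cap H j ∪ Yh) ∧
    e ∈ Sw R κ w cap H (j - 1) ∧ e ∉ Sw R κ w cap H j)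

/-- The initial chain. -/
def H0 (R : Rk E) : ℕ → Finset E := fun j => if j = 0 then univ else R.cl ∅

/-- One class step of the chain. -/
noncomputable def stp (R : Rk E) (κ : ℕ) (Dk Yk : Finset E) (cap : ℕ) (H : ℕ → Finset E) :
    ℕ → Finset E :=
  fun j => R.cl (Sw R κ (ind Dk) cap H j ∪ (Yk ∩ Sw R κ (ind Dk) cap H (j - 1)))

/-- The elements of `X` of class `k`. -/
def sl (c : E → ℤ) (X : Finset E) (k : ℤ) : Finset E := X.filter (fun e => c e = k)

/-- The cap of class `k`. -/
def capf (c : E → ℤ) (D : Finset E) (k : ℤ) : ℕ :=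
  (Fintype.card E + 2) * (1 + (D.filter (fun e => c e < k)).card)

/-- A bound for all caps. -/
def Nb (E : Type) [Fintype E] : ℕ := (Fintype.card E + 2) * (1 + Fintype.card E)

/-- The chain after the `m` classes `k - m, …, k - 1`. -/
noncomputable def Hb (R : Rk E) (κ : ℕ) (c : E → ℤ) (D Y : Finset E) : ℕ → ℤ → ℕ → Finset E
  | 0, _ => H0 R
  | m + 1, k => stp R κ (sl c D (k - 1)) (sl c Y (k - 1)) (capf c D (k - 1))
      (Hb R κ c D Y m (k - 1))

/-- The chain after all classes below `k`. -/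
noncomputable def Hlt (R : Rk E) (κ : ℕ) (c : E → ℤ) (D Y : Finset E) (k : ℤ) : ℕ → Finset E :=
  Hb R κ c D Y ((D ∪ Y).sup (fun f => (k - c f).toNat)) k

/-- The expanded chain of class `k`. -/
noncomputable def Sl (R : Rk E) (κ : ℕ) (c : E → ℤ) (D Y : Finset E) (k : ℤ) : ℕ → Finset E :=
  Sw R κ (ind (sl c D k)) (capf c D k) (Hlt R κ c D Y k)

open Classical in
/-- The final chain. -/
noncomputable def Hfin (R : Rk E) (κ : ℕ) (c : E → ℤ) (D Y : Finset E) (j : ℕ) : Finset E :=
  univ.filter (fun e => ∃ k, e ∈ Hlt R κ c D Y k j)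

/-- The candidates of level `d`. -/
noncomputable def Cand (R : Rk E) (κ : ℕ) (c : E → ℤ) (D Y T : Finset E) (d : ℕ) : Finset E :=
  T.filter (fun e => e ∈ Sl R κ c D Y (c e) d ∧ e ∉ Sl R κ c D Y (c e) (d + 1))

open Classical in
/-- The accepted set for parity `ε` when the arrival times are `pos`. -/
noncomputable def Acc (R : Rk E) (κ : ℕ) (c : E → ℤ) (D Y T : Finset E) (ε : Bool)
    (pos : E → ℕ) : Finset E :=
  T.filter (fun e => ∃ d, d % 2 = ε.toNat ∧ e ∈ Cand R κ c D Y T d ∧
    e ∉ R.cl (Hfin R κ c D Y (d + 2) ∪ (Cand R κ c D Y T d).filter (fun f => pos f < pos e)))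

/-- The free candidates of class `k` and level `d`. -/
noncomputable def Fr (R : Rk E) (κ : ℕ) (c : E → ℤ) (D Y T : Finset E) (k : ℤ) (d : ℕ) :
    Finset E :=
  (Cand R κ c D Y T d).filter (fun e => c e = k ∧ e ∉ R.cl (Hlt R κ c D Y (k + 1) (d + 2) ∪
    ((Cand R κ c D Y T d).filter (fun f => c f ≤ k)).erase e))

/-- Expectation over independent labels with law `p`. -/
noncomputable def Ex {L : Type} [Fintype L] (p : L → ℝ) (F : (E → L) → ℝ) : ℝ :=
  ∑ a : E → L, (∏ e, p (a e)) * F a

/-- A probability vector. -/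
def IsLaw {L : Type} [Fintype L] (p : L → ℝ) : Prop := (∀ x, 0 ≤ p x) ∧ ∑ x, p x = 1

/-- The fair coin. -/
noncomputable def half : Bool → ℝ := fun _ => 1 / 2

/-- The elements of `X` with label `x`. -/
def lab {L : Type} [DecidableEq L] (X : Finset E) (a : E → L) (x : L) : Finset E :=
  X.filter (fun e => a e = x)

open Classical in
/-- The test function of the key inequality. -/
noncomputable def gk (u v : Prop) : ℝ :=
  (if u ∧ ¬ v then 1 else 0) - 2 * (if ¬ u ∧ v then 1 else 0)

/-- The comparison process of level `d`, started at class `k0`. -/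
noncomputable def Vn (R : Rk E) (κ : ℕ) (c : E → ℤ) (D Y T : Finset E) (k0 : ℤ) (d : ℕ) :
    ℕ → Finset E
  | 0 => R.cl ∅
  | n + 1 => R.cl (Gam R κ (ind (sl c D (k0 + n))) (capf c D (k0 + n)) (d + 1)
        (Vn R κ c D Y T k0 d n) ∪
      (sl c Y (k0 + n) ∩ Sl R κ c D Y (k0 + n) (d + 1)) ∪
      (sl c T (k0 + n) ∩ (Sl R κ c D Y (k0 + n) d \ Sl R κ c D Y (k0 + n) (d + 1))))

/-- Order by class, then by a fixed numbering. -/
noncomputable def akey (c : E → ℤ) (e : E) : ℤ ×ₗ ℕ := toLex (c e, (Fintype.equivFin E e : ℕ))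

/-- The greedy basis of `P`. -/
noncomputable def Bas (R : Rk E) (P : Finset E) (c : E → ℤ) : Finset E :=
  P.filter (fun e => e ∉ R.cl (P.filter (fun g => akey c e < akey c g)))

/-- The elements surviving the cleaning by the sample `s = true`. -/
noncomputable def Gs (R : Rk E) (P : Finset E) (c : E → ℤ) (s : E → Bool) : Finset E :=
  P.filter (fun e => s e = false ∧
    e ∉ R.cl (P.filter (fun g => s g = true ∧ akey c e < akey c g)))

/-- The density threshold. -/
def kap : ℕ := 2 ^ 20

/-- The law of the third label: guard, test, nothing. -/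
noncomputable def pa : Fin 3 → ℝ := ![1 / 2 ^ 31, 1 / 2 ^ 32, 1 - 3 / 2 ^ 32]

/-- The ratio of the value classes. -/
noncomputable def lam : ℝ := 2 ^ 39

/-- Seeds. -/
abbrev Seed (E : Type) : Type := (E → Bool) × (E → Bool) × (E → Fin 3) × Bool

/-- The density sample. -/
noncomputable def Dw (R : Rk E) (P : Finset E) (c : E → ℤ) (ω : Seed E) : Finset E :=
  lab (Gs R P c ω.1) ω.2.1 true

/-- The guards. -/
noncomputable def Yw (R : Rk E) (P : Finset E) (c : E → ℤ) (ω : Seed E) : Finset E :=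
  lab (lab (Gs R P c ω.1) ω.2.1 false) ω.2.2.1 0

/-- The test elements. -/
noncomputable def Tw (R : Rk E) (P : Finset E) (c : E → ℤ) (ω : Seed E) : Finset E :=
  lab (lab (Gs R P c ω.1) ω.2.1 false) ω.2.2.1 1

/-- The accepted set for a seed and arrival times. -/
noncomputable def Accw (R : Rk E) (P : Finset E) (c : E → ℤ) (ω : Seed E) (pos : E → ℕ) :
    Finset E :=
  Acc R kap c (Dw R P c ω) (Yw R P c ω) (Tw R P c ω) ω.2.2.2 pos

/-- The elements whose value the rule reads only on arrival. -/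
def tau (ω : Seed E) (e : E) : Prop := ω.1 e = false ∧ ω.2.1 e = false ∧ ω.2.2.1 e = 1

instance (ω : Seed E) (e : E) : Decidable (tau ω e) := by unfold tau; infer_instance

/-- The probability of a seed. -/
noncomputable def wt (ω : Seed E) : ℝ :=
  (∏ e, half (ω.1 e)) * ((∏ e, half (ω.2.1 e)) * ((∏ e, pa (ω.2.2.1 e)) * (1 / 2)))

/-- A bound for the absolute values of the classes. -/
def cb (c : E → ℤ) : ℕ := univ.sup (fun e => (c e).natAbs)

/-- The order-free lower bound for the accepted value. -/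
noncomputable def Psi (R : Rk E) (P : Finset E) (c : E → ℤ) (ω : Seed E) : ℝ :=
  (1 / 2) * ∑ k ∈ Icc (-(cb c : ℤ)) (cb c), lam ^ k *
    ((∑ d ∈ (range (Nb E)).filter (fun d => d % 2 = ω.2.2.2.toNat),
      ((Fr R kap c (Dw R P c ω) (Yw R P c ω) (Tw R P c ω) k d).card : ℝ)) -
      (R.r (P.filter (fun e => k < c e)) : ℝ))

end Vale.Agent.P331
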