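import Vale.Agent.P331.AEx

set_option linter.unusedSectionVars false

namespace Vale.Agent.P331

open Finset

variable {E : Type} [Fintype E] [DecidableEq E]

lemma key_batch_gk {u u' v v' : Prop} (hu : u → u') (hv : v → v') {t : ℝ} (ht : 0 ≤ t) :
    2 * t * gk u' v' + t * gk u v ≤ 2 * t * gk u' v + t * gk u v' := by
  by_cases h1 : u <;> by_cases h2 : u' <;> by_cases h3 : v <;> by_cases h4 : v' <;>
    simp_all [gk] <;> linarith

lemma key_batch_mem (X : Finset E) (a : E → Fin 3) (x : Fin 3) (e : E) :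
    e ∈ lab X a x ↔ e ∈ X ∧ a e = x := mem_filter

/-- The hybrid set. -/
def key_batch_V (L R U V S : Finset E) (a : E → Fin 3) : Finset E :=
  V ∪ (lab L a 0 ∩ U) ∪ (lab R a 1 ∩ (S \ U)) ∪ (lab (L \ R) a 0 ∩ S)

lemma key_batch_same {L R U V S : Finset E} {f : E} (h : f ∉ S ∨ f ∈ U) (a : E → Fin 3) :
    key_batch_V L (insert f R) U V S a = key_batch_V L R U V S a := by
  ext e
  simp only [key_batch_V, mem_union, mem_inter, mem_sdiff, key_batch_mem, mem_insert]
  by_cases he : e = f
  · subst he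
    tauto
  · simp only [he, false_or]

lemma key_batch_U {L U S : Finset E} {f : E} (hL : f ∈ L) (hS : f ∈ S) (a : E → Fin 3) (x : Fin 3) :
    U ∪ (lab L (Function.update a f x) 0 ∩ S) = if x = 0 then
      insert f (U ∪ (lab (L.erase f) a 0 ∩ S)) else U ∪ (lab (L.erase f) a 0 ∩ S) := by
  ext e
  by_cases he : e = f
  · subst he
    split_ifs with hx <;> simp [key_batch_mem, hL, hS, hx]
  · split_ifs with hx <;> simp [key_batch_mem, he]

lemma key_batch_V0 {L R U V S : Finset E} {f : E} (hL : f ∈ L) (hR : f ∉ R) (hS : f ∈ S)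
    (hU : f ∉ U) (a : E → Fin 3) (x : Fin 3) :
    key_batch_V L R U V S (Function.update a f x) = if x = 0 then
      insert f (key_batch_V (L.erase f) R U V S a) else key_batch_V (L.erase f) R U V S a := by
  ext e
  by_cases he : e = f
  · subst he
    split_ifs with hx <;> simp [key_batch_V, key_batch_mem, hL, hR, hS, hU, hx]
  · split_ifs with hx <;> simp [key_batch_V, key_batch_mem, he]

lemma key_batch_V1 {L R U V S : Finset E} {f : E} (hR : f ∉ R) (hS : f ∈ S)
    (hU : f ∉ U) (a : E → Fin 3) (x : Fin 3) :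
    key_batch_V L (insert f R) U V S (Function.update a f x) = if x = 1 then
      insert f (key_batch_V (L.erase f) R U V S a) else key_batch_V (L.erase f) R U V S a := by
  ext e
  by_cases he : e = f
  · subst he
    split_ifs with hx <;> simp [key_batch_V, key_batch_mem, hR, hS, hU, hx]
  · split_ifs with hx <;> simp [key_batch_V, key_batch_mem, he]

theorem key_batch {p : Fin 3 → ℝ} (hp : IsLaw p) (hK : p 0 = 2 * p 1) (L : Finset E)
    (U V S : (E → Fin 3) → Finset E) (φ : (E → Fin 3) → Finset E → Prop)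
    (hUS : ∀ a, U a ⊆ S a)
    (hU : ∀ a, ∀ f ∈ L, ∀ x, U (Function.update a f x) = U a)
    (hV : ∀ a, ∀ f ∈ L, ∀ x, V (Function.update a f x) = V a)
    (hS : ∀ a, ∀ f ∈ L, ∀ x, S (Function.update a f x) = S a)
    (hφ : ∀ a, ∀ f ∈ L, f ∈ S a → ∀ x, φ (Function.update a f x) = φ a)
    (hmono : ∀ a F F', F ⊆ F' → φ a F → φ a F') :
    Ex p (fun a => gk (φ a (U a ∪ (lab L a 0 ∩ S a))) (φ a (V a ∪ (lab L a 0 ∩ S a)))) ≤
      Ex p (fun a => gk (φ a (U a ∪ (lab L a 0 ∩ S a)))
        (φ a (V a ∪ (lab L a 0 ∩ U a) ∪ (lab L a 1 ∩ (S a \ U a))))) := by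
  have key : ∀ R ⊆ L, Ex p (fun a => gk (φ a (U a ∪ (lab L a 0 ∩ S a)))
      (φ a (key_batch_V L ∅ (U a) (V a) (S a) a))) ≤ Ex p (fun a => gk
        (φ a (U a ∪ (lab L a 0 ∩ S a))) (φ a (key_batch_V L R (U a) (V a) (S a) a))) := by
    intro R
    induction R using Finset.induction_on with
    | empty => exact fun _ => le_rfl
    | insert f R hR ih =>
      intro hL
      have hf : f ∈ L := hL (mem_insert_self _ _)
      refine (ih ((subset_insert _ _).trans hL)).trans ?_
      rw [Ex_update hp f, Ex_update hp f (fun a => gk _ (φ a (key_batch_V L (insert f R) _ _ _ a)))]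
      refine Ex_mono hp fun a => ?_
      simp only [hU a f hf, hV a f hf, hS a f hf]
      by_cases h : f ∉ S a ∨ f ∈ U a
      · simp only [key_batch_same h, le_refl]
      · obtain ⟨h1, h2⟩ := not_or.1 h
        rw [not_not] at h1
        have h3 := key_batch_gk (hmono a _ _ (subset_insert f (U a ∪ (lab (L.erase f) a 0 ∩ S a))))
          (hmono a _ _ (subset_insert f (key_batch_V (L.erase f) R (U a) (V a) (S a) a))) (hp.1 1)
        simp only [hφ a f hf h1, key_batch_U hf h1, key_batch_V0 hf hR h1 h2,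
          key_batch_V1 hR h1 h2, Fin.sum_univ_three, hK, Fin.reduceEq, if_true, if_false]
        linarith
  have h0 : ∀ a, key_batch_V L ∅ (U a) (V a) (S a) a = V a ∪ (lab L a 0 ∩ S a) := fun a => by
    ext e
    have := @hUS a e
    simp only [key_batch_V, mem_union, mem_inter, mem_sdiff, key_batch_mem, notMem_empty]
    tauto
  have h1 : ∀ a, key_batch_V L L (U a) (V a) (S a) a =
      V a ∪ (lab L a 0 ∩ U a) ∪ (lab L a 1 ∩ (S a \ U a)) := fun a => by
    rw [key_batch_V, Finset.sdiff_self, show lab ∅ a 0 = ∅ from filter_empty _, empty_inter,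
      union_empty]
  have := key L Subset.rfl
  simp only [h0, h1] at this
  exact this

end Vale.Agent.P331
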