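import Vale.Agent.P331.AChain
import Vale.Agent.P331.AKey1

set_option linter.unusedSectionVars false

namespace Vale.Agent.P331

open Finset

variable {E : Type} [Fintype E] [DecidableEq E]

lemma key_inv_sl (c : E → ℤ) (Q : Finset E) (a : E → Fin 3) (x : Fin 3) (k : ℤ) :
    sl c (lab Q a x) k = lab (sl c Q k) a x := filter_comm _ _ _

lemma key_inv_upd (c : E → ℤ) (Q : Finset E) (a : E → Fin 3) {f : E} (x y : Fin 3) {i : ℤ}
    (h : c f ≠ i) : sl c (lab Q (Function.update a f x) y) i = sl c (lab Q a y) i := by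
  ext e
  by_cases he : e = f
  · simp [sl, he, h]
  · simp [sl, lab, he]

lemma key_inv_Vn (R : Rk E) {κ : ℕ} (hκ : 0 < κ) (c : E → ℤ) (D : Finset E) {Y Y' T T' : Finset E}
    (k0 : ℤ) (d n : ℕ) (hY : ∀ i < k0 + n, sl c Y i = sl c Y' i)
    (hT : ∀ i < k0 + n, sl c T i = sl c T' i) :
    Vn R κ c D Y T k0 d n = Vn R κ c D Y' T' k0 d n := by
  induction n with
  | zero => rfl
  | succ n ih =>
    rw [Vn, Vn, ih (fun i hi => hY i (by omega)) fun i hi => hT i (by omega), hY _ (by omega),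
      hT _ (by omega), Sl_congr R hκ (fun _ _ => rfl) fun i hi => hY i (by omega)]

lemma key_bad_V (R : Rk E) {κ : ℕ} (hκ : 0 < κ) (c : E → ℤ) {D Y T : Finset E} {k0 : ℤ}
    (h0 : ∀ f ∈ D ∪ Y, k0 ≤ c f) (hT : ∀ f ∈ T, k0 ≤ c f) (d n : ℕ) :
    R.cl (Hlt R κ c D Y (k0 + n) (d + 2) ∪ (Cand R κ c D Y T d).filter (fun f => c f < k0 + n)) ⊆
      Vn R κ c D Y T k0 d n := by
  induction n with
  | zero =>
    rw [Nat.cast_zero, add_zero, Hlt_base R κ c D Y k0 h0, H0, if_neg (by omega),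
      (filter_eq_empty_iff (s := Cand R κ c D Y T d)).2
        fun f hf => (hT f (mem_filter.1 hf).1).not_gt, union_empty, R.cl_cl]
    exact Subset.rfl
  | succ n ih =>
    have h1 := (R.subset_cl _).trans ih
    rw [Nat.cast_succ, ← add_assoc, Hlt_succ_apply R hκ, Vn]
    refine R.cl_subset_cl (union_subset (R.cl_mono ((union_subset_union (Gam_mono R κ _ _
      (Nat.le_succ _) (subset_union_left.trans h1)) Subset.rfl).trans subset_union_left))
      fun e he => R.subset_cl _ ?_)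
    obtain ⟨h2, h3⟩ := mem_filter.1 he
    by_cases h4 : c e = k0 + n
    · obtain ⟨h5, h6⟩ := mem_filter.1 h2
      rw [h4] at h6
      exact mem_union_right _ (mem_inter.2 ⟨mem_filter.2 ⟨h5, h4⟩, mem_sdiff.2 h6⟩)
    · exact mem_union_left _ (mem_union_left _ (subset_Gam R κ _ _ _ _
        (h1 (mem_union_right _ (mem_filter.2 ⟨h2, by omega⟩)))))

lemma key_bad_gk {u v w b : Prop} [Decidable u] [Decidable w] [Decidable b] (h1 : w → u) (h2 : w → v) (h3 : b → ¬ u ∧ v) :
    (if b then (1 : ℝ) else 0) ≤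
      1 / 2 * ((if u then 1 else 0) - if w then 1 else 0) - 1 / 2 * gk u v := by
  by_cases hu : u <;> by_cases hv : v <;> by_cases hw : w <;> by_cases hb : b <;>
    simp_all [gk]

theorem key_inv (R : Rk E) {κ : ℕ} (hκ : 0 < κ) (c : E → ℤ) (D Q : Finset E) {p : Fin 3 → ℝ}
    (hp : IsLaw p) (hK : p 0 = 2 * p 1) (k0 : ℤ) (h0 : ∀ f ∈ D ∪ Q, k0 ≤ c f) (d n : ℕ)
    (φ : (E → Fin 3) → Finset E → Prop) (hmono : ∀ a F F', F ⊆ F' → φ a F → φ a F')
    (hφ : ∀ a a', (∀ f, k0 + n ≤ c f → a f = a' f) →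
      (∀ j ≤ d, Hlt R κ c D (lab Q a 0) (k0 + n) j = Hlt R κ c D (lab Q a' 0) (k0 + n) j) →
      φ a = φ a') :
    0 ≤ Ex p (fun a => gk (φ a (Hlt R κ c D (lab Q a 0) (k0 + n) (d + 1)))
      (φ a (Vn R κ c D (lab Q a 0) (lab Q a 1) k0 d n))) := by
  induction n generalizing φ with
  | zero =>
    refine ((Ex_const hp 0).symm.trans (congrArg (Ex p) (funext fun a => ?_))).le
    rw [Nat.cast_zero, add_zero, Hlt_base R κ c D (lab Q a 0) k0 fun f hf =>
      h0 f (union_subset_union Subset.rfl (filter_subset _ _) hf), H0, if_neg (by omega), Vn]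
    simp [gk]
  | succ n ih =>
    rw [Nat.cast_succ, ← add_assoc] at hφ ⊢
    simp only [Vn, key_inv_sl]
    have hs : ∀ (a : E → Fin 3) j, Hlt R κ c D (lab Q a 0) (k0 + n + 1) j =
        R.cl (Sl R κ c D (lab Q a 0) (k0 + n) j ∪
          (lab (sl c Q (k0 + n)) a 0 ∩ Sl R κ c D (lab Q a 0) (k0 + n) (j - 1))) := fun a j => by
      rw [Hlt_succ_apply R hκ, key_inv_sl]
    have hu : ∀ a : E → Fin 3, ∀ f ∈ sl c Q (k0 + n), ∀ x,
        Sl R κ c D (lab Q (Function.update a f x) 0) (k0 + n) =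
          Sl R κ c D (lab Q a 0) (k0 + n) := fun a f hf x =>
      Sl_congr R hκ (fun _ _ => rfl) fun i hi =>
        key_inv_upd c Q a x 0 ((mem_filter.1 hf).2 ▸ hi.ne')
    refine le_trans (ih (fun a F => φ a (R.cl (Gam R κ (ind (sl c D (k0 + n))) (capf c D (k0 + n))
      (d + 1) F ∪ (lab (sl c Q (k0 + n)) a 0 ∩ Sl R κ c D (lab Q a 0) (k0 + n) d))))
      (fun a F F' h => hmono a _ _ (R.cl_mono (union_subset_union (Gam_mono R κ _ _ le_rfl h)
        Subset.rfl))) fun a a' h1 h2 => ?_) ?_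
    · have h3 : ∀ j ≤ d, Sl R κ c D (lab Q a 0) (k0 + n) j = Sl R κ c D (lab Q a' 0) (k0 + n) j :=
        fun j hj => congrArg (Gam R κ _ _ j) (h2 j hj)
      have h4 : lab (sl c Q (k0 + n)) a 0 = lab (sl c Q (k0 + n)) a' 0 :=
        filter_congr fun f hf => by rw [h1 f (mem_filter.1 hf).2.ge]
      rw [hφ a a' (fun f hf => h1 f (by omega)) fun j hj => by
        rw [hs, hs, h3 j hj, h3 (j - 1) (by omega), h4], h4, h3 d le_rfl]
    · simp only [hs]
      refine key_batch hp hK (sl c Q (k0 + n)) (fun a => Sl R κ c D (lab Q a 0) (k0 + n) (d + 1))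
        (fun a => Gam R κ (ind (sl c D (k0 + n))) (capf c D (k0 + n)) (d + 1)
          (Vn R κ c D (lab Q a 0) (lab Q a 1) k0 d n))
        (fun a => Sl R κ c D (lab Q a 0) (k0 + n) d) (fun a F => φ a (R.cl F))
        (fun a => Sl_anti R κ c D _ _ (Nat.le_succ d)) (fun a f hf x => by rw [hu a f hf])
        (fun a f hf x => ?_) (fun a f hf x => by rw [hu a f hf]) (fun a f hf hS x => ?_)
        fun a F F' h => hmono a _ _ (R.cl_mono h)
      · have h1 := (mem_filter.1 hf).2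
        rw [key_inv_Vn R hκ c D k0 d n (fun i hi => key_inv_upd c Q a x 0 (by omega))
          fun i hi => key_inv_upd c Q a x 1 (by omega)]
      · have h1 := (mem_filter.1 hf).2
        rw [hφ (Function.update a f x) a (fun g hg => Function.update_of_ne
          (fun h => by rw [h] at hg; omega) _ _) fun j hj => ?_]
        rw [hs, hs, hu a f hf]
        refine congrArg _ (Finset.ext fun e => ?_)
        by_cases he : e = f
        · simp only [he, mem_union, Sl_anti R κ c D _ _ hj hS, true_or]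
        · simp only [mem_union, mem_inter, lab, mem_filter, Function.update_of_ne he]

open Classical in
theorem key_bad (R : Rk E) {κ : ℕ} (hκ : 0 < κ) (c : E → ℤ) (D Q : Finset E) {p : Fin 3 → ℝ}
    (hp : IsLaw p) (hK : p 0 = 2 * p 1) (e : E) (k : ℤ) (N : ℕ) :
    ∑ d ∈ range N, Ex p (fun a =>
      if e ∉ Hlt R κ c D (lab Q a 0) (k + 1) (d + 1) ∧
        e ∈ R.cl (Hlt R κ c D (lab Q a 0) (k + 1) (d + 2) ∪
          (Cand R κ c D (lab Q a 0) (lab Q a 1) d).filter (fun f => c f ≤ k))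
      then (1 : ℝ) else 0) ≤ 1 / 2 := by
  obtain ⟨n, hn⟩ : ∃ n : ℕ, ∀ f ∈ D ∪ Q, k + 1 ≤ c f + n := ⟨_, chain_dep c _ (k + 1) le_rfl⟩
  obtain ⟨k0, hk⟩ : ∃ k0, k + 1 = k0 + n := ⟨k + 1 - n, by omega⟩
  have h0 : ∀ f ∈ D ∪ Q, k0 ≤ c f := fun f hf => by
    have := hn f hf
    omega
  let g : (E → Fin 3) → ℕ → ℝ := fun a j =>
    if e ∈ Hlt R κ c D (lab Q a 0) (k + 1) (j + 1) then 1 else 0
  have hV := fun (a : E → Fin 3) d => key_bad_V R hκ c (D := D) (Y := lab Q a 0) (T := lab Q a 1)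
    (fun f hf => h0 f (union_subset_union Subset.rfl (filter_subset _ _) hf))
    (fun f hf => h0 f (mem_union_right _ (mem_filter.1 hf).1)) d n
  refine (sum_le_sum (g := fun d => Ex p fun a => 1 / 2 * (g a d - g a (d + 1)))
    fun d _ => ?_).trans ?_
  · have h1 := key_inv R hκ c D Q hp hK k0 h0 d n (fun _ F => e ∈ F) (fun _ _ _ h h' => h h')
      fun _ _ _ _ => rfl
    rw [← hk] at h1 hV
    refine (Ex_mono hp (G := fun a => 1 / 2 * (g a d - g a (d + 1)) - 1 / 2 *
      gk (e ∈ Hlt R κ c D (lab Q a 0) (k + 1) (d + 1))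
        (e ∈ Vn R κ c D (lab Q a 0) (lab Q a 1) k0 d n)) fun a => ?_).trans ?_
    · refine key_bad_gk (fun h => Hlt_anti R κ c D _ _ (Nat.le_succ _) h)
        (fun h => hV a d (R.subset_cl _ (mem_union_left _ h))) fun h => ⟨h.1, hV a d ?_⟩
      simpa only [Int.lt_add_one_iff] using h.2
    · rw [Ex_sub, Ex_const_mul p _ fun a => gk _ _]
      exact sub_le_self _ (mul_nonneg (by norm_num) h1)
  · rw [← Ex_sum]
    refine (Ex_mono hp fun a => ?_).trans (Ex_const hp (1 / 2)).le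
    rw [← mul_sum, sum_range_sub']
    have h1 : g a 0 ≤ 1 := by
      simp only [g]
      split_ifs <;> norm_num
    have h2 : 0 ≤ g a N := by
      simp only [g]
      split_ifs <;> norm_num
    linarith

end Vale.Agent.P331
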