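import Vale.Agent.P331.AExp
import Vale.Agent.P331.AEx
import Vale.Agent.P331.AChain
import Vale.Agent.P331.AKey2

namespace Vale.Agent.P331

open Finset

variable {E : Type} [Fintype E] [DecidableEq E]

theorem free_a_step {P : ℕ → Prop} (h0 : P 0) {n : ℕ} (hn : ¬ P n) :
    ∃ d < n, P d ∧ ¬ P (d + 1) := by
  induction n with
  | zero => exact absurd h0 hn
  | succ n ih =>
    by_cases h : P n
    · exact ⟨n, n.lt_succ_self, h, hn⟩
    · obtain ⟨d, hd, h'⟩ := ih h
      exact ⟨d, hd.trans n.lt_succ_self, h'⟩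

theorem free_a_pt (R : Rk E) {κ : ℕ} (hκ : 0 < κ) (c : E → ℤ) (D Y T Gk Yh : Finset E) (k : ℤ)
    {e : E} (hc : c e = k) (hT : e ∈ T) (hG : e ∈ Gk) (hY : sl c Y k ⊆ Yh)
    (h1 : e ∉ Expn R κ (ind (sl c D k)) (R.cl ∅))
    (h2 : e ∉ Uset R κ (ind (sl c D k)) (capf c D k) (Hlt R κ c D Y k) Gk Yh) :
    ∃ d ∈ range (Nb E), e ∈ Fr R κ c D Y T k d ∨ (e ∉ Hlt R κ c D Y (k + 1) (d + 1) ∧
      e ∈ R.cl (Hlt R κ c D Y (k + 1) (d + 2) ∪
        (Cand R κ c D Y (T.erase e) d).filter (fun f => c f ≤ k))) := by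
  have c2 := two_le_capf c D k
  have cN := capf_le_Nb c D k
  have e1 : Sl R κ c D Y k (capf c D k - 1) = Expn R κ (ind (sl c D k)) (R.cl ∅) := by
    rw [Sl, Sw, Gam, if_pos (by omega), Hlt_cap R hκ c D Y k (by omega)]
  obtain ⟨d, hd, d1, d2⟩ := free_a_step (P := fun j => e ∈ Sl R κ c D Y k j)
    (by rw [Sl_zero]; exact mem_univ _) (n := capf c D k - 1) (by rwa [e1])
  refine ⟨d, mem_range.2 (by omega), ?_⟩
  have e2 : e ∉ Hlt R κ c D Y (k + 1) (d + 1) := fun h => h2 (mem_filter.2 ⟨hG, d + 1,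
    mem_range.2 (by omega), by omega, R.cl_mono (union_subset_union_right
      (inter_subset_left.trans hY)) (Hlt_succ_apply R hκ c D Y k (d + 1) ▸ h), d1, d2⟩)
  have e3 : (Cand R κ c D Y (T.erase e) d).filter (fun f => c f ≤ k) =
      ((Cand R κ c D Y T d).filter (fun f => c f ≤ k)).erase e := by
    rw [Cand, filter_erase, filter_erase, Cand]
  rw [e3]
  refine or_iff_not_imp_right.2 fun h => mem_filter.2 ⟨mem_filter.2 ⟨hT, ?_⟩, hc,
    fun h' => h ⟨e2, h'⟩⟩
  rw [hc]
  exact ⟨d1, d2⟩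

theorem free_a_elem {p : Fin 3 → ℝ} (hp : IsLaw p) (hy : p 0 ≤ 1 / 2) (e : E)
    {F U B : (E → Fin 3) → ℝ} (hB : Ex p B ≤ 1 / 2) (hB' : ∀ a z, B (Function.update a e z) = B a)
    (hU0 : ∀ a, 0 ≤ U a) (hU : ∀ a, U (Function.update a e 2) = U (Function.update a e 1))
    (hF : ∀ a, 0 ≤ F a) (hpt : ∀ a, a e = 1 → 1 ≤ F a + U a + B a) :
    p 1 / 2 ≤ Ex p F + 2 * p 1 * Ex p U := by
  have s1 := hp.2
  rw [Fin.sum_univ_three] at s1
  have e1 := Ex_ite_mul hp e 1 (F := fun _ => (1 : ℝ)) fun _ _ => rfl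
  have e2 := Ex_ite_mul hp e 1 hB'
  have e3 : Ex p (fun a => if a e = 1 then U a else 0) ≤ 2 * p 1 * Ex p U := by
    rw [Ex_update hp e U, Ex_update hp e, ← Ex_const_mul]
    refine Ex_mono hp fun a => ?_
    simp only [Fin.sum_univ_three, Function.update_self, hU]
    have q1 := mul_nonneg (hp.1 1) (mul_nonneg (hp.1 0) (hU0 (Function.update a e 0)))
    have q2 := mul_nonneg (mul_nonneg (hp.1 1) (hU0 (Function.update a e 1)))
      (show 0 ≤ 2 * (p 1 + p 2) - 1 by linarith)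
    simp only [Fin.isValue, Fin.reduceEq, if_false, if_true]
    linarith
  have e4 := Ex_mono hp (F := fun a => if a e = 1 then (1 : ℝ) else 0)
    (G := fun a => F a + (if a e = 1 then U a else 0) + if a e = 1 then B a else 0) fun a => by
      by_cases h : a e = 1
      · simpa only [if_pos h] using hpt a h
      · simpa only [if_neg h, add_zero] using hF a
  rw [e1, Ex_add, Ex_add, e2, Ex_const hp] at e4
  have := mul_le_mul_of_nonneg_left hB (hp.1 1)
  linarith

omit [Fintype E] in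
theorem free_a_count (J S : Finset E) :
    ∑ e ∈ J, (if e ∈ S then (1 : ℝ) else 0) = (J ∩ S).card := by
  rw [sum_boole, filter_mem_eq_inter]

theorem free_a (R : Rk E) {κ : ℕ} (hκ : 0 < κ) (c : E → ℤ) (D Q I Gk : Finset E) {p : Fin 3 → ℝ}
    (hp : IsLaw p) (hK : p 0 = 2 * p 1) (hy : p 0 ≤ 1 / 2) (hI : R.r I = I.card) (k : ℤ)
    (hG : sl c Q k ⊆ Gk) :
    p 1 / 2 * (sl c (I ∩ Q) k).card ≤
      Ex p (fun a => ∑ d ∈ range (Nb E), ((Fr R κ c D (lab Q a 0) (lab Q a 1) k d).card : ℝ)) +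
      p 1 * (sl c D k).card / κ +
      2 * p 1 * Ex p (fun a => ((Uset R κ (ind (sl c D k)) (capf c D k)
        (Hlt R κ c D (lab Q a 0) k) Gk (lab Gk a 0) ∩ Q).card : ℝ)) := by
  set U := fun a : E → Fin 3 => Uset R κ (ind (sl c D k)) (capf c D k)
    (Hlt R κ c D (lab Q a 0) k) Gk (lab Gk a 0) with hU
  set C := Expn R κ (ind (sl c D k)) (R.cl ∅) with hC
  set J := sl c (I ∩ Q) k with hJ
  have p1 := hp.1 1
  have n0 : ∀ {F : (E → Fin 3) → ℝ}, (∀ a, 0 ≤ F a) → 0 ≤ Ex p F := fun h =>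
    (Ex_const hp 0).symm.trans_le (Ex_mono hp h)
  have key : ∀ e ∈ J, p 1 / 2 ≤ Ex p (fun a => ∑ d ∈ range (Nb E),
      if e ∈ Fr R κ c D (lab Q a 0) (lab Q a 1) k d then (1 : ℝ) else 0) +
      p 1 * (if e ∈ C then 1 else 0) + 2 * p 1 * Ex p fun a => if e ∈ U a then 1 else 0 := by
    intro e he
    obtain ⟨he, hc⟩ := mem_filter.1 he
    have hQ := (mem_inter.1 he).2
    have f0 : ∀ a : E → Fin 3, 0 ≤ ∑ d ∈ range (Nb E),
        if e ∈ Fr R κ c D (lab Q a 0) (lab Q a 1) k d then (1 : ℝ) else 0 := fun a => by positivity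
    have u0 : ∀ a, 0 ≤ if e ∈ U a then (1 : ℝ) else 0 := fun a => by positivity
    by_cases h1 : e ∈ C
    · have := mul_nonneg (mul_nonneg zero_le_two p1) (n0 u0)
      rw [if_pos h1]
      linarith [n0 f0]
    rw [if_neg h1, mul_zero, add_zero]
    have hb := key_bad R hκ c D (Q.erase e) hp hK e k (Nb E)
    rw [← Ex_sum] at hb
    have l1 : ∀ (a : E → Fin 3) z x, lab (Q.erase e) (Function.update a e z) x =
        lab (Q.erase e) a x := fun a z x => filter_congr fun f hf => by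
      rw [Function.update_of_ne (mem_erase.1 hf).1]
    have l2 : ∀ (X : Finset E) (a : E → Fin 3), lab X (Function.update a e 2) 0 =
        lab X (Function.update a e 1) 0 := fun X a => filter_congr fun f _ => by
      by_cases h : f = e
      · simp [h]
      · rw [Function.update_of_ne h, Function.update_of_ne h]
    refine free_a_elem hp hy e hb (fun a z => by rw [l1, l1]) u0
      (fun a => by simp only [hU, l2]) f0 fun a ha => ?_
    have l3 : lab (Q.erase e) a 0 = lab Q a 0 := by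
      rw [lab, filter_erase, erase_eq_of_notMem (by simp [ha]), lab]
    have l4 : lab (Q.erase e) a 1 = (lab Q a 1).erase e := filter_erase _ _ _
    rw [l3, l4]
    by_cases h2 : e ∈ U a
    · rw [if_pos h2]
      exact le_add_of_le_of_nonneg (le_add_of_nonneg_left (f0 a)) (by positivity)
    obtain ⟨d, hd, h | h⟩ := free_a_pt R hκ c D (lab Q a 0) (lab Q a 1) Gk (lab Gk a 0) k hc
      (mem_filter.2 ⟨hQ, ha⟩) (hG (mem_filter.2 ⟨hQ, hc⟩)) (fun f hf => by
        obtain ⟨hf, hf'⟩ := mem_filter.1 hf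
        obtain ⟨hf, hf''⟩ := mem_filter.1 hf
        exact mem_filter.2 ⟨hG (mem_filter.2 ⟨hf, hf'⟩), hf''⟩) h1 h2
    · refine le_add_of_le_of_nonneg (le_add_of_le_of_nonneg ?_ (u0 a)) (by positivity)
      exact (if_pos h).symm.trans_le (single_le_sum (f := fun d =>
        if e ∈ Fr R κ c D (lab Q a 0) (lab Q a 1) k d then (1 : ℝ) else 0)
        (fun _ _ => by positivity) hd)
    · refine le_add_of_nonneg_of_le (add_nonneg (f0 a) (u0 a)) ?_
      refine le_trans ?_ (single_le_sum (fun _ _ => by positivity) hd)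
      exact (if_pos h).ge
  have s1 := sum_le_sum key
  rw [sum_const, nsmul_eq_mul, mul_comm, sum_add_distrib, sum_add_distrib, ← mul_sum, ← mul_sum,
    ← Ex_sum, ← Ex_sum, free_a_count] at s1
  refine s1.trans (add_le_add (add_le_add (Ex_mono hp fun a => ?_) ?_)
    (mul_le_mul_of_nonneg_left (Ex_mono hp fun a => ?_) (by positivity)))
  · rw [sum_comm]
    refine sum_le_sum fun d _ => ?_
    rw [free_a_count]
    exact_mod_cast card_le_card inter_subset_right
  · rw [mul_div_assoc]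
    refine mul_le_mul_of_nonneg_left ?_ p1
    rw [le_div_iff₀' (by positivity)]
    have := R.card_le_r (J := J ∩ C) (X := C) hI (inter_subset_left.trans
      ((filter_subset _ _).trans inter_subset_left)) inter_subset_right
    exact_mod_cast (Nat.mul_le_mul_left κ this).trans (Expn_core R κ (sl c D k))
  · rw [free_a_count, inter_comm]
    exact_mod_cast card_le_card (inter_subset_inter_left
      ((filter_subset _ _).trans inter_subset_right))

end Vale.Agent.P331
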