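import Vale.Agent.P331.AEx

namespace Vale.Agent.P331

open Finset

variable {E : Type} [Fintype E] [DecidableEq E]

/-- Multiplicative factor of average one. -/
noncomputable def pacFac (x : Bool) : ℝ := if x then 1 / 2 else 3 / 2

/-- Prior weight. -/
noncomputable def pacPri (G : Finset E) (κ : ℕ) (e : E) (v : ℕ) : ℝ :=
  if e ∈ G then (if v = 0 then 1 - 1 / (κ : ℝ) else 1 / (κ : ℝ) ^ 2) else 1

theorem pac_fac_pos (x : Bool) : 0 < pacFac x := by
  cases x <;> norm_num [pacFac]

theorem pac_one {G : Finset E} (U : (E → Bool) → Finset E)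
    (hU : ∀ b, ∀ f ∈ G, ∀ x, U (Function.update b f x) = U b) (R : Finset E) (hR : R ⊆ G) :
    Ex half (fun b => ∏ f ∈ U b ∩ R, pacFac (b f)) = 1 := by
  induction R using Finset.induction_on with
  | empty => simpa using Ex_const isLaw_half 1
  | insert f R hf ih =>
    rw [Ex_update isLaw_half f, ← ih ((subset_insert _ _).trans hR)]
    congr 1
    funext b
    have h1 : ∀ x, ∏ g ∈ U b ∩ R, pacFac (Function.update b f x g) = ∏ g ∈ U b ∩ R, pacFac (b g) :=
      fun x => prod_congr rfl fun g hg => by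
        rw [Function.update_of_ne (ne_of_mem_of_not_mem (mem_inter.1 hg).2 hf)]
    simp only [hU b f (hR (mem_insert_self _ _))]
    by_cases h : f ∈ U b
    · simp only [inter_insert_of_mem h, prod_insert (fun h' => hf (mem_inter.1 h').2), h1,
        Function.update_self, Fintype.sum_bool, half]
      rw [show pacFac true = 1 / 2 from rfl, show pacFac false = 3 / 2 from rfl]
      ring
    · simp only [inter_insert_of_notMem h, h1, Fintype.sum_bool, half]
      ring

omit [Fintype E] in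
theorem pac_pri_pos (G : Finset E) {κ : ℕ} (hκ : 2 ≤ κ) (e : E) (v : ℕ) : 0 < pacPri G κ e v := by
  have h : (2 : ℝ) ≤ κ := by exact_mod_cast hκ
  unfold pacPri
  split_ifs
  · rw [sub_pos, div_lt_one (by linarith)]
    linarith
  · positivity
  · exact one_pos

theorem pac_pri_sum (G : Finset E) {κ : ℕ} (hκ : 2 ≤ κ) :
    ∑ w ∈ Fintype.piFinset (fun e => if e ∈ G then range (κ + 1) else {0}),
      ∏ e, pacPri G κ e (w e) = 1 := by
  have h : (κ : ℝ) ≠ 0 := by positivity
  rw [← prod_univ_sum]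
  refine prod_eq_one fun e _ => ?_
  by_cases he : e ∈ G
  · simp only [he, if_true, pacPri, sum_range_succ', Nat.succ_ne_zero, if_false, sum_const,
      card_range, nsmul_eq_mul]
    field_simp
    ring
  · simp [he, pacPri]

theorem pac_log_pri (G : Finset E) {m : ℕ} (hm : 1 ≤ m) {w : E → ℕ}
    (h3 : 2 ^ m * (univ.filter (fun e => w e ≠ 0)).card ≤ 6 * G.card) :
    -((2 + 12 * m) * G.card / 2 ^ m : ℝ) ≤ Real.log (∏ e, pacPri G (2 ^ m) e (w e)) := by
  have hκ : 2 ≤ 2 ^ m := le_self_pow₀ one_le_two (by omega)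
  have hκ' : (2 : ℝ) ≤ 2 ^ m := by exact_mod_cast hκ
  have hl := Real.log_two_lt_d9
  have hl0 := Real.log_pos one_lt_two
  have h1 : ∀ e, -((if e ∈ G then 2 / 2 ^ m else 0) + if w e ≠ 0 then 2 * (m : ℝ) else 0 : ℝ) ≤
      Real.log (pacPri G (2 ^ m) e (w e)) := fun e => by
    have hp := pac_pri_pos G hκ e (w e)
    unfold pacPri at hp ⊢
    by_cases he : e ∈ G <;> by_cases hw : w e = 0 <;>
      simp only [he, hw, if_true, if_false, ne_eq, not_true, not_false_iff, Real.log_one] at hp ⊢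
    · refine le_trans ?_ (Real.one_sub_inv_le_log_of_pos hp)
      push_cast
      have : (1 - 1 / (2 : ℝ) ^ m)⁻¹ ≤ 1 + 2 / 2 ^ m := by
        rw [inv_le_iff_one_le_mul₀ (by exact_mod_cast hp)]
        field_simp
        nlinarith
      linarith
    · push_cast
      rw [one_div, Real.log_inv, Real.log_pow, Real.log_pow]
      have : (0 : ℝ) ≤ 2 / 2 ^ m := by positivity
      have : (m : ℝ) * Real.log 2 ≤ m := mul_le_of_le_one_right (by positivity) (by linarith)
      push_cast
      linarith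
    · simp
    · simp
  rw [Real.log_prod fun e _ => (pac_pri_pos G hκ e _).ne']
  refine le_trans ?_ (sum_le_sum fun e _ => h1 e)
  rw [sum_neg_distrib, neg_le_neg_iff, sum_add_distrib, ← sum_filter, ← sum_filter, sum_const,
    sum_const, nsmul_eq_mul, nsmul_eq_mul, filter_univ_mem]
  have h4 : (2 : ℝ) ^ m * (univ.filter (fun e => w e ≠ 0)).card ≤ 6 * G.card := by
    exact_mod_cast h3
  rw [le_div_iff₀ (by positivity)]
  have h5 := mul_le_mul_of_nonneg_left h4 (show (0 : ℝ) ≤ 2 * m by positivity)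
  have h6 : (G.card : ℝ) * (2 / 2 ^ m) * 2 ^ m = 2 * G.card := by field_simp
  rw [add_mul, h6]
  linarith

omit [Fintype E] [DecidableEq E] in
theorem pac_log_fac (U : Finset E) (b : E → Bool) :
    ((lab U b false).card : ℝ) / 3 - (lab U b true).card ≤ Real.log (∏ f ∈ U, pacFac (b f)) := by
  have hl := Real.log_two_lt_d9
  have h1 : ∀ x : Bool, (if x = false then (1 : ℝ) else 0) / 3 - (if x = true then 1 else 0) ≤
      Real.log (pacFac x) := fun x => by
    cases x
    · refine le_trans ?_ (Real.one_sub_inv_le_log_of_pos (pac_fac_pos _))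
      norm_num [pacFac]
    · simp only [pacFac, if_true, one_div, Real.log_inv]
      norm_num
      linarith
  rw [Real.log_prod fun e _ => (pac_fac_pos _).ne']
  refine le_of_eq_of_le ?_ (sum_le_sum fun e _ => h1 (b e))
  simp only [lab, card_filter, sum_sub_distrib, ← sum_div]
  push_cast
  rfl

theorem pac (G : Finset E) (m : ℕ) (hm : 1 ≤ m) (Uf : (E → Bool) → (E → ℕ) → Finset E)
    (hUG : ∀ b w, Uf b w ⊆ G)
    (hUf : ∀ b, ∀ f ∈ G, ∀ x, Uf (Function.update b f x) = Uf b)
    (ws : (E → Bool) → E → ℕ) (h1 : ∀ b e, ws b e ≤ 2 ^ m) (h2 : ∀ b e, ws b e ≠ 0 → e ∈ G)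
    (h3 : ∀ b, 2 ^ m * (univ.filter (fun e => ws b e ≠ 0)).card ≤ 6 * G.card) :
    Ex half (fun b => ((lab (Uf b (ws b)) b false).card : ℝ)) ≤
      3 * (Ex half (fun b => ((lab (Uf b (ws b)) b true).card : ℝ)) +
        (2 + 12 * m) * G.card / 2 ^ m) := by
  have hκ : 2 ≤ 2 ^ m := le_self_pow₀ one_le_two (by omega)
  set W := Fintype.piFinset (fun e => if e ∈ G then range (2 ^ m + 1) else {0}) with hW
  set Z : (E → Bool) → ℝ := fun b =>
    ∑ w ∈ W, (∏ e, pacPri G (2 ^ m) e (w e)) * ∏ f ∈ Uf b w, pacFac (b f) with hZ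
  have e1 : Ex half Z = 1 := by
    rw [hZ, Ex_sum, ← pac_pri_sum G hκ]
    refine sum_congr rfl fun w _ => ?_
    have := pac_one (fun b => Uf b w) (fun b f hf x => by rw [hUf b f hf x]) G subset_rfl
    simp only [inter_eq_left.2 (hUG _ _)] at this
    rw [Ex_const_mul, this, mul_one]
  have p1 : ∀ w : E → ℕ, 0 < ∏ e, pacPri G (2 ^ m) e (w e) := fun w =>
    prod_pos fun e _ => pac_pri_pos G hκ e _
  have p2 : ∀ (b : E → Bool) (w : E → ℕ), 0 < ∏ f ∈ Uf b w, pacFac (b f) := fun b w =>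
    prod_pos fun e _ => pac_fac_pos _
  have e2 : ∀ b, ((lab (Uf b (ws b)) b false).card : ℝ) ≤ 3 * ((lab (Uf b (ws b)) b true).card +
      ((2 + 12 * m) * G.card / 2 ^ m - 1) + Z b) := fun b => by
    have hw : ws b ∈ W := Fintype.mem_piFinset.2 fun e => by
      split_ifs with he
      · exact mem_range.2 (Nat.lt_succ_of_le (h1 b e))
      · exact mem_singleton.2 (by_contra fun h => he (h2 b e h))
    have q1 := single_le_sum (f := fun w => (∏ e, pacPri G (2 ^ m) e (w e)) *
      ∏ f ∈ Uf b w, pacFac (b f)) (fun w _ => (mul_pos (p1 w) (p2 b w)).le) hw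
    have q2 := Real.log_le_sub_one_of_pos (mul_pos (p1 (ws b)) (p2 b (ws b)))
    rw [Real.log_mul (p1 _).ne' (p2 _ _).ne'] at q2
    have q3 := pac_log_pri G hm (h3 b)
    have q4 := pac_log_fac (Uf b (ws b)) b
    simp only [hZ]
    linarith
  refine (Ex_mono isLaw_half e2).trans_eq ?_
  rw [Ex_const_mul, Ex_add, Ex_add, Ex_const isLaw_half, e1]
  ring

end Vale.Agent.P331
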