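import Vale.Agent.P331.ADefs
import Vale.Agent.P331.AEx
import Vale.Agent.P331.AChain
import Vale.Agent.P331.ADec
import Vale.Agent.P331.APac
import Vale.Agent.P331.AFree1

/-! Averaging the number of free elements over the second coin. -/

namespace Vale.Agent.P331

open Finset

variable {E : Type} [Fintype E] [DecidableEq E]

omit [Fintype E] in
lemma uset_b_lab (c : E → ℤ) (G : Finset E) (b : E → Bool) {f : E} {i : ℤ} (hf : c f ≠ i)
    (x y : Bool) : sl c (lab G (Function.update b f x) y) i = sl c (lab G b y) i := by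
  ext e
  simp only [sl, lab, mem_filter]
  by_cases he : e = f
  · simp [he, hf]
  · rw [Function.update_of_ne he]

omit [Fintype E] in
lemma uset_b_lab2 (c : E → ℤ) (G : Finset E) (b : E → Bool) (a : E → Fin 3) {f : E} {i : ℤ}
    (hf : c f ≠ i) (x y : Bool) (z : Fin 3) :
    sl c (lab (lab G (Function.update b f x) y) a z) i = sl c (lab (lab G b y) a z) i := by
  ext e
  simp only [sl, lab, mem_filter]
  by_cases he : e = f
  · simp [he, hf]
  · rw [Function.update_of_ne he]

theorem uset_b (R : Rk E) (m : ℕ) (hm : 1 ≤ m) (c : E → ℤ) (G : Finset E) (a : E → Fin 3)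
    (k : ℤ) (Yh : Finset E) :
    Ex half (fun b => ((Uset R (2 ^ m) (ind (sl c (lab G b true) k)) (capf c (lab G b true) k)
        (Hlt R (2 ^ m) c (lab G b true) (lab (lab G b false) a 0) k) (sl c G k) Yh ∩
          lab G b false).card : ℝ)) ≤
      3 * (2 ^ m * Yh.card + (2 + 12 * m) * (sl c G k).card / 2 ^ m) := by
  have hκ : 2 ≤ 2 ^ m := by simpa using Nat.pow_le_pow_right (by norm_num : 0 < 2) hm
  have hκ0 : 0 < 2 ^ m := by omega
  have hd := fun b : E → Bool => decode R hκ (sl c (lab G b true) k) (capf c (lab G b true) k)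
    (Hlt_anti R (2 ^ m) c (lab G b true) (lab (lab G b false) a 0) k)
    (Hlt_zero R (2 ^ m) c (lab G b true) (lab (lab G b false) a 0) k)
  choose ws h1 h2 h3 h4 using hd
  have hsub : ∀ b : E → Bool, sl c (lab G b true) k ⊆ sl c G k :=
    fun b => filter_subset_filter _ (filter_subset _ _)
  obtain ⟨Uf, hUf⟩ : ∃ Uf : (E → Bool) → (E → ℕ) → Finset E, Uf = fun b w =>
      Uset R (2 ^ m) w (capf c (lab G b true) k)
        (Hlt R (2 ^ m) c (lab G b true) (lab (lab G b false) a 0) k) (sl c G k) Yh := ⟨_, rfl⟩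
  have hUG : ∀ b w, Uf b w ⊆ sl c G k := fun b w => by
    rw [hUf]
    exact filter_subset _ _
  have hp := pac (sl c G k) m hm Uf hUG (fun b f hf x => by
      have hk : ∀ i < k, c f ≠ i := fun i hi => by rw [(mem_filter.1 hf).2]; exact hi.ne'
      simp only [hUf]
      rw [capf_congr fun i hi => uset_b_lab c G b (hk i hi) x true,
        Hlt_congr R hκ0 (fun i hi => uset_b_lab c G b (hk i hi) x true)
          (fun i hi => uset_b_lab2 c G b a (hk i hi) x false 0)]) ws h1
    (fun b e he => hsub b (h2 b e he))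
    (fun b => (h3 b).trans (Nat.mul_le_mul_left _ (card_le_card (hsub b))))
  have hws : ∀ b, Uf b (ws b) = Uf b (ind (sl c (lab G b true) k)) := by
    intro b
    simp only [hUf, Uset, h4 b]
  have hf : ∀ b : E → Bool, Uset R (2 ^ m) (ind (sl c (lab G b true) k)) (capf c (lab G b true) k)
        (Hlt R (2 ^ m) c (lab G b true) (lab (lab G b false) a 0) k) (sl c G k) Yh ∩
          lab G b false = lab (Uf b (ws b)) b false := by
    intro b
    have h5 := hUG b (ind (sl c (lab G b true) k))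
    rw [hws]
    ext e
    simp only [hUf] at h5 ⊢
    rw [mem_inter]
    exact ⟨fun h => mem_filter.2 ⟨h.1, (mem_filter.1 h.2).2⟩, fun h => ⟨(mem_filter.1 h).1,
      mem_filter.2 ⟨(mem_filter.1 (h5 (mem_filter.1 h).1)).1, (mem_filter.1 h).2⟩⟩⟩
  have ht : ∀ b : E → Bool, ((lab (Uf b (ws b)) b true).card : ℝ) ≤ 2 ^ m * Yh.card := by
    intro b
    have h5 := card_inter_Uset R (2 ^ m) (sl c (lab G b true) k) (capf c (lab G b true) k)
      (Hlt_anti R (2 ^ m) c (lab G b true) (lab (lab G b false) a 0) k) (sl c G k) Yh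
    have h6 : lab (Uf b (ws b)) b true ⊆ sl c (lab G b true) k ∩ Uf b (ws b) := by
      intro e he
      obtain ⟨h7, h8⟩ := mem_filter.1 he
      obtain ⟨h9, h10⟩ := mem_filter.1 (hUG b _ h7)
      exact mem_inter.2 ⟨mem_filter.2 ⟨mem_filter.2 ⟨h9, h8⟩, h10⟩, h7⟩
    have h7 : (lab (Uf b (ws b)) b true).card ≤ 2 ^ m * Yh.card := by
      refine (card_le_card h6).trans ?_
      rw [hws, hUf]
      exact h5
    exact_mod_cast h7
  have ht' := (Ex_mono isLaw_half ht).trans_eq (Ex_const isLaw_half _)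
  simp only [hf]
  linarith

theorem free_ab (R : Rk E) (c : E → ℤ) (G I : Finset E) (hI : R.r I = I.card) (k : ℤ) :
    pa 1 / 4 * (sl c (I ∩ G) k).card - pa 1 / 64 * (sl c G k).card ≤
      Ex half (fun b => Ex pa (fun a => ∑ d ∈ range (Nb E),
        ((Fr R kap c (lab G b true) (lab (lab G b false) a 0) (lab (lab G b false) a 1)
          k d).card : ℝ))) := by
  have p0 : pa 0 = 1 / 2 ^ 31 := by simp [pa]
  have p1 : pa 1 = 1 / 2 ^ 32 := by simp [pa]
  have hκ : 0 < kap := by simp [kap]
  have hk : (kap : ℝ) = 2 ^ 20 := by norm_num [kap]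
  obtain ⟨u, hu⟩ : ∃ u : (E → Bool) → (E → Fin 3) → ℝ, u = fun b a =>
      ((Uset R kap (ind (sl c (lab G b true) k)) (capf c (lab G b true) k)
        (Hlt R kap c (lab G b true) (lab (lab G b false) a 0) k) (sl c G k)
          (lab (sl c G k) a 0) ∩ lab G b false).card : ℝ) := ⟨_, rfl⟩
  obtain ⟨f, hf⟩ : ∃ f : (E → Bool) → ℝ, f = fun b => Ex pa (fun a => ∑ d ∈ range (Nb E),
        ((Fr R kap c (lab G b true) (lab (lab G b false) a 0) (lab (lab G b false) a 1)
          k d).card : ℝ)) := ⟨_, rfl⟩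
  have h1 : ∀ b : E → Bool, pa 1 / 2 * ((lab (sl c (I ∩ G) k) b false).card : ℝ) ≤
      f b + pa 1 * (sl c G k).card / 2 ^ 20 + 2 * pa 1 * Ex pa (u b) := by
    intro b
    have h := free_a R hκ c (lab G b true) (lab G b false) I (sl c G k) isLaw_pa
      (by rw [p0, p1]; norm_num) (by rw [p0]; norm_num) hI k
      (filter_subset_filter _ (filter_subset _ _))
    have e : sl c (I ∩ lab G b false) k = lab (sl c (I ∩ G) k) b false := by
      ext e
      simp only [sl, lab, mem_filter, mem_inter]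
      tauto
    have h2 : ((sl c (lab G b true) k).card : ℝ) ≤ (sl c G k).card :=
      Nat.cast_le.2 (card_le_card (filter_subset_filter _ (filter_subset _ _)))
    have h3 : pa 1 * ((sl c (lab G b true) k).card : ℝ) / kap
        ≤ pa 1 * (sl c G k).card / 2 ^ 20 := by
      rw [hk, p1]
      linarith
    rw [e] at h
    simp only [hf, hu]
    linarith
  have h2 := Ex_mono isLaw_half h1
  rw [Ex_const_mul, Ex_card_lab isLaw_half, Ex_add, Ex_add, Ex_const isLaw_half, Ex_const_mul,
    Ex_comm] at h2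
  have h3 : ∀ a : E → Fin 3, Ex half (fun b => u b a) ≤
      3 * 2 ^ 20 * ((lab (sl c G k) a 0).card : ℝ) + 726 * (sl c G k).card / 2 ^ 20 := by
    intro a
    have h := uset_b R 20 (by norm_num) c G a k (lab (sl c G k) a 0)
    simp only [hu, kap]
    refine h.trans_eq ?_
    push_cast
    ring
  have h4 := Ex_mono isLaw_pa h3
  rw [Ex_add, Ex_const_mul, Ex_card_lab isLaw_pa, Ex_const isLaw_pa] at h4
  have h5 : (0 : ℝ) ≤ (sl c G k).card := Nat.cast_nonneg _
  have h6 : half false = 1 / 2 := rfl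
  rw [← hf]
  rw [h6, p1] at h2
  rw [p0] at h4
  rw [p1]
  linarith

end Vale.Agent.P331
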