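import Vale.Agent.P331.ADefs
import Vale.Agent.P331.AEx

/-! Geometric sums over the value classes and the seed weights. -/

namespace Vale.Agent.P331

open Finset

variable {E : Type} [Fintype E] [DecidableEq E]

lemma geo_le_nat (l : ℝ) (hl : 2 ≤ l) (k0 : ℤ) (m : ℕ) :
    ∑ k ∈ Icc k0 (k0 + m), l ^ k ≤ 2 * l ^ (k0 + m) := by
  have h0 : 0 < l := by linarith
  induction m with
  | zero =>
    have := zpow_pos h0 k0
    simp only [Nat.cast_zero, add_zero, Icc_self, sum_singleton]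
    linarith
  | succ m ih =>
    have e : Icc k0 (k0 + ((m + 1 : ℕ) : ℤ)) = insert (k0 + m + 1) (Icc k0 (k0 + m)) := by
      ext x
      simp only [mem_Icc, mem_insert]
      omega
    have e2 : k0 + ((m + 1 : ℕ) : ℤ) = k0 + m + 1 := by omega
    rw [e, sum_insert (by simp), e2, zpow_add_one₀ h0.ne']
    have := zpow_pos h0 (k0 + m)
    nlinarith

lemma geo_le_aux (l : ℝ) (hl : 2 ≤ l) (k0 k1 n : ℤ) :
    ∑ k ∈ Icc k0 k1, (if k ≤ n then l ^ k else 0) ≤ 2 * l ^ n := by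
  have h0 : 0 < l := by linarith
  rw [← sum_filter]
  by_cases hn : k0 ≤ n
  · obtain ⟨m, rfl⟩ : ∃ m : ℕ, n = k0 + m := ⟨(n - k0).toNat, by omega⟩
    refine le_trans (sum_le_sum_of_subset_of_nonneg ?_ fun k _ _ => (zpow_pos h0 k).le)
      (geo_le_nat l hl k0 m)
    intro k hk
    rw [mem_filter, mem_Icc] at hk
    exact mem_Icc.2 ⟨hk.1.1, hk.2⟩
  · rw [filter_false_of_mem, sum_empty]
    · have := zpow_pos h0 n
      linarith
    · intro k hk
      have := (mem_Icc.1 hk).1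
      omega

omit [Fintype E] [DecidableEq E] in
theorem geo_le (l : ℝ) (hl : 2 ≤ l) (c : E → ℤ) (A : Finset E) (k0 k1 : ℤ) :
    ∑ k ∈ Icc k0 k1, l ^ k * ((A.filter (fun e => k ≤ c e)).card : ℝ) ≤
      2 * ∑ e ∈ A, l ^ c e := by
  have e : ∀ k : ℤ, l ^ k * ((A.filter (fun e => k ≤ c e)).card : ℝ)
      = ∑ e ∈ A, if k ≤ c e then l ^ k else 0 := by
    intro k
    rw [← sum_filter, sum_const, nsmul_eq_mul, mul_comm]
  simp only [e]
  rw [sum_comm, mul_sum]
  exact sum_le_sum fun e _ => geo_le_aux l hl k0 k1 (c e)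

omit [Fintype E] [DecidableEq E] in
theorem geo_lt (l : ℝ) (hl : 2 ≤ l) (c : E → ℤ) (A : Finset E) (k0 k1 : ℤ) :
    ∑ k ∈ Icc k0 k1, l ^ k * ((A.filter (fun e => k < c e)).card : ℝ) ≤
      2 / l * ∑ e ∈ A, l ^ c e := by
  have h0 : 0 < l := by linarith
  have h := geo_le l hl (fun e => c e - 1) A k0 k1
  have e1 : ∀ k : ℤ, A.filter (fun e => k ≤ c e - 1) = A.filter (fun e => k < c e) :=
    fun k => filter_congr fun e _ => by omega
  have e2 : 2 * ∑ e ∈ A, l ^ (c e - 1) = 2 / l * ∑ e ∈ A, l ^ c e := by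
    rw [mul_sum, mul_sum]
    refine sum_congr rfl fun e _ => ?_
    rw [zpow_sub_one₀ h0.ne']
    field_simp
  simp only [e1] at h
  exact h.trans_eq e2

omit [DecidableEq E] in
theorem geo_eq (l : ℝ) (c : E → ℤ) (A : Finset E) :
    ∑ k ∈ Icc (-(cb c : ℤ)) (cb c), l ^ k * ((sl c A k).card : ℝ) = ∑ e ∈ A, l ^ c e := by
  have hm : ∀ e ∈ A, c e ∈ Icc (-(cb c : ℤ)) (cb c) := by
    intro e _
    have h : (c e).natAbs ≤ cb c := le_sup (f := fun e => (c e).natAbs) (mem_univ e)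
    rw [mem_Icc]
    omega
  rw [← sum_fiberwise_of_maps_to hm]
  refine sum_congr rfl fun k _ => ?_
  rw [sum_congr rfl (g := fun _ => l ^ k) fun e he => by rw [(mem_filter.1 he).2], sum_const,
    nsmul_eq_mul, mul_comm]
  rfl

theorem sum_wt (F : Seed E → ℝ) :
    ∑ ω, wt ω * F ω = Ex half (fun s => Ex half (fun b => Ex pa (fun a =>
      (1 / 2) * (F (s, b, a, false) + F (s, b, a, true))))) := by
  simp only [Fintype.sum_prod_type, Fintype.sum_bool, Ex, wt, mul_sum]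
  refine sum_congr rfl fun s _ => sum_congr rfl fun b _ => sum_congr rfl fun a _ => ?_
  ring

omit [DecidableEq E] in
theorem wt_nonneg (ω : Seed E) : 0 ≤ wt ω :=
  mul_nonneg (prod_nonneg fun _ _ => isLaw_half.1 _) (mul_nonneg
    (prod_nonneg fun _ _ => isLaw_half.1 _)
    (mul_nonneg (prod_nonneg fun _ _ => isLaw_pa.1 _) (by norm_num)))

theorem sum_wt_one : ∑ ω : Seed E, wt ω = 1 := by
  have h := sum_wt (E := E) (fun _ => 1)
  simp only [mul_one, Ex_const isLaw_pa, Ex_const isLaw_half] at h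
  rw [h]
  norm_num

end Vale.Agent.P331
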