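import Vale.Agent.P331.ARk
import Vale.Agent.P331.AEx
import Vale.Agent.P331.ACount
import Vale.Agent.P331.AFree2
import Vale.Agent.P331.AClean
import Vale.Agent.P331.AVal

/-! The offline analysis: the order-free bound and its expectation. -/

namespace Vale.Agent.P331

open Finset

variable {E : Type} [Fintype E] [DecidableEq E]

lemma Psi_le_lam : (2 : ℝ) ≤ lam := by unfold lam; norm_num

lemma Psi_le_pos (k : ℤ) : (0 : ℝ) ≤ lam ^ k := zpow_nonneg (by linarith [Psi_le_lam]) k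

theorem Psi_le (R : Rk E) (P : Finset E) (c : E → ℤ) (ω : Seed E) (pos : E → ℕ) :
    Psi R P c ω ≤ ∑ e ∈ Accw R P c ω pos, lam ^ c e := by
  have hκ : 0 < kap := by unfold kap; positivity
  have h1 := geo_le lam Psi_le_lam c (Accw R P c ω pos) (-(cb c : ℤ)) (cb c)
  have h2 : Psi R P c ω ≤ (1 / 2) * ∑ k ∈ Icc (-(cb c : ℤ)) (cb c), lam ^ k *
      (((Accw R P c ω pos).filter (fun e => k ≤ c e)).card : ℝ) := by
    refine mul_le_mul_of_nonneg_left (sum_le_sum fun k _ =>
      mul_le_mul_of_nonneg_left ?_ (Psi_le_pos k)) (by norm_num)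
    have h3 := acc_count R hκ c (Dw R P c ω) (Yw R P c ω) (Tw R P c ω) ω.2.2.2 pos k (Nb E)
    have h4 : R.r ((Dw R P c ω ∪ Yw R P c ω).filter (fun e => k < c e)) ≤
        R.r (P.filter (fun e => k < c e)) := by
      refine R.mono (filter_subset_filter _ (union_subset ?_ ?_))
      · exact fun f hf => (mem_filter.1 (mem_filter.1 hf).1).1
      · exact fun f hf => (mem_filter.1 (mem_filter.1 (mem_filter.1 hf).1).1).1
    have h5 := (Nat.cast_le (α := ℝ)).2 (h3.trans (Nat.add_le_add_left h4 _))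
    push_cast at h5
    rw [sub_le_iff_le_add]
    exact h5
  linarith

/-- The number of free candidates of class `k`. -/
noncomputable def le_Psi_N (R : Rk E) (P : Finset E) (c : E → ℤ) (s b : E → Bool) (a : E → Fin 3)
    (k : ℤ) : ℝ :=
  ∑ d ∈ range (Nb E), ((Fr R kap c (lab (Gs R P c s) b true) (lab (lab (Gs R P c s) b false) a 0)
    (lab (lab (Gs R P c s) b false) a 1) k d).card : ℝ)

lemma le_Psi_add (R : Rk E) (P : Finset E) (c : E → ℤ) (s b : E → Bool) (a : E → Fin 3) :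
    (1 / 2) * (Psi R P c (s, b, a, false) + Psi R P c (s, b, a, true)) =
      ∑ k ∈ Icc (-(cb c : ℤ)) (cb c), (lam ^ k / 4 * le_Psi_N R P c s b a k -
        lam ^ k / 2 * (R.r (P.filter (fun e => k < c e)) : ℝ)) := by
  simp only [Psi, ← mul_add, ← sum_add_distrib, mul_sum]
  refine sum_congr rfl fun k _ => ?_
  have h := sum_filter_add_sum_filter_not (range (Nb E)) (fun d => d % 2 = 0) fun d =>
    ((Fr R kap c (lab (Gs R P c s) b true) (lab (lab (Gs R P c s) b false) a 0)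
      (lab (lab (Gs R P c s) b false) a 1) k d).card : ℝ)
  have e1 : (range (Nb E)).filter (fun d => ¬ d % 2 = 0) =
      (range (Nb E)).filter (fun d => d % 2 = 1) := filter_congr fun d _ => by omega
  rw [e1] at h
  simp only [le_Psi_N, ← h, Dw, Yw, Tw, Bool.toNat_false, Bool.toNat_true]
  ring

lemma le_Psi_Ex (R : Rk E) (P : Finset E) (c : E → ℤ) (k : ℤ) :
    (1 / 2 ^ 35 : ℝ) * (sl c (Bas R P c) k).card -
        1 / 2 ^ 38 * ((Bas R P c).filter (fun e => k ≤ c e)).card ≤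
      Ex half (fun s => Ex half (fun b => Ex pa (fun a => le_Psi_N R P c s b a k))) := by
  have h1 := Ex_mono (E := E) isLaw_half fun s =>
    free_ab R c (Gs R P c s) (Bas R P c) (bas_indep R P c) k
  rw [Ex_sub, Ex_const_mul, Ex_const_mul] at h1
  have h2 := Ex_bas R P c k
  have h3 := Ex_Gs R P c k
  have h4 := (Nat.cast_le (α := ℝ)).2 (bas_span R P c k)
  have h5 : pa 1 = 1 / 2 ^ 32 := rfl
  rw [h5] at h1
  refine le_trans ?_ h1
  linarith

theorem le_Psi (R : Rk E) (P : Finset E) (c : E → ℤ) (I : Finset E) (hIP : I ⊆ P)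
    (hI : R.r I = I.card) :
    (1 / 2 ^ 39 : ℝ) * ∑ e ∈ I, lam ^ c e ≤ ∑ ω, wt ω * Psi R P c ω := by
  rw [sum_wt]
  simp only [le_Psi_add, Ex_sum, Ex_sub, Ex_const_mul, Ex_const isLaw_half, Ex_const isLaw_pa]
  have g1 := geo_eq lam c (Bas R P c)
  have g2 := geo_le lam Psi_le_lam c (Bas R P c) (-(cb c : ℤ)) (cb c)
  have g3 := geo_lt lam Psi_le_lam c (Bas R P c) (-(cb c : ℤ)) (cb c)
  have g4 : ∑ e ∈ I, lam ^ c e ≤ ∑ k ∈ Icc (-(cb c : ℤ)) (cb c), lam ^ k *
      (((Bas R P c).filter (fun e => k ≤ c e)).card : ℝ) := by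
    rw [← geo_eq lam c I]
    refine sum_le_sum fun k _ => mul_le_mul_of_nonneg_left ?_ (Psi_le_pos k)
    refine Nat.cast_le.2 (le_trans ?_ (bas_span R P c k))
    refine R.card_le_r hI (filter_subset _ _) fun f hf => ?_
    have := mem_filter.1 hf
    exact mem_filter.2 ⟨hIP this.1, this.2.ge⟩
  have g5 : ∑ k ∈ Icc (-(cb c : ℤ)) (cb c),
      (1 / 2 ^ 37 * (lam ^ k * ((sl c (Bas R P c) k).card : ℝ)) -
        1 / 2 ^ 40 * (lam ^ k * (((Bas R P c).filter (fun e => k ≤ c e)).card : ℝ)) -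
        1 / 2 * (lam ^ k * (((Bas R P c).filter (fun e => k < c e)).card : ℝ))) ≤
      ∑ k ∈ Icc (-(cb c : ℤ)) (cb c), (lam ^ k / 4 *
        Ex half (fun s => Ex half (fun b => Ex pa (fun a => le_Psi_N R P c s b a k))) -
        lam ^ k / 2 * (R.r (P.filter (fun e => k < c e)) : ℝ)) := by
    refine sum_le_sum fun k _ => ?_
    have h1 := mul_le_mul_of_nonneg_left (le_Psi_Ex R P c k) (Psi_le_pos k)
    have h2 : (R.r (P.filter (fun e => k < c e)) : ℝ) ≤
        ((Bas R P c).filter (fun e => k < c e)).card :=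
      Nat.cast_le.2 (bas_span R P c (k + 1))
    have h3 := mul_le_mul_of_nonneg_left h2 (Psi_le_pos k)
    linarith
  refine le_trans ?_ g5
  rw [sum_sub_distrib, sum_sub_distrib, ← mul_sum, ← mul_sum, ← mul_sum, g1]
  have h6 : 2 / lam = 1 / 2 ^ 38 := by unfold lam; norm_num
  rw [h6] at g3
  linarith

end Vale.Agent.P331
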