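import Vale.Agent.P331.AChain

/-! The accepted set only depends on what has been seen. -/

namespace Vale.Agent.P331

open Finset

variable {E : Type} [Fintype E] [DecidableEq E]

lemma Accw_restrict_Gs (R : Rk E) (P P' : Finset E) (c c' : E → ℤ) (s : E → Bool)
    (h1 : P' ⊆ P) (h2 : ∀ f ∈ P, s f = true → f ∈ P') (hc : ∀ f ∈ P', c' f = c f) (f : E) :
    f ∈ Gs R P' c' s ↔ f ∈ Gs R P c s ∧ f ∈ P' := by
  by_cases hf : f ∈ P'
  · have : P'.filter (fun g => s g = true ∧ akey c' f < akey c' g) =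
        P.filter (fun g => s g = true ∧ akey c f < akey c g) := by
      ext g
      simp only [mem_filter]
      constructor
      · rintro ⟨hg, h3, h4⟩
        refine ⟨h1 hg, h3, ?_⟩
        simpa only [akey, hc f hf, hc g hg] using h4
      · rintro ⟨hg, h3, h4⟩
        refine ⟨h2 g hg h3, h3, ?_⟩
        simpa only [akey, hc f hf, hc g (h2 g hg h3)] using h4
    simp only [Gs, mem_filter, this, hf, h1 hf, true_and, and_true]
  · simp [Gs, hf]

lemma Accw_restrict_mem_Tw (R : Rk E) (P : Finset E) (c : E → ℤ) (ω : Seed E) (f : E) :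
    f ∈ Tw R P c ω ↔ f ∈ Gs R P c ω.1 ∧ tau ω f := by
  simp only [Tw, lab, mem_filter, tau, Gs]
  tauto

theorem Accw_restrict (R : Rk E) (P P' : Finset E) (c c' : E → ℤ) (ω : Seed E) (pos : E → ℕ)
    (e : E) (hP : ∀ f, f ∈ P' ↔ f ∈ P ∧ (¬ tau ω f ∨ pos f ≤ pos e))
    (hc : ∀ f ∈ P', c' f = c f) (hpos : Function.Injective pos) :
    e ∈ Accw R P c ω pos ↔ e ∈ Accw R P' c' ω (fun f => if f = e then 1 else 0) := by
  have hκ : 0 < kap := by unfold kap; positivity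
  have hG := Accw_restrict_Gs R P P' c c' ω.1 (fun f hf => ((hP f).1 hf).1)
    (fun f hf h => (hP f).2 ⟨hf, Or.inl fun ht => by simp [ht.1] at h⟩) hc
  have hGP : ∀ f ∈ Gs R P c ω.1, f ∈ P := fun f hf => (mem_filter.1 hf).1
  have hD : Dw R P' c' ω = Dw R P c ω := by
    ext f
    simp only [Dw, lab, mem_filter, hG]
    exact ⟨fun h => ⟨h.1.1, h.2⟩, fun h => ⟨⟨h.1, (hP f).2 ⟨hGP f h.1,
      Or.inl fun ht => by simp [ht.2.1] at h⟩⟩, h.2⟩⟩
  have hY : Yw R P' c' ω = Yw R P c ω := by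
    ext f
    simp only [Yw, lab, mem_filter, hG]
    exact ⟨fun h => ⟨⟨h.1.1.1, h.1.2⟩, h.2⟩, fun h => ⟨⟨⟨h.1.1, (hP f).2 ⟨hGP f h.1.1,
      Or.inl fun ht => by simp [ht.2.2] at h⟩⟩, h.1.2⟩, h.2⟩⟩
  have hT : ∀ f, f ∈ Tw R P' c' ω ↔ f ∈ Tw R P c ω ∧ pos f ≤ pos e := by
    intro f
    rw [Accw_restrict_mem_Tw, Accw_restrict_mem_Tw, hG, hP]
    exact ⟨fun h => ⟨⟨h.1.1, h.2⟩, h.1.2.2.resolve_left (not_not.2 h.2)⟩,
      fun h => ⟨⟨h.1.1, hGP f h.1.1, Or.inr h.2⟩, h.1.2⟩⟩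
  have hsl : ∀ X : Finset E, X ⊆ P' → ∀ k, sl c' X k = sl c X k := fun X hX k =>
    filter_congr fun f hf => by rw [hc f (hX hf)]
  have hDP : Dw R P c ω ⊆ P' := by
    rw [← hD]
    exact fun f hf => (mem_filter.1 (mem_filter.1 hf).1).1
  have hYP : Yw R P c ω ⊆ P' := by
    rw [← hY]
    exact fun f hf => (mem_filter.1 (mem_filter.1 (mem_filter.1 hf).1).1).1
  have hTP : ∀ f ∈ Tw R P' c' ω, c' f = c f := fun f hf =>
    hc f (mem_filter.1 (mem_filter.1 (mem_filter.1 hf).1).1).1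
  have hH : Hlt R kap c' (Dw R P c ω) (Yw R P c ω) = Hlt R kap c (Dw R P c ω) (Yw R P c ω) :=
    funext fun k => Hlt_congr R hκ (fun i _ => hsl _ hDP i) (fun i _ => hsl _ hYP i)
  have hS : Sl R kap c' (Dw R P c ω) (Yw R P c ω) = Sl R kap c (Dw R P c ω) (Yw R P c ω) :=
    funext fun k => Sl_congr R hκ (fun i _ => hsl _ hDP i) (fun i _ => hsl _ hYP i)
  have hF : Hfin R kap c' (Dw R P c ω) (Yw R P c ω) = Hfin R kap c (Dw R P c ω) (Yw R P c ω) := by
    funext j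
    ext f
    simp only [Hfin, mem_filter, hH]
  have hC : ∀ d f, f ∈ Cand R kap c' (Dw R P c ω) (Yw R P c ω) (Tw R P' c' ω) d ↔
      f ∈ Cand R kap c (Dw R P c ω) (Yw R P c ω) (Tw R P c ω) d ∧ pos f ≤ pos e := by
    intro d f
    simp only [Cand, mem_filter, hS]
    constructor
    · rintro ⟨h1, h2⟩
      rw [hTP f h1] at h2
      exact ⟨⟨((hT f).1 h1).1, h2⟩, ((hT f).1 h1).2⟩
    · rintro ⟨⟨h1, h2⟩, h3⟩
      have h4 := (hT f).2 ⟨h1, h3⟩
      rw [hTP f h4]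
      exact ⟨h4, h2⟩
  have hC' : ∀ d, (Cand R kap c' (Dw R P c ω) (Yw R P c ω) (Tw R P' c' ω) d).filter
      (fun f => (if f = e then 1 else 0 : ℕ) < 1) =
      (Cand R kap c (Dw R P c ω) (Yw R P c ω) (Tw R P c ω) d).filter (fun f => pos f < pos e) := by
    intro d
    ext f
    simp only [mem_filter, hC]
    by_cases hf : f = e
    · simp [hf]
    · have : pos f ≠ pos e := fun h => hf (hpos h)
      simp only [hf, if_false, Nat.lt_one_iff, and_true]
      exact and_congr_right fun _ => by omega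
  simp only [Accw, Acc, mem_filter, hD, hY, hF, hC, hT, le_refl, and_true, if_true, hC']

theorem Accw_subset (R : Rk E) (P : Finset E) (c : E → ℤ) (ω : Seed E) (pos : E → ℕ) :
    ∀ e ∈ Accw R P c ω pos, e ∈ P ∧ tau ω e := by
  intro e he
  simp only [Accw, Acc, mem_filter] at he
  have := (Accw_restrict_mem_Tw R P c ω e).1 he.1
  exact ⟨(mem_filter.1 this.1).1, this.2⟩

end Vale.Agent.P331
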