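import Vale.Agent.P331.Main
import Vale.Agent.P331.AOff
import Vale.Agent.P331.ARestr

/-!
The online rule, its measurability, and the expected value against every order.
-/

namespace Vale.Agent.P331

open Finset MeasureTheory
open scoped NNReal ENNReal

variable {E : Type} [Fintype E] [DecidableEq E]

omit [Fintype E] [DecidableEq E] in
lemma eRk_coe_ne_top (M : Matroid E) (X : Finset E) : M.eRk (X : Set E) ≠ ⊤ :=
  ne_top_of_le_ne_top (by simp) (M.eRk_le_encard _)

/-- The rank function of a matroid on finite sets. -/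
noncomputable def ofMatroid (M : Matroid E) : Rk E where
  r X := (M.eRk (X : Set E)).toNat
  mono := fun {X Y} h =>
    ENat.toNat_le_toNat (M.eRk_mono (by exact_mod_cast h)) (eRk_coe_ne_top M Y)
  submod := fun X Y => by
    have h := M.eRk_inter_add_eRk_union_le (X : Set E) (Y : Set E)
    rw [← coe_inter, ← coe_union] at h
    obtain ⟨a, ha⟩ := ENat.ne_top_iff_exists.1 (eRk_coe_ne_top M X)
    obtain ⟨b, hb⟩ := ENat.ne_top_iff_exists.1 (eRk_coe_ne_top M Y)
    obtain ⟨u, hu⟩ := ENat.ne_top_iff_exists.1 (eRk_coe_ne_top M (X ∪ Y))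
    obtain ⟨v, hv⟩ := ENat.ne_top_iff_exists.1 (eRk_coe_ne_top M (X ∩ Y))
    rw [← ha, ← hb, ← hu, ← hv] at h ⊢
    have h' : v + u ≤ a + b := by exact_mod_cast h
    simp only [ENat.toNat_natCast]
    omega
  le_card := fun X => by
    have h := M.eRk_le_encard (X : Set E)
    rw [Set.encard_coe_eq_coe_finsetCard] at h
    exact ENat.toNat_le_of_le_natCast h

omit [Fintype E] in
lemma ofMatroid_indep (M : Matroid E) (X : Finset E) :
    M.Indep (X : Set E) ↔ (ofMatroid M).r X = X.card := by
  rw [M.indep_iff_eRk_eq_encard_of_finite X.finite_toSet, Set.encard_coe_eq_coe_finsetCard]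
  obtain ⟨a, ha⟩ := ENat.ne_top_iff_exists.1 (eRk_coe_ne_top M X)
  show _ ↔ (M.eRk (X : Set E)).toNat = X.card
  rw [← ha]
  simp

/-- Sign and class of a value. -/
noncomputable def gam (x : ℝ≥0) : Bool × ℤ := (decide (0 < x), Int.log (2 ^ 39) (x : ℝ))

lemma measurable_gam : Measurable gam := by
  refine Measurable.prodMk ?_ ?_
  · refine measurable_to_bool ?_
    have : (fun x : ℝ≥0 => decide (0 < x)) ⁻¹' {true} = Set.Ioi 0 := by
      ext x
      simp
    rw [this]
    exact measurableSet_Ioi
  · have : (fun x : ℝ≥0 => Int.log (2 ^ 39) (x : ℝ)) =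
        fun x : ℝ≥0 => ⌊Real.log (x : ℝ) / Real.log ((2 ^ 39 : ℕ) : ℝ)⌋ := by
      funext x
      exact (Real.floor_logb_natCast (b := 2 ^ 39) (r := (x : ℝ)) x.2).symm
    rw [this]
    exact Int.measurable_floor.comp
      ((Real.measurable_log.comp measurable_coe_nnreal_real).div_const _)

lemma lam_eq : lam = ((2 ^ 39 : ℕ) : ℝ) := by
  unfold lam
  norm_num

omit [DecidableEq E] in
lemma measurable_of_gam {α β : Type} [MeasurableSpace α] [MeasurableSpace β]
    (Φ : (E → Bool × ℤ) → Seed E → β) {w : α → E → ℝ≥0} {ω : α → Seed E} (hw : Measurable w)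
    (hω : Measurable ω) : Measurable (fun a => Φ (fun f => gam (w a f)) (ω a)) := by
  have h1 : Measurable (fun q : (E → Bool × ℤ) × Seed E => Φ q.1 q.2) := Measurable.of_discrete
  have h2 : Measurable (fun a => (fun f => gam (w a f))) :=
    measurable_pi_lambda _ (fun f => measurable_gam.comp ((measurable_pi_apply f).comp hw))
  exact h1.comp (h2.prodMk hω)

lemma lam_gam_le {x : ℝ≥0} (hx : 0 < x) : lam ^ (gam x).2 ≤ (x : ℝ) := by
  rw [lam_eq]
  exact Int.zpow_log_le_self (by norm_num) (by exact_mod_cast hx)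

lemma le_lam_gam (x : ℝ≥0) : (x : ℝ) ≤ lam * lam ^ (gam x).2 := by
  have h := (Int.lt_zpow_succ_log_self (b := 2 ^ 39) (by norm_num) (x : ℝ)).le
  rw [← lam_eq, zpow_add_one₀ (by simp [lam]), mul_comm] at h
  exact h

/-- The positive elements. -/
def Pg (g : E → Bool × ℤ) : Finset E := univ.filter (fun e => (g e).1 = true)

/-- The classes. -/
def cg (g : E → Bool × ℤ) : E → ℤ := fun e => (g e).2

/-- The values known to the rule at an arrival. -/
noncomputable def known (S : E → ℝ≥0) (ω : Seed E) (hist : List (E × ℝ≥0)) (ev : E × ℝ≥0) :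
    E → ℝ≥0 :=
  fun f => if tau ω f then (if f = ev.1 then ev.2 else (hist.lookup f).getD 0) else S f

/-- The decision from class data. -/
noncomputable def dec1 (R : Rk E) (g : E → Bool × ℤ) (ω : Seed E) (e : E) : Bool :=
  decide (e ∈ Accw R (Pg g) (cg g) ω (fun f => if f = e then 1 else 0))

/-- The rule. -/
noncomputable def arule (M : Matroid E) : Rule E (Seed E) :=
  fun S ω hist ev => dec1 (ofMatroid M) (fun f => gam (known S ω hist ev f)) ω ev.1

/-- The weights: values on test positions, samples elsewhere. -/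
def mix (ω : Seed E) (S V : E → ℝ≥0) : E → ℝ≥0 := fun f => if tau ω f then V f else S f

omit [Fintype E] in
lemma lookup_map_pair (l : List E) (V : E → ℝ≥0) (f : E) :
    ((l.map (fun x => (x, V x))).lookup f).getD 0 = if f ∈ l then V f else 0 := by
  induction l with
  | nil => rfl
  | cons x l ih =>
    by_cases h : f = x
    · subst h
      simp only [List.map_cons, List.lookup_cons, BEq.rfl, List.mem_cons, true_or, if_true,
        Option.getD_some]
    · have h' : (f == x) = false := by simpa using h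
      simp only [List.map_cons, List.lookup_cons, h', ih, List.mem_cons, h, false_or]

omit [Fintype E] in
lemma mem_takeWhile_ne (o : List E) (e f : E) :
    f ∈ o.takeWhile (fun x => x ≠ e) ↔ o.idxOf f < o.idxOf e := by
  induction o with
  | nil => simp
  | cons x o ih =>
    by_cases hx : x = e
    · subst hx
      simp
    · by_cases hf : x = f
      · subst hf
        simp [hx]
      · have hf' : f ≠ x := fun h => hf h.symm
        simp only [ne_eq, decide_not] at ih
        simp [hx, hf, hf', ih]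

lemma accepted_arule (M : Matroid E) (S V : E → ℝ≥0) (ω : Seed E) (o : List E)
    (ho : IsOrder o) :
    accepted (arule M) S ω o V = Accw (ofMatroid M) (Pg (fun f => gam (mix ω S V f)))
      (cg (fun f => gam (mix ω S V f))) ω (fun f => o.idxOf f) := by
  have hinj : Function.Injective (fun f => o.idxOf f) :=
    fun x y h => (List.idxOf_inj (ho.2 x)).1 h
  ext e
  have hk : ∀ f, known S ω (history o V e) (e, V e) f =
      if ¬ tau ω f ∨ o.idxOf f ≤ o.idxOf e then mix ω S V f else 0 := by
    intro f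
    unfold known history mix
    rw [lookup_map_pair]
    by_cases ht : tau ω f
    · by_cases hfe : f = e
      · subst hfe
        simp [ht]
      · have h1 : o.idxOf f ≤ o.idxOf e ↔ o.idxOf f < o.idxOf e :=
          ⟨fun h => lt_of_le_of_ne h (fun h' => hfe (hinj h')), le_of_lt⟩
        simp only [ht, if_true, hfe, if_false, mem_takeWhile_ne, not_true, false_or, h1]
    · simp [ht]
  simp only [accepted, mem_filter, mem_univ, true_and, arule, dec1, decide_eq_true_eq]
  refine (Accw_restrict _ _ _ _ _ ω _ e (fun f => ?_) (fun f hf => ?_) hinj).symm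
  · simp only [Pg, mem_filter, mem_univ, true_and, gam, decide_eq_true_eq, hk]
    split_ifs with h
    · simp [h]
    · simp [h]
  · simp only [Pg, mem_filter, mem_univ, true_and, gam, decide_eq_true_eq, hk] at hf
    simp only [cg, hk]
    split_ifs at hf ⊢ with h
    · rfl
    · exact absurd hf (lt_irrefl _)

lemma measurable_known (l : List E) (e : E) :
    Measurable (fun p : ((E → ℝ≥0) × (E → ℝ≥0)) × Seed E =>
      known p.1.1 p.2 (l.map (fun x => (x, p.1.2 x))) (e, p.1.2 e)) := by
  refine measurable_pi_lambda _ (fun f => ?_)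
  simp only [known, lookup_map_pair]
  refine Measurable.ite ?_ ?_ ((measurable_pi_apply f).comp measurable_fst.fst)
  · exact measurable_snd (MeasurableSet.of_discrete (s := {ω : Seed E | tau ω f}))
  · split_ifs
    · exact (measurable_pi_apply e).comp measurable_fst.snd
    · exact (measurable_pi_apply f).comp measurable_fst.snd
    · exact measurable_const

lemma isOnlineRule_arule (M : Matroid E) : IsOnlineRule M (arule M) := by
  refine ⟨fun l e => ?_, fun S ω o V ho => ?_⟩
  · exact measurable_of_gam (fun g ω => dec1 (ofMatroid M) g ω e) (measurable_known l e)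
      measurable_snd
  · rw [accepted_arule M S V ω o ho, ofMatroid_indep]
    exact acc_indep _ (by simp [kap]) _ _ _ _ _ _ (fun x y h => (List.idxOf_inj (ho.2 x)).1 h)

/-- The order-free lower bound as a function of the weights. -/
noncomputable def Phi (M : Matroid E) (w : E → ℝ≥0) (ω : Seed E) : ℝ≥0∞ :=
  ENNReal.ofReal (Psi (ofMatroid M) (Pg (fun f => gam (w f))) (cg (fun f => gam (w f))) ω)

lemma measurable_Phi (M : Matroid E) (ω : Seed E) :
    Measurable (fun w : E → ℝ≥0 => Phi M w ω) :=
  measurable_of_gam (fun g ω => ENNReal.ofReal (Psi (ofMatroid M) (Pg g) (cg g) ω))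
    measurable_id measurable_const

lemma Phi_le_value (M : Matroid E) (S V : E → ℝ≥0) (ω : Seed E) (o : List E) (ho : IsOrder o) :
    Phi M (mix ω S V) ω ≤ ((∑ e ∈ accepted (arule M) S ω o V, V e : ℝ≥0) : ℝ≥0∞) := by
  rw [accepted_arule M S V ω o ho, ← ENNReal.ofReal_coe_nnreal]
  refine ENNReal.ofReal_le_ofReal ((Psi_le _ _ _ ω (fun f => o.idxOf f)).trans ?_)
  push_cast
  refine sum_le_sum (fun e he => ?_)
  obtain ⟨h1, h2⟩ := Accw_subset _ _ _ _ _ e he
  have h3 : mix ω S V e = V e := by simp [mix, h2]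
  simp only [Pg, mem_filter, mem_univ, true_and, gam, decide_eq_true_eq, h3] at h1
  simp only [cg, h3]
  exact lam_gam_le h1

lemma opt_le_Phi (M : Matroid E) (hM : M.E = Set.univ) (w : E → ℝ≥0) :
    ((1 / 2 ^ 78 : ℝ≥0) : ℝ≥0∞) * (opt M w : ℝ≥0∞) ≤
      ∑ ω : Seed E, ENNReal.ofReal (wt ω) * Phi M w ω := by
  set P := Pg (fun f => gam (w f)) with hP
  set c := cg (fun f => gam (w f)) with hc
  set I := gb M w ∩ P with hI
  have hIi : (ofMatroid M).r I = I.card :=
    (ofMatroid M).indep_subset ((ofMatroid_indep M _).1 (gb_indep M hM w)) inter_subset_left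
  have h1 := le_Psi (ofMatroid M) P c I inter_subset_right hIi
  have h2 : (opt M w : ℝ) ≤ lam * ∑ e ∈ I, lam ^ c e := by
    rw [opt_eq M hM, mul_sum]
    push_cast
    rw [← sum_subset (inter_subset_left : I ⊆ gb M w)]
    · exact sum_le_sum (fun e _ => le_lam_gam (w e))
    · intro x hx hx'
      have : x ∉ P := fun h => hx' (mem_inter.2 ⟨hx, h⟩)
      simp only [hP, Pg, mem_filter, mem_univ, true_and, gam, decide_eq_true_eq, not_lt,
        nonpos_iff_eq_zero] at this
      simp [this]
  have h3 : ((1 / 2 ^ 78 : ℝ≥0) : ℝ) * (opt M w : ℝ) ≤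
      ∑ ω : Seed E, wt ω * Psi (ofMatroid M) P c ω := by
    refine le_trans ?_ h1
    have : ((1 / 2 ^ 78 : ℝ≥0) : ℝ) * (lam * ∑ e ∈ I, lam ^ c e) =
        (1 / 2 ^ 39 : ℝ) * ∑ e ∈ I, lam ^ c e := by
      rw [← mul_assoc]
      congr 1
      simp only [lam]
      push_cast
      norm_num
    rw [← this]
    exact mul_le_mul_of_nonneg_left h2 (NNReal.coe_nonneg _)
  rw [← ENNReal.coe_mul, ← ENNReal.ofReal_coe_nnreal, NNReal.coe_mul]
  refine (ENNReal.ofReal_le_ofReal h3).trans ?_
  refine (ENNReal.ofReal_le_ofReal (sum_le_sum (fun ω _ =>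
    mul_le_mul_of_nonneg_left (le_max_left _ 0) (wt_nonneg ω)))).trans ?_
  rw [ENNReal.ofReal_sum_of_nonneg (fun ω _ => mul_nonneg (wt_nonneg ω) (le_max_right _ _))]
  refine le_of_eq (sum_congr rfl (fun ω _ => ?_))
  rw [ENNReal.ofReal_mul (wt_nonneg ω), ENNReal.ofReal_max]
  simp [Phi, hP, hc]

/-- The law of the seed. -/
noncomputable def rho (E : Type) [Fintype E] [DecidableEq E] : Measure (Seed E) :=
  ∑ ω : Seed E, ENNReal.ofReal (wt ω) • Measure.dirac ω

lemma lintegral_rho (F : Seed E → ℝ≥0∞) :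
    ∫⁻ ω, F ω ∂(rho E) = ∑ ω : Seed E, ENNReal.ofReal (wt ω) * F ω := by
  rw [rho, lintegral_finsetSum_measure]
  refine sum_congr rfl (fun ω _ => ?_)
  rw [lintegral_smul_measure, lintegral_dirac, smul_eq_mul]

lemma isProbabilityMeasure_rho : IsProbabilityMeasure (rho E) := by
  refine ⟨?_⟩
  rw [← lintegral_one, lintegral_rho]
  simp only [mul_one]
  rw [← ENNReal.ofReal_sum_of_nonneg (fun ω _ => wt_nonneg ω), sum_wt_one, ENNReal.ofReal_one]

omit [DecidableEq E] in
lemma measurePreserving_mix (D : E → Measure ℝ≥0) [∀ e, IsProbabilityMeasure (D e)]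
    (ω : Seed E) :
    MeasurePreserving (fun p : (E → ℝ≥0) × (E → ℝ≥0) => mix ω p.1 p.2)
      ((Measure.pi D).prod (Measure.pi D)) (Measure.pi D) := by
  have h1 := measurePreserving_pi (fun e => (D e).prod (D e)) D
    (f := fun e (p : ℝ≥0 × ℝ≥0) => if tau ω e then p.2 else p.1) (fun e => by
      split_ifs
      · exact measurePreserving_snd
      · exact measurePreserving_fst)
  have h2 := (measurePreserving_arrowProdEquivProdArrow ℝ≥0 ℝ≥0 E D D).symm
  exact h1.comp h2

theorem almighty_value (M : Matroid E) (hM : M.E = Set.univ) (D : E → Measure ℝ≥0)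
    [∀ e, IsProbabilityMeasure (D e)] (ord : (E → ℝ≥0) → (E → ℝ≥0) → Seed E → List E)
    (h : ∀ S V ω, IsOrder (ord S V ω)) :
    ((1 / 2 ^ 78 : ℝ≥0) : ℝ≥0∞) * ∫⁻ v, (opt M v : ℝ≥0∞) ∂(Measure.pi D) ≤
      ∫⁻ p, ((∑ e ∈ accepted (arule M) p.1.1 p.2 (ord p.1.1 p.1.2 p.2) p.1.2, p.1.2 e : ℝ≥0) :
        ℝ≥0∞) ∂(((Measure.pi D).prod (Measure.pi D)).prod (rho E)) := by
  have := isProbabilityMeasure_rho (E := E)
  have hPω : ∀ ω : Seed E, Measurable (fun w : E → ℝ≥0 => Phi M w ω) :=
    fun ω => measurable_Phi M ω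
  have hF : Measurable (fun p : ((E → ℝ≥0) × (E → ℝ≥0)) × Seed E =>
      Phi M (mix p.2 p.1.1 p.1.2) p.2) :=
    measurable_from_prod_countable_left
      (fun ω => (hPω ω).comp (measurePreserving_mix D ω).measurable)
  refine le_trans ?_ (lintegral_mono (fun p => Phi_le_value M p.1.1 p.1.2 p.2 _ (h _ _ _)))
  rw [lintegral_prod _ hF.aemeasurable]
  simp only [lintegral_rho]
  rw [lintegral_finsetSum _
    (f := fun ω (x : (E → ℝ≥0) × (E → ℝ≥0)) => ENNReal.ofReal (wt ω) * Phi M (mix ω x.1 x.2) ω)
    (fun ω _ => ((hPω ω).comp (measurePreserving_mix D ω).measurable).const_mul _)]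
  rw [sum_congr rfl (fun ω _ => (measurePreserving_mix D ω).lintegral_comp
    ((hPω ω).const_mul (ENNReal.ofReal (wt ω))))]
  rw [← lintegral_finsetSum _ (fun ω _ => (hPω ω).const_mul _),
    ← lintegral_const_mul _ (measurable_opt M hM).coe_nnreal_ennreal]
  exact lintegral_mono (fun w => opt_le_Phi M hM w)

end Vale.Agent.P331
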