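import Vale.Agent.P331.Greedy

/-!
The reversible swap rule: one step, its involution property, and the run over an arrival list.
-/

namespace Vale.Agent.P331

open Finset
open scoped NNReal

variable {E : Type} [Fintype E] [DecidableEq E]

/-- Arrived elements other than `e` whose basis status differs. -/
def partners (B B' P : Finset E) (e : E) : Finset E :=
  P.filter (fun f => f ≠ e ∧ ¬ (f ∈ B ↔ f ∈ B'))

omit [Fintype E] in
lemma partners_comm (B B' P : Finset E) (e : E) : partners B B' P e = partners B' B P e := by
  unfold partners
  ext f
  simp only [mem_filter]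
  tauto

/-- The finite decision: whether to switch the value of `e`, and the new marks. -/
noncomputable def dec (B B' P : Finset E) (e : E) (m : E → Bool) : Bool × (E → Bool) :=
  if h : (partners B B' P e).Nonempty then
    if e ∈ B then
      (if m e = true then (true, Function.update (Function.update m e (m h.choose)) h.choose false)
        else (false, m))
    else
      (if m h.choose = false then
        (true, Function.update (Function.update m e true) h.choose (m e)) else (false, m))
  else (m e, m)

omit [Fintype E] in
lemma dec_false {B B' P : Finset E} {e : E} {m : E → Bool} (h : (dec B B' P e m).1 = false) :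
    (dec B B' P e m).2 = m := by
  unfold dec at h ⊢
  split_ifs at h ⊢ <;> simp_all

omit [Fintype E] in
lemma dec_true {B B' P : Finset E} {e : E} {m : E → Bool}
    (hne : (partners B B' P e).Nonempty → (e ∈ B ↔ e ∉ B')) (h : (dec B B' P e m).1 = true) :
    dec B' B P e (dec B B' P e m).2 = (true, m) := by
  by_cases hp : (partners B B' P e).Nonempty
  · have hp' : (partners B' B P e).Nonempty := partners_comm B B' P e ▸ hp
    have hch : hp'.choose = hp.choose := by
      congr 1
      rw [partners_comm]
    have hfe : hp.choose ≠ e := (mem_filter.1 hp.choose_spec).2.1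
    have hiff := hne hp
    set f := hp.choose with hf
    by_cases heB : e ∈ B
    · have heB' : e ∉ B' := hiff.1 heB
      have hm : m e = true := by
        by_contra hc
        simp [dec, hp, heB, hc] at h
      have h2 : (dec B B' P e m).2 = Function.update (Function.update m e (m f)) f false := by
        simp [dec, hp, heB, hm, hf]
      rw [h2]
      unfold dec
      rw [dif_pos hp', if_neg heB', hch, if_pos (by simp)]
      congr 1
      funext x
      by_cases hx : x = f
      · subst hx
        simp [Function.update_of_ne hfe.symm]
      · by_cases hx2 : x = e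
        · subst hx2
          simp [Function.update_of_ne hx, hm]
        · simp [Function.update_of_ne hx, Function.update_of_ne hx2]
    · have heB' : e ∈ B' := by
        by_contra hc
        exact heB (hiff.2 hc)
      have hm : m f = false := by
        by_contra hc
        simp [dec, hp, heB, ← hf, hc] at h
      have h2 : (dec B B' P e m).2 = Function.update (Function.update m e true) f (m e) := by
        simp [dec, hp, heB, ← hf, hm]
      rw [h2]
      unfold dec
      rw [dif_pos hp', if_pos heB', hch, if_pos (by simp [Function.update_of_ne hfe.symm])]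
      congr 1
      funext x
      by_cases hx : x = f
      · subst hx
        simp [hm]
      · by_cases hx2 : x = e
        · subst hx2
          simp [Function.update_of_ne hx]
        · simp [Function.update_of_ne hx, Function.update_of_ne hx2]
  · have hp' : ¬ (partners B' B P e).Nonempty := partners_comm B B' P e ▸ hp
    simp only [dec, dif_neg hp, dif_neg hp'] at h ⊢
    rw [h]

/-- One step of the rule on the working weights and the marks. -/
noncomputable def step (M : Matroid E) (P : Finset E) (x : E × ℝ≥0)
    (s : (E → ℝ≥0) × (E → Bool)) : (E → ℝ≥0) × (E → Bool) :=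
  (if (dec (gb M s.1) (gb M (Function.update s.1 x.1 x.2)) P x.1 s.2).1 = true
      then Function.update s.1 x.1 x.2 else s.1,
    (dec (gb M s.1) (gb M (Function.update s.1 x.1 x.2)) P x.1 s.2).2)

/-- The run over a reversed history (most recent arrival first). -/
noncomputable def run (M : Matroid E) (S : E → ℝ≥0) (c : E → Bool) :
    List (E × ℝ≥0) → (E → ℝ≥0) × (E → Bool)
  | [] => (S, c)
  | x :: l => step M (l.map Prod.fst).toFinset x (run M S c l)

/-- Active elements of a state. -/
def Act (M : Matroid E) (s : (E → ℝ≥0) × (E → Bool)) (y : E) : Prop :=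
  y ∈ gb M s.1 ∧ s.2 y = true

lemma partners_iff (M : Matroid E) (hM : M.E = Set.univ) {Y Y' : E → ℝ≥0} {e : E}
    (h : ∀ x, x ≠ e → Y x = Y' x) (P : Finset E)
    (hp : (partners (gb M Y) (gb M Y') P e).Nonempty) : e ∈ gb M Y ↔ e ∉ gb M Y' := by
  by_contra hc
  have : gb M Y = gb M Y' := gb_eq_of_iff M hM h (by tauto)
  obtain ⟨f, hf⟩ := hp
  have := (mem_filter.1 hf).2.2
  simp_all

lemma step_act (M : Matroid E) (hM : M.E = Set.univ) (P : Finset E) (x : E × ℝ≥0)
    (s : (E → ℝ≥0) × (E → Bool)) (hx : x.1 ∉ P) :
    (∀ y ∈ P, Act M (step M P x s) y ↔ Act M s y) ∧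
      (Act M (step M P x s) x.1 → (step M P x s).1 x.1 = x.2) := by
  obtain ⟨e, v⟩ := x
  obtain ⟨Y, m⟩ := s
  simp only at hx
  have hagree : ∀ y, y ≠ e → Y y = Function.update Y e v y :=
    fun y hy => (Function.update_of_ne hy _ _).symm
  set B := gb M Y with hB
  set B' := gb M (Function.update Y e v) with hB'
  by_cases hflip : (dec B B' P e m).1 = true
  · have hs : step M P (e, v) (Y, m) = (Function.update Y e v, (dec B B' P e m).2) := by
      simp only [step, ← hB, ← hB', hflip, if_true]
    rw [hs]
    refine ⟨?_, fun _ => by simp⟩
    intro y hy
    have hye : y ≠ e := fun h => hx (h ▸ hy)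
    simp only [Act, ← hB, ← hB']
    by_cases hp : (partners B B' P e).Nonempty
    · have hiff := partners_iff M hM hagree P hp
      have hspec := (mem_filter.1 hp.choose_spec).2
      set f := hp.choose with hf
      by_cases heB : e ∈ B
      · obtain ⟨g, hge, hgB, hg⟩ := gb_swap M hM hagree heB (hiff.1 heB)
        rw [← hB, ← hB'] at hg
        rw [← hB] at hgB
        have hfg : f = g := by
          by_contra hc
          apply hspec.2
          rw [hg]
          simp [hc, hspec.1]
        have hm : m e = true := by
          by_contra hc
          simp [dec, hp, heB, hc] at hflip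
        have h2 : (dec B B' P e m).2 = Function.update (Function.update m e (m f)) f false := by
          simp [dec, hp, heB, hm, hf]
        rw [h2, hg, hfg]
        by_cases hyg : y = g
        · subst hyg
          simp [hgB]
        · simp [hyg, hye]
      · have heB' : e ∈ B' := by
          by_contra hc
          exact heB (hiff.2 hc)
        obtain ⟨g, hge, hgB, hg⟩ := gb_swap M hM (fun y hy => (hagree y hy).symm) heB' heB
        rw [← hB, ← hB'] at hg
        rw [← hB'] at hgB
        have hfg : f = g := by
          by_contra hc
          apply hspec.2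
          rw [hg]
          simp [hc, hspec.1]
        have hm : m f = false := by
          by_contra hc
          simp [dec, hp, heB, ← hf, hc] at hflip
        have h2 : (dec B B' P e m).2 = Function.update (Function.update m e true) f (m e) := by
          simp [dec, hp, heB, ← hf, hm]
        rw [h2, hg]
        rw [hfg] at hm ⊢
        by_cases hyg : y = g
        · subst hyg
          simp [hgB, hm]
        · simp [hyg, hye]
    · have h2 : (dec B B' P e m).2 = m := by simp [dec, hp]
      have h3 : y ∈ B ↔ y ∈ B' := by
        by_contra hc
        exact hp ⟨y, mem_filter.2 ⟨hy, hye, hc⟩⟩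
      rw [h2, h3]
  · have hf : (dec B B' P e m).1 = false := by simpa using hflip
    have hs : step M P (e, v) (Y, m) = (Y, m) := by
      simp only [step, ← hB, ← hB', hf, dec_false hf]
      simp
    rw [hs]
    refine ⟨fun _ _ => Iff.rfl, ?_⟩
    rintro ⟨h1, h2⟩
    exfalso
    simp only [← hB] at h1 h2
    by_cases hp : (partners B B' P e).Nonempty
    · simp [dec, hp, h1, h2] at hf
    · simp [dec, hp, h2] at hf

lemma step_fst_of_ne (M : Matroid E) (P : Finset E) (x : E × ℝ≥0)
    (s : (E → ℝ≥0) × (E → Bool)) (y : E) (hy : y ≠ x.1) : (step M P x s).1 y = s.1 y := by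
  unfold step
  dsimp only
  split_ifs
  · exact Function.update_of_ne hy _ _
  · rfl

open Classical in
/-- The online decision: accept the newest arrival iff it is active after its step. -/
noncomputable def accept (M : Matroid E) (S : E → ℝ≥0) (c : E → Bool) (h : List (E × ℝ≥0))
    (x : E × ℝ≥0) : Bool :=
  decide (Act M (run M S c (x :: h.reverse)) x.1)

lemma accept_iff (M : Matroid E) (S : E → ℝ≥0) (c : E → Bool) (h : List (E × ℝ≥0))
    (x : E × ℝ≥0) : accept M S c h x = true ↔ Act M (run M S c (x :: h.reverse)) x.1 := by
  simp [accept]

lemma run_spec (M : Matroid E) (hM : M.E = Set.univ) (S V : E → ℝ≥0) (c : E → Bool) :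
    ∀ r : List E, r.Nodup → ∀ y ∈ r,
      (accept M S c ((r.reverse.takeWhile (fun z => z ≠ y)).map (fun z => (z, V z))) (y, V y)
        = true ↔ Act M (run M S c (r.map (fun z => (z, V z)))) y) ∧
      (Act M (run M S c (r.map (fun z => (z, V z)))) y →
        (run M S c (r.map (fun z => (z, V z)))).1 y = V y) := by
  intro r
  induction r with
  | nil => simp
  | cons a r ih =>
    intro hnd y hy
    obtain ⟨ha, hr⟩ := List.nodup_cons.1 hnd
    have hP : ((r.map (fun z => (z, V z))).map Prod.fst).toFinset = r.toFinset := by
      simp [List.map_map, Function.comp_def]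
    have hstep := step_act M hM r.toFinset (a, V a) (run M S c (r.map (fun z => (z, V z))))
      (by simpa using ha)
    have hrun : run M S c ((a :: r).map (fun z => (z, V z)))
        = step M r.toFinset (a, V a) (run M S c (r.map (fun z => (z, V z)))) := by
      rw [List.map_cons, run, hP]
    by_cases hya : y = a
    · subst hya
      have htw : ((y :: r).reverse.takeWhile (fun z => z ≠ y)) = r.reverse := by
        rw [List.reverse_cons, List.takeWhile_append_of_pos]
        · simp
        · intro z hz
          have : z ≠ y := fun h => ha (h ▸ List.mem_reverse.1 hz)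
          simpa using this
      refine ⟨?_, ?_⟩
      · rw [htw, accept_iff, List.map_reverse, List.reverse_reverse]
        rfl
      · rw [hrun]
        exact hstep.2
    · have hyr : y ∈ r := (List.mem_cons.1 hy).resolve_left hya
      have htw : ((a :: r).reverse.takeWhile (fun z => z ≠ y))
          = r.reverse.takeWhile (fun z => z ≠ y) := by
        rw [List.reverse_cons, List.takeWhile_append]
        rw [if_neg]
        intro hlen
        have := List.takeWhile_eq_self_iff.1
          ((List.takeWhile_prefix (fun z => decide (z ≠ y))).eq_of_length hlen) y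
          (List.mem_reverse.2 hyr)
        simp at this
      have h1 := hstep.1 y (List.mem_toFinset.2 hyr)
      rw [htw, hrun, h1, step_fst_of_ne M _ _ _ y hya]
      exact ih hr y hyr

/-- The value selected by a bit. -/
def val (w : E → ℝ≥0 × ℝ≥0) (t : E → Bool) : E → ℝ≥0 :=
  fun x => if t x = true then (w x).2 else (w x).1

/-- Flip the bit at `e`. -/
def flip (t : E → Bool) (e : E) : E → Bool := Function.update t e (!t e)

omit [Fintype E] in
lemma flip_flip (t : E → Bool) (e : E) : flip (flip t e) e = t := by
  simp [flip]

omit [Fintype E] in
lemma val_flip (w : E → ℝ≥0 × ℝ≥0) (t : E → Bool) (e : E) :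
    val w (flip t e) = Function.update (val w t) e (val w (fun x => !t x) e) := by
  funext x
  by_cases hx : x = e
  · subst hx
    simp [val, flip]
  · simp [val, flip, Function.update_of_ne hx]

/-- The step on the cube of (which value, mark). -/
noncomputable def astep (M : Matroid E) (w : E → ℝ≥0 × ℝ≥0) (P : Finset E) (e : E)
    (s : (E → Bool) × (E → Bool)) : (E → Bool) × (E → Bool) :=
  (if (dec (gb M (val w s.1)) (gb M (val w (flip s.1 e))) P e s.2).1 = true
      then flip s.1 e else s.1,
    (dec (gb M (val w s.1)) (gb M (val w (flip s.1 e))) P e s.2).2)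

lemma astep_involutive (M : Matroid E) (hM : M.E = Set.univ) (w : E → ℝ≥0 × ℝ≥0)
    (P : Finset E) (e : E) : Function.Involutive (astep M w P e) := by
  rintro ⟨t, m⟩
  by_cases hflip : (dec (gb M (val w t)) (gb M (val w (flip t e))) P e m).1 = true
  · have hagree : ∀ y, y ≠ e → val w t y = val w (flip t e) y := by
      intro y hy
      rw [val_flip, Function.update_of_ne hy]
    have h := dec_true (partners_iff M hM hagree P) hflip
    have h1 : astep M w P e (t, m)
        = (flip t e, (dec (gb M (val w t)) (gb M (val w (flip t e))) P e m).2) := by
      simp only [astep, hflip, if_true]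
    rw [h1]
    simp only [astep, flip_flip, h, if_true]
  · have hf : (dec (gb M (val w t)) (gb M (val w (flip t e))) P e m).1 = false := by
      simpa using hflip
    have h1 : astep M w P e (t, m) = (t, m) := by
      simp only [astep, hf, dec_false hf]
      simp
    rw [h1, h1]

/-- The run on the cube. -/
noncomputable def arun (M : Matroid E) (w : E → ℝ≥0 × ℝ≥0) :
    List E → (E → Bool) × (E → Bool) → (E → Bool) × (E → Bool)
  | [] => id
  | e :: l => astep M w l.toFinset e ∘ arun M w l

lemma arun_bijective (M : Matroid E) (hM : M.E = Set.univ) (w : E → ℝ≥0 × ℝ≥0) (l : List E) :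
    Function.Bijective (arun M w l) := by
  induction l with
  | nil => exact Function.bijective_id
  | cons e l ih => exact (astep_involutive M hM w _ e).bijective.comp ih

lemma run_eq_arun (M : Matroid E) (w : E → ℝ≥0 × ℝ≥0) (t c : E → Bool) :
    ∀ r : List E, r.Nodup →
      run M (val w t) c (r.map (fun z => (z, val w (fun x => !t x) z)))
        = (val w (arun M w r (t, c)).1, (arun M w r (t, c)).2) ∧
      ∀ y, y ∉ r → (arun M w r (t, c)).1 y = t y := by
  intro r
  induction r with
  | nil => intro _; exact ⟨rfl, fun _ _ => rfl⟩
  | cons a r ih =>
    intro hnd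
    obtain ⟨ha, hr⟩ := List.nodup_cons.1 hnd
    obtain ⟨ih1, ih2⟩ := ih hr
    have hP : ((r.map (fun z => (z, val w (fun x => !t x) z))).map Prod.fst).toFinset
        = r.toFinset := by
      simp [List.map_map, Function.comp_def]
    have hv : val w (flip (arun M w r (t, c)).1 a)
        = Function.update (val w (arun M w r (t, c)).1) a (val w (fun x => !t x) a) := by
      rw [val_flip]
      congr 1
      simp [val, ih2 a ha]
    constructor
    · rw [List.map_cons, run, hP, ih1]
      simp only [arun, Function.comp, step, astep, hv]
      split_ifs
      · rw [hv]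
      · rfl
    · intro y hy
      have hya : y ≠ a := fun h => hy (h ▸ List.mem_cons_self)
      have hyr : y ∉ r := fun h => hy (List.mem_cons_of_mem _ h)
      simp only [arun, Function.comp, astep]
      split_ifs
      · rw [flip, Function.update_of_ne hya, ih2 y hyr]
      · exact ih2 y hyr

end Vale.Agent.P331
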