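import Mathlib

/-!
The model: finite matroids, one sample per element, online rules, and order adversaries.
-/

namespace Vale.Agent.P331

open MeasureTheory
open scoped NNReal ENNReal

/-- `OPT_M(v)`: the largest total value of an independent set. -/
noncomputable def opt {E : Type} (M : Matroid E) (v : E → ℝ≥0) : ℝ≥0 :=
  ⨆ I : {I : Finset E // M.Indep (I : Set E)}, ∑ e ∈ I.1, v e

/-- A decision procedure: from the samples, the seed, the list of earlier arrivals with their
values, and the current arrival with its value, it says whether to accept the current arrival. -/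
abbrev Rule (E Ω : Type) : Type := (E → ℝ≥0) → Ω → List (E × ℝ≥0) → E × ℝ≥0 → Bool

/-- An arrival order lists every element exactly once. -/
def IsOrder {E : Type} (o : List E) : Prop := o.Nodup ∧ ∀ e, e ∈ o

/-- The arrivals before `e` in the order `o`, with their values. -/
def history {E : Type} [DecidableEq E] (o : List E) (V : E → ℝ≥0) (e : E) : List (E × ℝ≥0) :=
  (o.takeWhile (fun x => x ≠ e)).map (fun x => (x, V x))

/-- The set accepted by a rule on samples `S`, seed `R`, order `o` and values `V`. -/
def accepted {E Ω : Type} [Fintype E] [DecidableEq E] (A : Rule E Ω) (S : E → ℝ≥0) (R : Ω)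
    (o : List E) (V : E → ℝ≥0) : Finset E :=
  Finset.univ.filter (fun e => A S R (history o V e) (e, V e) = true)

/-- An online rule for `M`: every decision is measurable in (samples, seed, values), and the
accepted set is independent on every input. -/
def IsOnlineRule {E Ω : Type} [Fintype E] [DecidableEq E] [MeasurableSpace Ω] (M : Matroid E)
    (A : Rule E Ω) : Prop :=
  (∀ (l : List E) (e : E), Measurable (fun p : ((E → ℝ≥0) × (E → ℝ≥0)) × Ω =>
    A p.1.1 p.2 (l.map (fun x => (x, p.1.2 x))) (e, p.1.2 e))) ∧
  ∀ (S : E → ℝ≥0) (R : Ω) (o : List E) (V : E → ℝ≥0), IsOrder o →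
    M.Indep (accepted A S R o V : Set E)

/-- An adversary whose order is a measurable function of the samples and values that depends
only on the unordered pairs `{S e, V e}`. -/
def IsPairAdversary {E : Type} (ord : (E → ℝ≥0) → (E → ℝ≥0) → List E) : Prop :=
  (∀ S V, IsOrder (ord S V)) ∧
  (∀ o, MeasurableSet {p : (E → ℝ≥0) × (E → ℝ≥0) | ord p.1 p.2 = o}) ∧
  ∀ S V S' V', (∀ e, s(S e, V e) = s(S' e, V' e)) → ord S V = ord S' V'

end Vale.Agent.P331
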