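import Mathlib
import Vale.Agent.P034.Fragment

/-!
The greedy basis of a finite matroid for a weight vector, with ties broken by a fixed numbering.
-/

namespace Vale.Agent.P331

open Finset
open scoped NNReal

variable {E : Type} [Fintype E] [DecidableEq E]

/-- Lexicographic key: weight first, then a fixed numbering. -/
noncomputable def key (Y : E → ℝ≥0) (x : E) : ℝ≥0 ×ₗ ℕ :=
  toLex (Y x, (Fintype.equivFin E x : ℕ))

omit [DecidableEq E] in
lemma key_injective (Y : E → ℝ≥0) : Function.Injective (key Y) := by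
  intro x y h
  have h2 : ((Fintype.equivFin E x : ℕ)) = (Fintype.equivFin E y : ℕ) :=
    congrArg (fun t => (ofLex t).2) h
  exact (Fintype.equivFin E).injective (Fin.ext h2)

omit [DecidableEq E] in
lemma le_of_key_le {Y : E → ℝ≥0} {x y : E} (h : key Y x ≤ key Y y) : Y x ≤ Y y := by
  rcases (Prod.Lex.toLex_le_toLex.1 h) with h1 | h1
  · exact h1.le
  · exact h1.1.le

open Classical in
/-- The greedy basis. -/
noncomputable def gb (M : Matroid E) (Y : E → ℝ≥0) : Finset E :=
  univ.filter (fun x => x ∉ M.closure {y | key Y x < key Y y})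

omit [DecidableEq E] in
lemma mem_gb {M : Matroid E} {Y : E → ℝ≥0} {x : E} :
    x ∈ gb M Y ↔ x ∉ M.closure {y | key Y x < key Y y} := by
  simp [gb]

lemma gb_indep (M : Matroid E) (hM : M.E = Set.univ) (Y : E → ℝ≥0) :
    M.Indep (gb M Y : Set E) := by
  have : ∀ s : Finset E, s ⊆ gb M Y → M.Indep (s : Set E) := by
    intro s
    induction s using Finset.induction_on_min_value (key Y) with
    | empty => intro _; simp
    | insert a s ha hmin ih =>
      intro hsub
      have hs : s ⊆ gb M Y := (subset_insert a s).trans hsub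
      have haB : a ∈ gb M Y := hsub (mem_insert_self a s)
      rw [coe_insert, (ih hs).insert_indep_iff_of_notMem (by simpa using ha)]
      refine ⟨by simp [hM], fun hc => mem_gb.1 haB ?_⟩
      refine M.closure_subset_closure ?_ hc
      intro y hy
      have hy' : y ∈ s := by simpa using hy
      refine lt_of_le_of_ne (hmin y hy') ?_
      intro h
      exact ha (key_injective Y h ▸ hy')
  exact this _ subset_rfl

lemma mem_closure_gb (M : Matroid E) (hM : M.E = Set.univ) (Y : E → ℝ≥0) (x : E) :
    x ∈ M.closure {y | y ∈ gb M Y ∧ key Y x ≤ key Y y} := by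
  induction hn : (univ.filter (fun y => key Y x < key Y y)).card using Nat.strong_induction_on
    generalizing x with
  | _ n ih =>
    by_cases hx : x ∈ gb M Y
    · exact M.subset_closure _ (by simp [hM]) ⟨hx, le_rfl⟩
    · rw [mem_gb, not_not] at hx
      refine M.closure_subset_closure_of_subset_closure ?_ hx
      intro y hy
      have hy' : key Y x < key Y y := hy
      have hlt : (univ.filter (fun z => key Y y < key Y z)).card < n := by
        rw [← hn]
        refine card_lt_card ⟨?_, ?_⟩
        · intro z hz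
          simp only [mem_filter, mem_univ, true_and] at hz ⊢
          exact hy'.trans hz
        · intro hsub
          have : y ∈ univ.filter (fun z => key Y x < key Y z) := by simpa using hy'
          simpa using hsub this
      refine M.closure_subset_closure ?_ (ih _ hlt y rfl)
      intro z hz
      exact ⟨hz.1, hy'.le.trans hz.2⟩

omit [Fintype E] [DecidableEq E] in
lemma card_le_of_subset_closure (M : Matroid E) {I J : Finset E} (hI : M.Indep (I : Set E))
    (h : (I : Set E) ⊆ M.closure (J : Set E)) : I.card ≤ J.card := by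
  have h1 := hI.encard_le_eRk_of_subset h
  rw [M.eRk_closure_eq] at h1
  have h2 := h1.trans (M.eRk_le_encard _)
  rw [Set.encard_coe_eq_coe_finsetCard, Set.encard_coe_eq_coe_finsetCard] at h2
  exact_mod_cast h2

lemma card_gb_eq (M : Matroid E) (hM : M.E = Set.univ) (Y Y' : E → ℝ≥0) :
    (gb M Y).card = (gb M Y').card := by
  have : ∀ Y Y' : E → ℝ≥0, (gb M Y).card ≤ (gb M Y').card := by
    intro Y Y'
    refine card_le_of_subset_closure M (gb_indep M hM Y) ?_
    intro x _
    exact M.closure_subset_closure (fun z hz => hz.1) (mem_closure_gb M hM Y' x)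
  exact le_antisymm (this _ _) (this _ _)

lemma sum_le_sum_gb (M : Matroid E) (hM : M.E = Set.univ) (Y : E → ℝ≥0) (I : Finset E)
    (hI : M.Indep (I : Set E)) : ∑ x ∈ I, Y x ≤ ∑ x ∈ gb M Y, Y x := by
  have h := Vale.Agent.P034.layer_cake
    (fun y => (if y ∈ gb M Y then (1 : ℝ) else 0) - (if y ∈ I then (1 : ℝ) else 0))
    (univ : Finset E).card univ (fun y => (Y y : ℝ)) le_rfl (fun x _ => (Y x).2) ?_
  · simp only [mul_sub, mul_ite, mul_one, mul_zero, sum_sub_distrib, ← sum_filter,
      filter_mem_eq_inter, univ_inter] at h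
    have : ((∑ x ∈ I, Y x : ℝ≥0) : ℝ) ≤ ((∑ x ∈ gb M Y, Y x : ℝ≥0) : ℝ) := by
      push_cast
      linarith
    exact_mod_cast this
  · intro x _
    set U : Finset E := univ.filter (fun y => (Y x : ℝ) ≤ Y y) with hU
    rw [sum_sub_distrib, sum_boole, sum_boole]
    have : (U.filter (fun y => y ∈ I)).card ≤ (U.filter (fun y => y ∈ gb M Y)).card := by
      refine card_le_of_subset_closure M (hI.subset ?_) ?_
      · intro y hy
        exact (mem_filter.1 (by simpa using hy : y ∈ U.filter (fun y => y ∈ I))).2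
      · intro y hy
        have hy' : y ∈ U := (mem_filter.1 (by simpa using hy : y ∈ U.filter (fun y => y ∈ I))).1
        refine M.closure_subset_closure ?_ (mem_closure_gb M hM Y y)
        intro z hz
        have h1 : (Y x : ℝ) ≤ Y y := (mem_filter.1 hy').2
        have h2 : (Y y : ℝ) ≤ Y z := by exact_mod_cast le_of_key_le hz.2
        simp only [coe_filter, Set.mem_ofPred_eq, hU, mem_filter, mem_univ, true_and]
        exact ⟨h1.trans h2, hz.1⟩
    have h3 : ((U.filter (fun y => y ∈ I)).card : ℝ) ≤ (U.filter (fun y => y ∈ gb M Y)).card := by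
      exact_mod_cast this
    linarith

omit [DecidableEq E] in
lemma key_eq_of_eq {Y Y' : E → ℝ≥0} {x : E} (h : Y x = Y' x) : key Y x = key Y' x := by
  simp [key, h]

omit [DecidableEq E] in
/-- Raising the weight of `e` can only remove other elements from the greedy basis. -/
lemma gb_mono (M : Matroid E) {Y Y' : E → ℝ≥0} {e : E} (h : ∀ x, x ≠ e → Y x = Y' x)
    (hle : key Y' e ≤ key Y e) :
    (∀ x, x ≠ e → x ∈ gb M Y → x ∈ gb M Y') ∧ (e ∈ gb M Y' → e ∈ gb M Y) := by
  constructor
  · intro x hx hxB
    rw [mem_gb] at hxB ⊢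
    refine fun hc => hxB (M.closure_subset_closure ?_ hc)
    intro y hy
    have hy' : key Y' x < key Y' y := hy
    show key Y x < key Y y
    rw [key_eq_of_eq (h x hx)]
    by_cases hye : y = e
    · subst hye
      exact hy'.trans_le hle
    · rwa [key_eq_of_eq (h y hye)]
  · intro heB
    rw [mem_gb] at heB ⊢
    refine fun hc => heB (M.closure_subset_closure ?_ hc)
    intro y hy
    have hy' : key Y e < key Y y := hy
    have hye : y ≠ e := fun h => by simp [h] at hy'
    show key Y' e < key Y' y
    rw [← key_eq_of_eq (h y hye)]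
    exact hle.trans_lt hy'

lemma gb_eq_of_iff (M : Matroid E) (hM : M.E = Set.univ) {Y Y' : E → ℝ≥0} {e : E}
    (h : ∀ x, x ≠ e → Y x = Y' x) (hiff : e ∈ gb M Y ↔ e ∈ gb M Y') : gb M Y = gb M Y' := by
  have key1 : ∀ {Y Y' : E → ℝ≥0}, (∀ x, x ≠ e → Y x = Y' x) → (e ∈ gb M Y ↔ e ∈ gb M Y') →
      key Y' e ≤ key Y e → gb M Y = gb M Y' := by
    intro Y Y' h hiff hle
    refine eq_of_subset_of_card_le ?_ (card_gb_eq M hM _ _).le
    intro x hx
    by_cases hxe : x = e
    · subst hxe
      exact hiff.1 hx
    · exact (gb_mono M h hle).1 x hxe hx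
  rcases le_total (key Y' e) (key Y e) with hle | hle
  · exact key1 h hiff hle
  · exact (key1 (fun x hx => (h x hx).symm) hiff.symm hle).symm

lemma gb_swap (M : Matroid E) (hM : M.E = Set.univ) {Y Y' : E → ℝ≥0} {e : E}
    (h : ∀ x, x ≠ e → Y x = Y' x) (h1 : e ∈ gb M Y) (h2 : e ∉ gb M Y') :
    ∃ f, f ≠ e ∧ f ∉ gb M Y ∧ gb M Y' = insert f ((gb M Y).erase e) := by
  have hle : key Y' e ≤ key Y e := by
    by_contra hc
    exact h2 ((gb_mono M (fun x hx => (h x hx).symm) (not_le.1 hc).le).2 h1)
  have hsub : (gb M Y).erase e ⊆ gb M Y' := by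
    intro x hx
    exact (gb_mono M h hle).1 x (mem_erase.1 hx).1 (mem_erase.1 hx).2
  have hcard : ((gb M Y).erase e).card + 1 = (gb M Y').card := by
    rw [card_erase_add_one h1, card_gb_eq M hM]
  obtain ⟨f, hf1, hf2⟩ := exists_eq_insert_iff.2 ⟨hsub, hcard⟩
  have hfe : f ≠ e := by
    rintro rfl
    exact h2 (hf2 ▸ mem_insert_self _ _)
  exact ⟨f, hfe, fun hc => hf1 (mem_erase.2 ⟨hfe, hc⟩), hf2.symm⟩

end Vale.Agent.P331
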