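import Vale.Agent.P331.Defs
import Vale.Agent.P331.Chain

/-!
Measurability, the counting identity, and the expected value of the swap rule.
-/

namespace Vale.Agent.P331

open Finset MeasureTheory
open scoped NNReal ENNReal

variable {E : Type} [Fintype E] [DecidableEq E]

lemma opt_eq (M : Matroid E) (hM : M.E = Set.univ) (Y : E → ℝ≥0) :
    opt M Y = ∑ x ∈ gb M Y, Y x := by
  have : Nonempty {I : Finset E // M.Indep (I : Set E)} := ⟨⟨∅, by simp⟩⟩
  refine le_antisymm (ciSup_le (fun I => sum_le_sum_gb M hM Y I.1 I.2)) ?_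
  exact le_ciSup (f := fun I : {I : Finset E // M.Indep (I : Set E)} => ∑ e ∈ I.1, Y e)
    (Set.finite_range _).bddAbove ⟨gb M Y, gb_indep M hM Y⟩

lemma accepted_spec (M : Matroid E) (hM : M.E = Set.univ) (S V : E → ℝ≥0) (c : E → Bool)
    (o : List E) (ho : IsOrder o) (y : E) :
    (y ∈ accepted (accept M) S c o V ↔ Act M (run M S c (o.reverse.map (fun z => (z, V z)))) y) ∧
    (Act M (run M S c (o.reverse.map (fun z => (z, V z)))) y →
        (run M S c (o.reverse.map (fun z => (z, V z)))).1 y = V y) := by
  have h := run_spec M hM S V c o.reverse (List.nodup_reverse.2 ho.1) y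
    (List.mem_reverse.2 (ho.2 y))
  rw [List.reverse_reverse] at h
  refine ⟨?_, h.2⟩
  rw [← h.1]
  simp [accepted, history]

lemma accepted_indep (M : Matroid E) (hM : M.E = Set.univ) (S V : E → ℝ≥0) (c : E → Bool)
    (o : List E) (ho : IsOrder o) : M.Indep (accepted (accept M) S c o V : Set E) := by
  refine (gb_indep M hM (run M S c (o.reverse.map (fun z => (z, V z)))).1).subset ?_
  intro y hy
  exact ((accepted_spec M hM S V c o ho y).1.1 (by simpa using hy)).1

lemma two_mul_card (x : E) :
    2 * (univ.filter (fun m : E → Bool => m x = true)).card = Fintype.card (E → Bool) := by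
  have h1 : (univ.filter (fun m : E → Bool => m x = true)).card
      = (univ.filter (fun m : E → Bool => ¬ m x = true)).card := by
    refine card_bij' (fun m _ => flip m x) (fun m _ => flip m x) ?_ ?_ ?_ ?_
    · intro m hm
      simpa [flip] using hm
    · intro m hm
      simpa [flip] using hm
    · intro m _
      exact flip_flip m x
    · intro m _
      exact flip_flip m x
  have h2 := card_filter_add_card_filter_not (s := (univ : Finset (E → Bool)))
    (fun m : E → Bool => m x = true)
  rw [card_univ] at h2
  omega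

lemma count_identity (M : Matroid E) (hM : M.E = Set.univ) (w : E → ℝ≥0 × ℝ≥0) (o : List E)
    (ho : IsOrder o) :
    2 * ∑ t : E → Bool, ∑ c : E → Bool,
        ∑ e ∈ accepted (accept M) (val w t) c o (val w (fun x => !t x)), val w (fun x => !t x) e
      = (Fintype.card (E → Bool) : ℝ≥0) * ∑ t : E → Bool, opt M (val w t) := by
  set G : (E → Bool) × (E → Bool) → ℝ≥0 :=
    fun s => ∑ e ∈ gb M (val w s.1), if s.2 e = true then val w s.1 e else 0 with hG
  have h1 : ∀ t c : E → Bool,
      ∑ e ∈ accepted (accept M) (val w t) c o (val w (fun x => !t x)), val w (fun x => !t x) e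
        = G (arun M w o.reverse (t, c)) := by
    intro t c
    have hr := (run_eq_arun M w t c o.reverse (List.nodup_reverse.2 ho.1)).1
    have hs := accepted_spec M hM (val w t) (val w (fun x => !t x)) c o ho
    rw [hr] at hs
    simp only [hG]
    rw [← sum_filter]
    refine sum_congr ?_ ?_
    · ext y
      rw [(hs y).1, mem_filter]
      rfl
    · intro y hy
      exact ((hs y).2 (mem_filter.1 hy)).symm
  simp only [h1]
  rw [← Fintype.sum_prod_type (fun s => G (arun M w o.reverse s)),
    (arun_bijective M hM w o.reverse).sum_comp G, Fintype.sum_prod_type, mul_sum, mul_sum]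
  refine sum_congr rfl (fun t _ => ?_)
  simp only [hG]
  rw [sum_comm, opt_eq M hM, mul_sum, mul_sum]
  refine sum_congr rfl (fun e _ => ?_)
  rw [← sum_filter, sum_const, nsmul_eq_mul, ← mul_assoc, ← two_mul_card e]
  push_cast
  rfl

open Classical in
/-- Indicator of the greedy basis. -/
noncomputable def gbi (M : Matroid E) (Y : E → ℝ≥0) : E → Bool := fun x => decide (x ∈ gb M Y)

lemma measurable_gbi (M : Matroid E) : Measurable (gbi M) := by
  classical
  have h1 : Measurable (fun (Y : E → ℝ≥0) (x y : E) => decide (key Y x < key Y y)) := by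
    refine measurable_pi_lambda _ (fun x => measurable_pi_lambda _ (fun y => ?_))
    refine measurable_to_bool ?_
    have : (fun Y : E → ℝ≥0 => decide (key Y x < key Y y)) ⁻¹' {true}
        = {Y | Y x < Y y} ∪ ({Y | Y x = Y y} ∩
          {_Y | (Fintype.equivFin E x : ℕ) < (Fintype.equivFin E y : ℕ)}) := by
      ext Y
      simp [key, Prod.Lex.toLex_lt_toLex]
    rw [this]
    refine (measurableSet_lt (measurable_pi_apply x) (measurable_pi_apply y)).union ?_
    exact (measurableSet_eq_fun (measurable_pi_apply x) (measurable_pi_apply y)).inter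
      (MeasurableSet.const _)
  have h2 : Measurable (fun (b : E → E → Bool) (x : E) =>
      decide (x ∉ M.closure {y | b x y = true})) := Measurable.of_discrete
  convert h2.comp h1 using 1
  funext Y x
  simp [gbi, mem_gb]

lemma gb_eq_filter (M : Matroid E) (Y : E → ℝ≥0) :
    gb M Y = univ.filter (fun x => gbi M Y x = true) := by
  ext x
  simp [gbi]

lemma measurable_step {α : Type} [MeasurableSpace α] (M : Matroid E) (P : Finset E) (e : E)
    {v : α → ℝ≥0} {s : α → (E → ℝ≥0) × (E → Bool)} (hv : Measurable v) (hs : Measurable s) :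
    Measurable (fun a => step M P (e, v a) (s a)) := by
  have hU : Measurable (fun a => Function.update (s a).1 e (v a)) :=
    measurable_update'.comp (hs.fst.prodMk hv)
  have hD : Measurable (fun b : (E → Bool) × (E → Bool) × (E → Bool) =>
      dec (univ.filter (fun x => b.1 x = true)) (univ.filter (fun x => b.2.1 x = true)) P e
        b.2.2) := Measurable.of_discrete
  have h3 : Measurable (fun a =>
      dec (gb M (s a).1) (gb M (Function.update (s a).1 e (v a))) P e (s a).2) := by
    have := hD.comp (((measurable_gbi M).comp hs.fst).prodMk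
      (((measurable_gbi M).comp hU).prodMk hs.snd))
    convert this using 1
    funext a
    simp only [Function.comp, ← gb_eq_filter]
  refine Measurable.prodMk (Measurable.ite ?_ hU hs.fst) h3.snd
  exact h3.fst (measurableSet_singleton true)

lemma measurable_run {α : Type} [MeasurableSpace α] (M : Matroid E) {S V : α → E → ℝ≥0}
    {c : α → E → Bool} (hS : Measurable S) (hV : Measurable V) (hc : Measurable c) (l : List E) :
    Measurable (fun a => run M (S a) (c a) (l.map (fun x => (x, V a x)))) := by
  induction l with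
  | nil => exact hS.prodMk hc
  | cons e l ih =>
    have := measurable_step M l.toFinset e ((measurable_pi_apply e).comp hV) ih
    convert this using 1
    funext a
    simp [run, List.map_map, Function.comp_def]

lemma measurable_accept {α : Type} [MeasurableSpace α] (M : Matroid E) {S V : α → E → ℝ≥0}
    {c : α → E → Bool} (hS : Measurable S) (hV : Measurable V) (hc : Measurable c) (l : List E)
    (e : E) :
    Measurable (fun a => accept M (S a) (c a) (l.map (fun x => (x, V a x))) (e, V a e)) := by
  have h := measurable_run M hS hV hc (e :: l.reverse)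
  have h1 : Measurable (fun a =>
      (gbi M (run M (S a) (c a) ((e :: l.reverse).map (fun x => (x, V a x)))).1 e,
        (run M (S a) (c a) ((e :: l.reverse).map (fun x => (x, V a x)))).2 e)) :=
    ((measurable_pi_apply e).comp ((measurable_gbi M).comp h.fst)).prodMk
      ((measurable_pi_apply e).comp h.snd)
  have h2 : Measurable (fun b : Bool × Bool => b.1 && b.2) := Measurable.of_discrete
  convert h2.comp h1 using 1
  funext a
  rw [Bool.eq_iff_iff, accept_iff]
  simp [Act, gbi, List.map_reverse]

lemma isOnlineRule_accept (M : Matroid E) (hM : M.E = Set.univ) :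
    IsOnlineRule (Ω := E → Bool) M (accept M) :=
  ⟨fun l e => measurable_accept M measurable_fst.fst measurable_fst.snd measurable_snd l e,
    fun S R o V ho => accepted_indep M hM S V R o ho⟩

lemma measurable_opt (M : Matroid E) (hM : M.E = Set.univ) : Measurable (opt M) := by
  have : opt M = fun Y => ∑ x, if gbi M Y x = true then Y x else 0 := by
    funext Y
    rw [opt_eq M hM, gb_eq_filter, sum_filter]
  rw [this]
  refine Finset.measurable_sum _ (fun x _ => Measurable.ite ?_ (measurable_pi_apply x)
    measurable_const)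
  exact ((measurable_pi_apply x).comp (measurable_gbi M)) (measurableSet_singleton true)

lemma measurable_reward {Ω : Type} [MeasurableSpace Ω] (M : Matroid E) (A : Rule E Ω)
    (hA : IsOnlineRule M A) (ord : (E → ℝ≥0) → (E → ℝ≥0) → List E) (h : IsPairAdversary ord) :
    Measurable (fun p : ((E → ℝ≥0) × (E → ℝ≥0)) × Ω =>
      ∑ e ∈ accepted A p.1.1 p.2 (ord p.1.1 p.1.2) p.1.2, p.1.2 e) := by
  let : MeasurableSpace (List E) := ⊤
  have : MeasurableSingletonClass (List E) := ⟨fun _ => trivial⟩
  have h1 : Measurable (fun p : ((E → ℝ≥0) × (E → ℝ≥0)) × Ω => ord p.1.1 p.1.2) :=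
    (measurable_to_countable' (f := fun p : (E → ℝ≥0) × (E → ℝ≥0) => ord p.1 p.2)
      (fun o => h.2.1 o)).comp measurable_fst
  have h2 : Measurable (fun q : List E × (((E → ℝ≥0) × (E → ℝ≥0)) × Ω) =>
      ∑ e ∈ accepted A q.2.1.1 q.2.2 q.1 q.2.1.2, q.2.1.2 e) := by
    refine measurable_from_prod_countable_right (fun o => ?_)
    simp only [accepted, sum_filter]
    refine Finset.measurable_sum _ (fun e _ => Measurable.ite ?_
      ((measurable_pi_apply e).comp measurable_fst.snd) measurable_const)
    exact hA.1 (o.takeWhile (fun x => x ≠ e)) e (measurableSet_singleton true)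
  exact h2.comp (h1.prodMk measurable_id)

/-- Swap sample and value at the coordinates selected by `t`. -/
def swapAt (t : E → Bool) (w : E → ℝ≥0 × ℝ≥0) : E → ℝ≥0 × ℝ≥0 :=
  fun x => if t x = true then (w x).swap else w x

omit [DecidableEq E] in
lemma measurePreserving_swapAt (D : E → Measure ℝ≥0) [∀ e, IsProbabilityMeasure (D e)]
    (t : E → Bool) : MeasurePreserving (swapAt t) (Measure.pi (fun e => (D e).prod (D e)))
      (Measure.pi (fun e => (D e).prod (D e))) := by
  have := measurePreserving_pi (fun e => (D e).prod (D e)) (fun e => (D e).prod (D e))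
    (f := fun e (p : ℝ≥0 × ℝ≥0) => if t e = true then p.swap else p) (fun e => by
      split_ifs
      · exact Measure.measurePreserving_swap
      · exact MeasurePreserving.id _)
  exact this

theorem expected_value (M : Matroid E) (hM : M.E = Set.univ) (D : E → Measure ℝ≥0)
    [∀ e, IsProbabilityMeasure (D e)] (ord : (E → ℝ≥0) → (E → ℝ≥0) → List E)
    (h : IsPairAdversary ord) :
    2 * ∫⁻ p, ((∑ e ∈ accepted (accept M) p.1.1 p.2 (ord p.1.1 p.1.2) p.1.2, p.1.2 e : ℝ≥0) : ℝ≥0∞)
        ∂(((Measure.pi D).prod (Measure.pi D)).prod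
          ((Fintype.card (E → Bool) : ℝ≥0∞)⁻¹ • Measure.count))
      = ∫⁻ v, (opt M v : ℝ≥0∞) ∂(Measure.pi D) := by
  set N : ℝ≥0∞ := (Fintype.card (E → Bool) : ℝ≥0∞) with hN
  have hN0 : N ≠ 0 := by simp [hN]
  have hN1 : N ≠ ⊤ := by simp [hN]
  set F : ((E → ℝ≥0) × (E → ℝ≥0)) × (E → Bool) → ℝ≥0∞ := fun p =>
    ((∑ e ∈ accepted (accept M) p.1.1 p.2 (ord p.1.1 p.1.2) p.1.2, p.1.2 e : ℝ≥0) : ℝ≥0∞) with hF
  have hFm : Measurable F :=
    (measurable_reward M _ (isOnlineRule_accept M hM) ord h).coe_nnreal_ennreal
  set mu := Measure.pi (fun e => (D e).prod (D e)) with hmu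
  set q := MeasurableEquiv.arrowProdEquivProdArrow ℝ≥0 ℝ≥0 E with hq
  have hqm : MeasurePreserving q mu ((Measure.pi D).prod (Measure.pi D)) :=
    measurePreserving_arrowProdEquivProdArrow ℝ≥0 ℝ≥0 E D D
  set G : (E → ℝ≥0 × ℝ≥0) → ℝ≥0∞ := fun w => ∑ c, F (q w, c) with hG
  have hGm : Measurable G :=
    Finset.measurable_sum _ (fun c _ => hFm.comp (q.measurable.prodMk measurable_const))
  set O : (E → ℝ≥0 × ℝ≥0) → ℝ≥0∞ := fun w => (opt M (q w).1 : ℝ≥0∞) with hO
  have hOm : Measurable O :=
    ((measurable_opt M hM).comp q.measurable.fst).coe_nnreal_ennreal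
  have e1 : ∫⁻ p, F p ∂(((Measure.pi D).prod (Measure.pi D)).prod (N⁻¹ • Measure.count))
      = N⁻¹ * ∫⁻ w, G w ∂mu := by
    rw [lintegral_prod _ hFm.aemeasurable, ← hqm.lintegral_comp hFm.lintegral_prod_right',
      ← lintegral_const_mul _ hGm]
    refine lintegral_congr (fun w => ?_)
    rw [lintegral_smul_measure, lintegral_count, tsum_fintype]
    rfl
  have e2 : ∫⁻ v, (opt M v : ℝ≥0∞) ∂(Measure.pi D) = ∫⁻ w, O w ∂mu := by
    rw [hO, hqm.lintegral_comp
      (f := fun p : (E → ℝ≥0) × (E → ℝ≥0) => (opt M p.1 : ℝ≥0∞))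
      ((measurable_opt M hM).comp measurable_fst).coe_nnreal_ennreal]
    exact (measurePreserving_fst.lintegral_comp (measurable_opt M hM).coe_nnreal_ennreal).symm
  have e3 : ∀ {H : (E → ℝ≥0 × ℝ≥0) → ℝ≥0∞}, Measurable H →
      ∫⁻ w, ∑ t : E → Bool, H (swapAt t w) ∂mu = N * ∫⁻ w, H w ∂mu := by
    intro H hH
    rw [lintegral_finsetSum _ (f := fun t w => H (swapAt t w))
      (fun t _ => hH.comp (measurePreserving_swapAt D t).measurable)]
    rw [sum_congr rfl (fun t _ => (measurePreserving_swapAt D t).lintegral_comp hH),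
      sum_const, card_univ, nsmul_eq_mul]
  have e4 : ∀ w, 2 * ∑ t : E → Bool, G (swapAt t w) = N * ∑ t : E → Bool, O (swapAt t w) := by
    intro w
    have hq1 : ∀ t : E → Bool, q (swapAt t w) = (val w t, val w (fun x => !t x)) := by
      intro t
      refine Prod.ext ?_ ?_ <;> funext x <;> by_cases ht : t x = true <;>
        simp [hq, MeasurableEquiv.arrowProdEquivProdArrow, Equiv.arrowProdEquivProdArrow,
          swapAt, val, ht]
    have hord : ∀ t : E → Bool, ord (val w t) (val w (fun x => !t x))
        = ord (fun x => (w x).1) (fun x => (w x).2) := by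
      intro t
      refine h.2.2 _ _ _ _ (fun e => ?_)
      by_cases ht : t e = true
      · simp only [val, ht, if_true, Bool.not_true]
        exact Sym2.eq_swap
      · simp [val, ht]
    have := count_identity M hM w _ (h.1 (fun x => (w x).1) (fun x => (w x).2))
    simp only [hG, hF, hO, hq1, hord]
    rw [hN]
    exact_mod_cast this
  have hGs : Measurable (fun w => ∑ t : E → Bool, G (swapAt t w)) :=
    Finset.measurable_sum _ (fun t _ => hGm.comp (measurePreserving_swapAt D t).measurable)
  have hOs : Measurable (fun w => ∑ t : E → Bool, O (swapAt t w)) :=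
    Finset.measurable_sum _ (fun t _ => hOm.comp (measurePreserving_swapAt D t).measurable)
  have e5 : 2 * (N * ∫⁻ w, G w ∂mu) = N * (N * ∫⁻ w, O w ∂mu) := by
    rw [← e3 hGm, ← e3 hOm, ← lintegral_const_mul _ hGs, ← lintegral_const_mul _ hOs]
    exact lintegral_congr e4
  have e6 : 2 * ∫⁻ w, G w ∂mu = N * ∫⁻ w, O w ∂mu := by
    rw [mul_left_comm] at e5
    exact (ENNReal.mul_right_inj hN0 hN1).1 e5
  rw [e1, e2, mul_left_comm, e6, ← mul_assoc, ENNReal.inv_mul_cancel hN0 hN1, one_mul]

end Vale.Agent.P331
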